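import Mathlib

/-! Linear algebra lemmas. -/

namespace Vale.Agent.P199

open Finset Module

set_option linter.unusedSectionVars false

variable {F A B Q : Type} [Field F] [AddCommGroup A] [Module F A] [AddCommGroup B] [Module F B]
  [AddCommGroup Q] [Module F Q]

theorem rank_null [FiniteDimensional F A] (f : A →ₗ[F] B) (V : Submodule F A) :
    finrank F (V ⊓ LinearMap.ker f : Submodule F A) + finrank F (V.map f) = finrank F V := by
  have h := LinearMap.finrank_range_add_finrank_ker (f.domRestrict V)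
  rw [LinearMap.range_domRestrict, LinearMap.ker_domRestrict,
    ← Submodule.finrank_map_subtype_eq V, Submodule.map_comap_subtype] at h
  omega

theorem finrank_map_inj [FiniteDimensional F A] (f : A →ₗ[F] B) (V : Submodule F A)
    (hf : ∀ x ∈ V, f x = 0 → x = 0) : finrank F (V.map f) = finrank F V := by
  have h := rank_null f V
  have : V ⊓ LinearMap.ker f = ⊥ := by
    rw [eq_bot_iff]
    intro x hx
    exact hf x hx.1 hx.2
  rw [this, finrank_bot] at h
  omega

theorem finrank_le_of_inj [FiniteDimensional F A] [FiniteDimensional F B] (f : A →ₗ[F] B)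
    (V : Submodule F A) (U : Submodule F B) (hU : ∀ x ∈ V, f x ∈ U)
    (hf : ∀ x ∈ V, f x = 0 → x = 0) : finrank F V ≤ finrank F U := by
  rw [← finrank_map_inj f V hf]
  exact Submodule.finrank_mono (by rintro _ ⟨x, hx, rfl⟩; exact hU x hx)

theorem exists_compl_le [FiniteDimensional F A] {V M : Submodule F A} (h : V ≤ M) :
    ∃ Y ≤ M, V ⊔ Y = M ∧ finrank F V + finrank F Y = finrank F M := by
  obtain ⟨Y, hY⟩ := V.exists_isCompl
  have e : V ⊔ (Y ⊓ M) = M := by
    rw [← sup_inf_assoc_of_le _ h, hY.sup_eq_top, top_inf_eq]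
  refine ⟨Y ⊓ M, inf_le_right, e, ?_⟩
  have := Submodule.finrank_sup_add_finrank_inf_eq V (Y ⊓ M)
  rw [e, ← inf_assoc, hY.inf_eq_bot, bot_inf_eq, finrank_bot] at this
  omega

theorem finrank_comap_ge [FiniteDimensional F A] [FiniteDimensional F B] (f : A →ₗ[F] B)
    (V : Submodule F A) (U : Submodule F B) :
    finrank F V + finrank F U ≤ finrank F (V ⊓ U.comap f : Submodule F A) + finrank F B := by
  have h := rank_null (U.mkQ ∘ₗ f) V
  rw [LinearMap.ker_comp, Submodule.ker_mkQ] at h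
  have h2 := Submodule.finrank_le (V.map (U.mkQ ∘ₗ f))
  have h3 := U.finrank_quotient_add_finrank
  omega

theorem pair_le [FiniteDimensional F A] [FiniteDimensional F B] (β : A →ₗ[F] B →ₗ[F] F)
    (N : Submodule F A) {W V : Submodule F B} (hWV : W ≤ V)
    (hnd : ∀ v ∈ N, (∀ y ∈ V, β v y = 0) → v = 0) (h0 : ∀ v ∈ N, ∀ y ∈ W, β v y = 0) :
    finrank F N + finrank F W ≤ finrank F V := by
  obtain ⟨Y, -, hY, hd⟩ := exists_compl_le hWV
  have := finrank_le_of_inj (β.domRestrict₂ Y) N ⊤ (fun _ _ => trivial) (fun v hv h => by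
    refine hnd v hv fun y hy => ?_
    rw [← hY] at hy
    obtain ⟨a, ha, b, hb, rfl⟩ := Submodule.mem_sup.mp hy
    have := LinearMap.congr_fun h ⟨b, hb⟩
    simp only [LinearMap.domRestrict₂_apply, LinearMap.zero_apply] at this
    rw [map_add, h0 v hv a ha, this, add_zero])
  rw [finrank_top, Subspace.dual_finrank_eq] at this
  omega

theorem exists_perturb [Infinite F] {ι : Type} [Fintype ι] (v v' : ι → Q)
    (hv : LinearIndependent F v) : ∃ ε : F, ε ≠ 0 ∧ LinearIndependent F fun i => v i + ε • v' i := by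
  classical
  obtain ⟨ℓ, hℓ⟩ := (Fintype.linearCombination F v).exists_leftInverse_of_injective
    (LinearMap.ker_eq_bot.mpr (linearIndependent_iff_injective_fintypeLinearCombination.mp hv))
  let M : Module.End F (ι → F) := ℓ ∘ₗ Fintype.linearCombination F v'
  obtain ⟨μ, hμ⟩ := (M.finite_hasEigenvalue.union (Set.finite_singleton 0)).exists_notMem
  simp only [Set.mem_union, Set.mem_ofPred_eq, Set.mem_singleton_iff, not_or] at hμ
  refine ⟨-μ⁻¹, by simpa using hμ.2, Fintype.linearIndependent_iff.mpr fun g hg => ?_⟩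
  by_contra hc
  have hg0 : g ≠ 0 := fun h => hc fun i => by simp [h]
  apply hμ.1
  refine Module.End.hasEigenvalue_of_hasEigenvector (x := g) ⟨?_, hg0⟩
  rw [Module.End.mem_eigenspace_iff]
  have e : Fintype.linearCombination F v g = μ⁻¹ • Fintype.linearCombination F v' g := by
    simp only [Fintype.linearCombination_apply, smul_sum]
    simp only [smul_add, sum_add_distrib, neg_smul, smul_neg, sum_neg_distrib] at hg
    rw [add_neg_eq_zero] at hg
    rw [hg]
    exact sum_congr rfl fun i _ => smul_comm _ _ _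
  have e2 := LinearMap.congr_fun hℓ g
  rw [LinearMap.comp_apply, e, map_smul, LinearMap.id_apply] at e2
  have : M g = ℓ (Fintype.linearCombination F v' g) := rfl
  rw [this, ← e2, smul_smul, mul_inv_cancel₀ hμ.2, one_smul, e2]

theorem exists_basis_map [FiniteDimensional F B] (f : B →ₗ[F] Q) (V : Submodule F B) :
    ∃ x : Fin (finrank F (V.map f)) → B, (∀ i, x i ∈ V) ∧ LinearIndependent F fun i => f (x i) := by
  let b := Module.finBasis F (V.map f)
  choose x hx hx' using fun i => (b i).2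
  refine ⟨x, hx, ?_⟩
  have := b.linearIndependent.map' (V.map f).subtype (Submodule.ker_subtype _)
  have e : (fun i => f (x i)) = (V.map f).subtype ∘ b := by
    funext i; exact hx' i
  rwa [e]

theorem card_le_finrank_of_mem [FiniteDimensional F Q] {ι : Type} [Fintype ι] {v : ι → Q}
    (hv : LinearIndependent F v) (M : Submodule F Q) (h : ∀ i, v i ∈ M) :
    Fintype.card ι ≤ finrank F M := by
  rw [← finrank_span_eq_card hv]
  exact Submodule.finrank_mono (Submodule.span_le.mpr (by rintro _ ⟨i, rfl⟩; exact h i))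

theorem rank_lemma [Infinite F] [FiniteDimensional F B] [FiniteDimensional F Q]
    (b : A →ₗ[F] B →ₗ[F] Q) (U : Submodule F A) (V : Submodule F B) (Q0 : Submodule F Q)
    (hb : ∀ u ∈ U, ∀ v ∈ V, b u v ∈ Q0) :
    (∃ u ∈ U, V.map (b u) = Q0) ∨ ∃ ξ : Q →ₗ[F] F, (∃ q ∈ Q0, ξ q ≠ 0) ∧ ∃ N ≤ V,
      finrank F V < finrank F N + finrank F Q0 ∧ ∀ u ∈ U, ∀ v ∈ N, ξ (b u v) = 0 := by
  classical
  have hle : ∀ u ∈ U, V.map (b u) ≤ Q0 := by
    rintro u hu _ ⟨v, hv, rfl⟩; exact hb u hu v hv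
  let P : ℕ → Prop := fun r => ∃ u ∈ U, finrank F (V.map (b u)) = r
  have hP : ∀ r, P r → r ≤ finrank F Q0 := by
    rintro r ⟨u, hu, rfl⟩; exact Submodule.finrank_mono (hle u hu)
  obtain ⟨u, hu, hr⟩ : P (Nat.findGreatest P (finrank F Q0)) :=
    Nat.findGreatest_spec (hP _ ⟨0, zero_mem _, rfl⟩) ⟨0, zero_mem _, rfl⟩
  have hmax : ∀ u' ∈ U, finrank F (V.map (b u')) ≤ finrank F (V.map (b u)) := fun u' hu' =>
    hr ▸ Nat.le_findGreatest (hP _ ⟨u', hu', rfl⟩) ⟨u', hu', rfl⟩
  by_cases he : V.map (b u) = Q0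
  · exact Or.inl ⟨u, hu, he⟩
  right
  have hlt : V.map (b u) < Q0 := lt_of_le_of_ne (hle u hu) he
  obtain ⟨q, hq, hq'⟩ := SetLike.exists_of_lt hlt
  obtain ⟨ξ, hξ, hξ'⟩ := Submodule.exists_dual_map_eq_bot_of_notMem hq' inferInstance
  refine ⟨ξ, ⟨q, hq, hξ⟩, V ⊓ LinearMap.ker (b u), inf_le_left, ?_, fun u' hu' y hy => ?_⟩
  · have := rank_null (b u) V
    have := Submodule.finrank_lt_finrank_of_lt hlt
    omega
  · have key : b u' y ∈ V.map (b u) := by
      by_contra hc
      obtain ⟨x, hx, hxi⟩ := exists_basis_map (b u) V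
      have h1 : LinearIndependent F (fun o : Option _ => o.casesOn' (b u' y) fun i => b u (x i)) := by
        refine hxi.option (fun h => hc (Submodule.span_le.mpr ?_ h))
        rintro _ ⟨i, rfl⟩
        exact ⟨x i, hx i, rfl⟩
      obtain ⟨ε, hε, h2⟩ := exists_perturb _ (fun o : Option _ => o.casesOn' 0 fun i => b u' (x i)) h1
      have h3 := card_le_finrank_of_mem h2 (V.map (b (u + ε • u'))) (by
        rintro (_ | i)
        · refine ⟨ε⁻¹ • y, V.smul_mem _ hy.1, ?_⟩
          have : b u y = 0 := hy.2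
          simp [this, smul_smul, hε]
        · exact ⟨x i, hx i, by simp⟩)
      have h4 := hmax _ (add_mem hu (U.smul_mem ε hu'))
      simp at h3
      omega
    have : ξ (b u' y) ∈ (V.map (b u)).map ξ := ⟨_, key, rfl⟩
    rwa [hξ', Submodule.mem_bot] at this

theorem rank_avoid [Infinite F] [FiniteDimensional F B] [FiniteDimensional F Q]
    (b : A →ₗ[F] B →ₗ[F] Q) (U : Submodule F A) (V : Submodule F B) (Q0 : Submodule F Q)
    (hb : ∀ u ∈ U, ∀ v ∈ V, b u v ∈ Q0) (h0 : ∃ u ∈ U, V.map (b u) = Q0) (X : Submodule F A)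
    (hX : ¬ U ≤ X) : ∃ u ∈ U, u ∉ X ∧ V.map (b u) = Q0 := by
  obtain ⟨u, hu, he⟩ := h0
  by_cases h : u ∈ X
  swap
  · exact ⟨u, hu, h, he⟩
  obtain ⟨u', hu', hu'X⟩ := SetLike.not_le_iff_exists.mp hX
  obtain ⟨x, hx, hxi⟩ := exists_basis_map (b u) V
  obtain ⟨ε, hε, h2⟩ := exists_perturb _ (fun i => b u' (x i)) hxi
  have hm := add_mem hu (U.smul_mem ε hu')
  refine ⟨u + ε • u', hm, fun hc => hu'X ?_, ?_⟩
  · have := X.smul_mem ε⁻¹ (sub_mem hc h)
    simpa [smul_smul, hε] using this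
  · refine Submodule.eq_of_le_of_finrank_le (by rintro _ ⟨v, hv, rfl⟩; exact hb _ hm v hv) ?_
    have h3 := card_le_finrank_of_mem h2 (V.map (b (u + ε • u'))) fun i => ⟨x i, hx i, by simp⟩
    rw [← he]
    simpa using h3

end Vale.Agent.P199
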