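import Vale.Agent.P199.Ev
import Vale.Agent.P199.LinAlg

/-! Derivatives of polynomials, trace forms and projections in division algebras. -/

namespace Vale.Agent.P199

open Finset Module Polynomial

set_option linter.unusedSectionVars false

section dp

variable {F A : Type} [CommRing F] [Ring A] [Algebra F A]

noncomputable def dpow (F : Type) [CommRing F] [Algebra F A] (c : A) : ℕ → A →ₗ[F] A
  | 0 => 0
  | k + 1 => LinearMap.mulRight F c ∘ₗ dpow F c k + LinearMap.mulLeft F (c ^ k)

theorem dpow_zero (c γ : A) : dpow F c 0 γ = 0 := rfl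
theorem dpow_succ (c γ : A) (k : ℕ) : dpow F c (k + 1) γ = dpow F c k γ * c + c ^ k * γ := rfl

/-- derivative of `p` at `c` -/
noncomputable def dp (p : F[X]) (c : A) : A →ₗ[F] A := p.sum fun k a => a • dpow F c k

theorem dp_add (p q : F[X]) (c γ : A) : dp (p + q) c γ = dp p c γ + dp q c γ := by
  rw [dp, Polynomial.sum_add_index _ _ _ (by simp) (by simp [add_smul])]
  rfl

theorem dp_monomial (k : ℕ) (a : F) (c γ : A) : dp (monomial k a) c γ = a • dpow F c k γ := by
  rw [dp, Polynomial.sum_monomial_index _ _ (by simp)]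
  rfl

theorem aeval_mono (k : ℕ) (a : F) (c : A) : aeval c (monomial k a) = a • c ^ k := by
  rw [aeval_monomial, Algebra.smul_def]

theorem aeval_der_mono (k : ℕ) (a : F) (c : A) :
    aeval c (derivative (monomial k a)) = a • ((k : A) * c ^ (k - 1)) := by
  rw [derivative_monomial, aeval_mono, mul_smul, Nat.cast_smul_eq_nsmul, nsmul_eq_mul]

theorem dp_comm (p : F[X]) (c ζ : A) :
    dp p c (ζ * c - c * ζ) = ζ * aeval c p - aeval c p * ζ := by
  induction p using Polynomial.induction_on' with
  | add p q hp hq => rw [dp_add, hp, hq, map_add]; noncomm_ring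
  | monomial k a =>
    have : dpow F c k (ζ * c - c * ζ) = ζ * c ^ k - c ^ k * ζ := by
      induction k with
      | zero => simp [dpow_zero]
      | succ k ih => rw [dpow_succ, ih, pow_succ]; noncomm_ring
    rw [dp_monomial, this, aeval_mono, smul_sub, mul_smul_comm, smul_mul_assoc]

theorem dp_comm' (p : F[X]) (c γ : A) :
    dp p c γ * c - c * dp p c γ = γ * aeval c p - aeval c p * γ := by
  induction p using Polynomial.induction_on' with
  | add p q hp hq =>
    rw [dp_add, map_add, add_mul, mul_add, add_sub_add_comm, hp, hq]; noncomm_ring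
  | monomial k a =>
    have : dpow F c k γ * c - c * dpow F c k γ = γ * c ^ k - c ^ k * γ := by
      induction k with
      | zero => simp [dpow_zero]
      | succ k ih =>
        have e : c * c ^ k = c ^ k * c := (pow_succ' c k).symm.trans (pow_succ c k)
        calc _ = (dpow F c k γ * c - c * dpow F c k γ) * c + c ^ k * γ * c - c * c ^ k * γ := by
              rw [dpow_succ]; noncomm_ring
          _ = _ := by rw [ih, e, pow_succ]; noncomm_ring
    rw [dp_monomial, aeval_mono, mul_smul_comm, smul_mul_assoc, mul_smul_comm, smul_mul_assoc,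
      ← smul_sub, ← smul_sub, this]

theorem pow_pred_aux (c : A) (k : ℕ) : (k : A) * c ^ (k - 1) * c = (k : A) * c ^ k := by
  cases k with
  | zero => simp
  | succ k => simp [mul_assoc, pow_succ]

theorem dp_cent (p : F[X]) {c z : A} (h : c * z = z * c) :
    dp p c z = aeval c (derivative p) * z := by
  induction p using Polynomial.induction_on' with
  | add p q hp hq => rw [dp_add, hp, hq, map_add, map_add, add_mul]
  | monomial k a =>
    have : dpow F c k z = (k : A) * c ^ (k - 1) * z := by
      induction k with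
      | zero => simp [dpow_zero]
      | succ k ih =>
        rw [dpow_succ, ih, mul_assoc, ← h, ← mul_assoc, pow_pred_aux]
        simp [add_mul]
    rw [dp_monomial, this, aeval_der_mono, smul_mul_assoc]

theorem dp_trace {M : Type} [AddCommGroup M] [Module F M] (T : A →ₗ[F] M)
    (hT : ∀ x y, T (x * y) = T (y * x)) (p : F[X]) {c t : A} (h : c * t = t * c) (γ : A) :
    T (t * dp p c γ) = T (t * aeval c (derivative p) * γ) := by
  induction p using Polynomial.induction_on' with
  | add p q hp hq => simp only [dp_add, mul_add, add_mul, map_add, hp, hq]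
  | monomial k a =>
    have : ∀ t : A, c * t = t * c → T (t * dpow F c k γ) = T (t * ((k : A) * c ^ (k - 1)) * γ) := by
      induction k with
      | zero => simp [dpow_zero]
      | succ k ih =>
        intro t h
        rw [dpow_succ, mul_add, map_add, ← mul_assoc, hT _ c, ← mul_assoc,
          ih (c * t) (by rw [mul_assoc, h]), ← map_add, h, mul_assoc t c,
          ← mul_assoc c, ← (Nat.cast_comm k c), mul_assoc (k : A), ← (Commute.pow_self c _).eq,
          ← mul_assoc (k : A), pow_pred_aux]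
        congr 1
        simp [add_mul, mul_add, mul_assoc]
    rw [dp_monomial, aeval_der_mono, mul_smul_comm, mul_smul_comm, smul_mul_assoc, map_smul,
      map_smul, this t h]

variable {I : Type} [Fintype I]

theorem aeval_nil (α : NC I A) (p : F[X]) : (aeval α p : NC I A) [] = aeval (α []) p :=
  (aeval_algHom_apply (NC.c0a : NC I A →ₐ[F] A) α p).symm

theorem pow_nil (α : NC I A) (k : ℕ) : (α ^ k : NC I A) [] = α [] ^ k :=
  map_pow (NC.c0 : NC I A →+* A) α k

theorem lin_pow (α : NC I A) (k : ℕ) (h : I → F) :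
    lin F (α ^ k) h = dpow F (α []) k (lin F α h) := by
  induction k with
  | zero => simp [dpow_zero, lin_apply]
  | succ k ih => rw [pow_succ, lin_mul, ih, dpow_succ, pow_nil]

theorem lin_aeval (α : NC I A) (p : F[X]) (h : I → F) :
    lin F (aeval α p) h = dp p (α []) (lin F α h) := by
  induction p using Polynomial.induction_on' with
  | add p q hp hq => rw [map_add, lin_add, dp_add, hp, hq]
  | monomial k a => rw [aeval_mono, lin_smul, dp_monomial, lin_pow]

theorem quad_aeval (α : NC I A) (p : F[X]) (h h' : I → F) (ζ : A)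
    (hζ : lin F α h' = ζ * α [] - α [] * ζ) :
    quad F (aeval α p) h h' =
      dp p (α []) (quad F α h h' + lin F α h * ζ) - dp p (α []) (lin F α h) * ζ := by
  induction p using Polynomial.induction_on' with
  | add p q hp hq => rw [map_add, quad_add, dp_add, dp_add, hp, hq]; noncomm_ring
  | monomial k a =>
    have : quad F (α ^ k) h h' = dpow F (α []) k (quad F α h h' + lin F α h * ζ) -
        dpow F (α []) k (lin F α h) * ζ := by
      induction k with
      | zero => simp [dpow_zero, quad_apply, lin_apply]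
      | succ k ih =>
        rw [pow_succ, quad_mul, ih, dpow_succ, dpow_succ, pow_nil, lin_pow, hζ]
        noncomm_ring
    rw [aeval_mono, quad_smul, dp_monomial, dp_monomial, this, smul_sub, smul_mul_assoc]

end dp

section div

variable {F Δ : Type} [Field F] [DivisionRing Δ] [Algebra F Δ] [FiniteDimensional F Δ]

/-- a nonzero trace functional -/
structure IsTr (T : Δ →ₗ[F] F) : Prop where
  comm : ∀ x y, T (x * y) = T (y * x)
  one : T 1 ≠ 0

theorem inv_mem_subalg (K : Subalgebra F Δ) {x : Δ} (hx : x ∈ K) : x⁻¹ ∈ K := by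
  by_cases h0 : x = 0
  · simp [h0]
  let f : K →ₗ[F] K := LinearMap.mulLeft F ⟨x, hx⟩
  have hf : Function.Injective f := fun a b h => by
    have : x * a = x * b := congrArg Subtype.val h
    exact Subtype.ext (mul_left_cancel₀ h0 this)
  obtain ⟨y, hy⟩ := (LinearMap.injective_iff_surjective.mp hf) 1
  have : x * y = 1 := congrArg Subtype.val hy
  rw [← eq_inv_of_mul_eq_one_right this]
  exact y.2

theorem finrank_dvd (K : Subalgebra F Δ) (M : Submodule F Δ) (h : ∀ k ∈ K, ∀ m ∈ M, k * m ∈ M) :
    finrank F K ∣ finrank F M := by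
  let _ : DivisionRing K := divisionRingOfFiniteDimensional F K
  let M' : Submodule K Δ :=
    { carrier := M
      add_mem' := fun ha hb => add_mem ha hb
      zero_mem' := zero_mem M
      smul_mem' := fun k m hm => h k k.2 m hm }
  have e : finrank F M = finrank F M' := rfl
  rw [e, ← Module.finrank_mul_finrank F K M']
  exact Dvd.intro _ rfl

/-- orthogonal complement inside `Z` -/
def perp (T : Δ →ₗ[F] F) (Z A : Submodule F Δ) : Submodule F Δ where
  carrier := {y | y ∈ Z ∧ ∀ a ∈ A, T (y * a) = 0}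
  add_mem' ha hb := ⟨add_mem ha.1 hb.1, fun a h => by rw [add_mul, map_add, ha.2 a h, hb.2 a h, add_zero]⟩
  zero_mem' := ⟨zero_mem _, fun a _ => by simp⟩
  smul_mem' c x hx := ⟨Z.smul_mem c hx.1, fun a h => by rw [smul_mul_assoc, map_smul, hx.2 a h, smul_zero]⟩

theorem mem_perp {T : Δ →ₗ[F] F} {Z A : Submodule F Δ} {y : Δ} :
    y ∈ perp T Z A ↔ y ∈ Z ∧ ∀ a ∈ A, T (y * a) = 0 := Iff.rfl

variable {T : Δ →ₗ[F] F}

theorem IsTr.nd (hT : IsTr T) {Z : Subalgebra F Δ} {x : Δ} (hx : x ∈ Z)
    (h : ∀ y ∈ Z, T (x * y) = 0) : x = 0 := by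
  by_contra h0
  have := h _ (inv_mem_subalg Z hx)
  rw [mul_inv_cancel₀ h0] at this
  exact hT.one this

theorem finrank_perp (hT : IsTr T) (Z : Subalgebra F Δ) {A : Submodule F Δ}
    (hA : A ≤ Z.toSubmodule) :
    finrank F (perp T Z.toSubmodule A) + finrank F A = finrank F Z := by
  apply le_antisymm
  · exact pair_le ((LinearMap.mul F Δ).compr₂ T) _ hA (fun v hv h => hT.nd hv.1 h)
      (fun v hv y hy => hv.2 y hy)
  · have h := rank_null (((LinearMap.mul F Δ).compr₂ T).domRestrict₂ A) Z.toSubmodule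
    have h2 := Submodule.finrank_le
      (Z.toSubmodule.map (((LinearMap.mul F Δ).compr₂ T).domRestrict₂ A))
    rw [Subspace.dual_finrank_eq] at h2
    have h3 : finrank F (Z.toSubmodule ⊓
        LinearMap.ker (((LinearMap.mul F Δ).compr₂ T).domRestrict₂ A) : Submodule F Δ) ≤
        finrank F (perp T Z.toSubmodule A) :=
      Submodule.finrank_mono fun y hy => ⟨hy.1, fun a ha => LinearMap.congr_fun hy.2 ⟨a, ha⟩⟩
    have e : finrank F Z = finrank F Z.toSubmodule := rfl
    omega

theorem perp_perp (hT : IsTr T) (Z : Subalgebra F Δ) {A : Submodule F Δ}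
    (hA : A ≤ Z.toSubmodule) : perp T Z.toSubmodule (perp T Z.toSubmodule A) = A := by
  symm
  refine Submodule.eq_of_le_of_finrank_le (fun a ha => ⟨hA ha, fun y hy => ?_⟩) ?_
  · rw [hT.comm]; exact hy.2 a ha
  · have h1 := finrank_perp hT Z hA
    have h2 := finrank_perp hT Z (A := perp T Z.toSubmodule A) fun y hy => hy.1
    omega

theorem IsTr.exists_dual (hT : IsTr T) (ξ : Δ →ₗ[F] F) : ∃ t, ∀ a, ξ a = T (t * a) := by
  have hinj : Function.Injective ((LinearMap.mul F Δ).compr₂ T) := by
    rw [← LinearMap.ker_eq_bot, eq_bot_iff]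
    intro x hx
    exact hT.nd (Z := ⊤) trivial fun y _ => LinearMap.congr_fun hx y
  obtain ⟨t, ht⟩ := (LinearMap.injective_iff_surjective_of_finrank_eq_finrank
    Subspace.dual_finrank_eq.symm).mp hinj ξ
  exact ⟨t, fun a => (LinearMap.congr_fun ht a).symm⟩

/-- centralizer -/
def Zc (F : Type) [Field F] [Algebra F Δ] (c : Δ) : Subalgebra F Δ := Subalgebra.centralizer F {c}

theorem mem_Zc {c z : Δ} : z ∈ Zc F c ↔ c * z = z * c := by
  simp [Zc, Subalgebra.mem_centralizer_iff]

/-- generated subalgebra -/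
def Kc (F : Type) [Field F] [Algebra F Δ] (c : Δ) : Subalgebra F Δ := Algebra.adjoin F {c}

theorem mem_Kc {c k : Δ} : k ∈ Kc F c ↔ ∃ q : F[X], aeval c q = k := by
  rw [Kc, Algebra.adjoin_singleton_eq_range_aeval]; rfl

theorem comm_of_mem {c k z : Δ} (hk : k ∈ Kc F c) (hz : z ∈ Zc F c) : k * z = z * k :=
  (Algebra.commute_of_mem_adjoin_singleton_of_commute hk (mem_Zc.mp hz).symm).symm

theorem Kc_le_Zc (c : Δ) : Kc F c ≤ Zc F c :=
  Algebra.adjoin_le (by simp [mem_Zc])

theorem self_mem_Kc (c : Δ) : c ∈ Kc F c := Algebra.subset_adjoin rfl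

/-- derivative of the minimal polynomial -/
noncomputable def pd (F : Type) [Field F] [Algebra F Δ] (c : Δ) : Δ :=
  aeval c (derivative (minpoly F c))

theorem pd_mem (c : Δ) : pd F c ∈ Kc F c := mem_Kc.mpr ⟨_, rfl⟩

theorem pd_ne [CharZero F] (c : Δ) : pd F c ≠ 0 := by
  have hi : IsIntegral F c := Algebra.IsIntegral.isIntegral c
  intro h
  have hd := minpoly.natDegree_pos hi
  have hne : derivative (minpoly F c) ≠ 0 := fun h0 => by
    have := Polynomial.derivative_eq_zero.mp h0
    omega
  have := minpoly.degree_le_of_ne_zero F c hne h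
  exact absurd (degree_derivative_lt (minpoly.ne_zero hi)) (not_lt.mpr this)

/-- projection to the centralizer -/
noncomputable def pr (F : Type) [Field F] [Algebra F Δ] (c : Δ) : Δ →ₗ[F] Δ :=
  LinearMap.mulLeft F (pd F c)⁻¹ ∘ₗ dp (minpoly F c) c

/-- commutator with `c` -/
noncomputable def ad (F : Type) [Field F] [Algebra F Δ] (c : Δ) : Δ →ₗ[F] Δ :=
  LinearMap.mulRight F c - LinearMap.mulLeft F c

theorem ad_apply (c ζ : Δ) : ad F c ζ = ζ * c - c * ζ := rfl

variable [CharZero F]

theorem dp_eq_pr (c a : Δ) : dp (minpoly F c) c a = pd F c * pr F c a := by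
  simp [pr, pd_ne c]

theorem pr_mem (c a : Δ) : pr F c a ∈ Zc F c := by
  refine mul_mem (inv_mem_subalg _ (Kc_le_Zc c (pd_mem c))) (mem_Zc.mpr ?_)
  have := dp_comm' (minpoly F c) c a
  rw [minpoly.aeval, mul_zero, zero_mul, sub_zero, sub_eq_zero] at this
  exact this.symm

theorem pr_of_mem {c z : Δ} (hz : z ∈ Zc F c) : pr F c z = z := by
  apply mul_left_cancel₀ (pd_ne (F := F) c)
  rw [← dp_eq_pr, dp_cent _ (mem_Zc.mp hz), pd]

theorem pr_ad (c ζ : Δ) : pr F c (ad F c ζ) = 0 := by
  apply mul_left_cancel₀ (pd_ne (F := F) c)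
  rw [← dp_eq_pr, ad_apply, dp_comm]; simp

theorem IsTr.ad_eq (hT : IsTr T) {c t : Δ} (ht : t ∈ Zc F c) (ζ : Δ) : T (t * ad F c ζ) = 0 := by
  rw [ad_apply, mul_sub, map_sub, ← mul_assoc, hT.comm _ c, ← mul_assoc, mem_Zc.mp ht, mul_assoc,
    sub_self]

theorem IsTr.decomp (hT : IsTr T) (c a : Δ) :
    ∃ ζ ∈ LinearMap.range (ad F c), a = pr F c a + ad F c ζ := by
  have hk : LinearMap.ker (ad F c) = (Zc F c).toSubmodule := by
    ext z
    rw [LinearMap.mem_ker, ad_apply, sub_eq_zero, Subalgebra.mem_toSubmodule, mem_Zc, eq_comm]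
  have hc : IsCompl (Zc F c).toSubmodule (LinearMap.range (ad F c)) := by
    refine (Submodule.isCompl_iff_disjoint _ _ ?_).mpr ?_
    · rw [← hk, add_comm, LinearMap.finrank_range_add_finrank_ker]
    · rw [Submodule.disjoint_def]
      rintro x hx ⟨ζ, rfl⟩
      exact hT.nd hx fun y hy => by rw [hT.comm]; exact hT.ad_eq hy ζ
  have h1 : ∀ a : Δ, ∃ z ∈ Zc F c, ∃ r ∈ LinearMap.range (ad F c), z + r = a := fun a =>
    Submodule.mem_sup.mp (hc.sup_eq_top ▸ Submodule.mem_top)
  obtain ⟨z, hz, _, ⟨η, rfl⟩, rfl⟩ := h1 a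
  obtain ⟨z', hz', ζ, hζ, rfl⟩ := h1 η
  have h0 : ad F c z' = 0 := by rw [← LinearMap.mem_ker, hk]; exact hz'
  refine ⟨ζ, hζ, ?_⟩
  rw [map_add (pr F c), pr_of_mem hz, pr_ad, map_add, h0, add_zero, zero_add]

theorem IsTr.pr_eq (hT : IsTr T) {c t : Δ} (ht : t ∈ Zc F c) (a : Δ) :
    T (t * pr F c a) = T (t * a) := by
  obtain ⟨ζ, -, h⟩ := hT.decomp c a
  conv_rhs => rw [h, mul_add, map_add, hT.ad_eq ht, add_zero]

end div

end Vale.Agent.P199
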