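import Vale.Agent.P199.Cyc2

/-! Specialization of a series ring at a point of a cyclic extension. -/

namespace Vale.Agent.P199

open Finset Module Polynomial Lau

set_option linter.unusedSectionVars false

section defs

variable (F : Type) {Δ I : Type} [Field F] [DivisionRing Δ] [Algebra F Δ] [Fintype I]

/-- projected differential -/
noncomputable def ell (α : NC I Δ) : (I → F) →ₗ[F] Δ := pr F (α []) ∘ₗ lin F α

/-- image of the projected differential -/
noncomputable def WW (α : NC I Δ) : Submodule F Δ := LinearMap.range (ell F α)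

/-- the minimal polynomial of the constant term, evaluated at the series -/
noncomputable def ft (α : NC I Δ) : NC I Δ := aeval α (minpoly F (α []))

/-- linear parts of the generators -/
noncomputable def Phi (g : Fin 2 → NC I Δ) : (I → F) →ₗ[F] Fin 2 → Δ :=
  LinearMap.pi fun κ => lin F (g κ)

/-- inner variations -/
noncomputable def Inn (g : Fin 2 → NC I Δ) : Submodule F (Fin 2 → Δ) :=
  LinearMap.range (LinearMap.pi fun κ => ad F (g κ []))

/-- abundance of variations -/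
def Chi (g : Fin 2 → NC I Δ) (N : ℕ) : Prop :=
  finrank F Δ + N ≤ finrank F (LinearMap.range (Phi F g) ⊔ Inn F g : Submodule F (Fin 2 → Δ))

variable {F} [CharZero F] [FiniteDimensional F Δ]

theorem ft_nil (α : NC I Δ) : ft F α [] = 0 := by rw [ft, aeval_nil, minpoly.aeval]

theorem lin_ft (α : NC I Δ) (h : I → F) : lin F (ft F α) h = pd F (α []) * ell F α h := by
  rw [ft, lin_aeval, dp_eq_pr]; rfl

theorem WW_le (α : NC I Δ) : WW F α ≤ (Zc F (α [])).toSubmodule := by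
  rintro _ ⟨h, rfl⟩; exact pr_mem _ _

theorem IsTr.ell {T : Δ →ₗ[F] F} (hT : IsTr T) (α : NC I Δ) {t : Δ} (ht : t ∈ Zc F (α []))
    (h : I → F) : T (t * ell F α h) = T (t * lin F α h) := hT.pr_eq ht _

end defs

theorem map_mem_adjoin {F F' R R' : Type} [CommRing F] [CommRing F'] [Ring R] [Ring R']
    [Algebra F R] [Algebra F' R'] (φ : F →+* F') (ψ : R →+* R')
    (h : ∀ a, ψ (algebraMap F R a) = algebraMap F' R' (φ a)) {s : Set R} {x : R}
    (hx : x ∈ Algebra.adjoin F s) : ψ x ∈ Algebra.adjoin F' (ψ '' s) := by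
  induction hx using Algebra.adjoin_induction with
  | mem y hy => exact Algebra.subset_adjoin ⟨y, hy, rfl⟩
  | algebraMap r => rw [h]; exact Subalgebra.algebraMap_mem _ _
  | add a b _ _ ha hb => rw [map_add]; exact add_mem ha hb
  | mul a b _ _ ha hb => rw [map_mul]; exact mul_mem ha hb

/-- series of degree at most one -/
def lift1 {I A : Type} [Ring A] (a : A) (b : I → A) : NC I A := fun w => match w with
  | [] => a
  | [v] => b v
  | _ :: _ :: _ => 0

variable {F Δ : Type} [Field F] [CharZero F] [DivisionRing Δ] [Algebra F Δ]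
  [FiniteDimensional F Δ] {T : Δ →ₗ[F] F} {n : ℕ} {J : Type} [Fintype J]

/-- constants -/
noncomputable def Cyc.ιι (C : Cyc T n J) : Δ →+* Lau C.E := Lau.C.comp C.ι

/-- scalars -/
noncomputable def Cyc.φφ (C : Cyc T n J) : F →+* Lau C.F2 := Lau.C.comp C.φ

/-- series with coefficients in the cyclic algebra -/
noncomputable def Cyc.PP (C : Cyc T n J) : Submodule (Lau C.F2) (Lau C.E) := LP C.P0.toSubmodule

theorem Cyc.ιι_apply (C : Cyc T n J) (a : Δ) : C.ιι a = Lau.C (C.ι a) := rfl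

theorem Cyc.ιι_O (C : Cyc T n J) (a : Δ) : C.ιι a ∈ O C.E 0 := C_O _

theorem Cyc.ιι_algebraMap (C : Cyc T n J) (a : F) :
    C.ιι (algebraMap F Δ a) = algebraMap (Lau C.F2) (Lau C.E) (C.φφ a) := by
  rw [ιι_apply, C.ιφ]; exact (Lau.algebraMap_C _).symm

theorem Cyc.ιι_smul (C : Cyc T n J) (a : F) (x : Δ) : C.ιι (a • x) = C.φφ a • C.ιι x := by
  rw [Algebra.smul_def, map_mul, C.ιι_algebraMap, Algebra.smul_def]

theorem Cyc.PP_comm (C : Cyc T n J) {x : Lau C.E} (hx : x ∈ C.PP) (a : Δ) :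
    x * C.ιι a = C.ιι a * x := by
  ext k
  rw [ιι_apply, co_mul_C, co_C_mul, C.P0_comm (hx k)]

/-- constant direction times an element -/
noncomputable def Cyc.dir (C : Cyc T n J) {I : Type} (h : I → F) (y : Lau C.E) : I → Lau C.E :=
  fun i => C.φφ (h i) • y

theorem Cyc.dir_PP (C : Cyc T n J) {I : Type} (h : I → F) {y : Lau C.E} (hy : y ∈ C.PP) (i : I) :
    C.dir h y i ∈ C.PP := C.PP.smul_mem _ hy

theorem Cyc.dir_O (C : Cyc T n J) {I : Type} (h : I → F) {y : Lau C.E} {b : ℤ}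
    (hy : y ∈ O C.E b) (i : I) : C.dir h y i ∈ O C.E b := O_smul (C_O _) hy (by simp)

theorem Cyc.sum_dir (C : Cyc T n J) {I : Type} [Fintype I] (h : I → F) (y : Lau C.E)
    (f : NC I Δ) : ∑ i, C.dir h y i * C.ιι (f [i]) = y * C.ιι (lin F f h) := by
  simp only [dir, lin_apply, map_sum, C.ιι_smul, mul_sum, smul_mul_assoc, mul_smul_comm]

open Classical in
/-- a specialization -/
structure Child (C : Cyc T n J) (I : Type) [Fintype I] where
  τ : I → Lau C.E
  τO : ∀ i, τ i ∈ O C.E 1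
  τP : ∀ i, τ i ∈ C.PP
  N : ℕ
  e : Fin N → Lau C.E
  sec : Lau C.E →ₗ[Lau C.F2] Fin N → Lau C.F2
  hsec : ∀ x ∈ C.PP, ∑ b, sec x b • e b = x
  ψ : NC I Δ →+* NC (I × Fin N) (Lau C.E)
  hψ : IsEv ((filt C.E).nc _) (NC.C.comp C.ιι)
    (fun i => lift1 (τ i) fun v => if v.1 = i then e v.2 else 0) ψ

open Classical in
theorem exists_child (C : Cyc T n J) {I : Type} [Fintype I] (τ : I → Lau C.E)
    (τO : ∀ i, τ i ∈ O C.E 1) (τP : ∀ i, τ i ∈ C.PP) : ∃ ch : Child C I, ch.τ = τ := by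
  obtain ⟨N, e, sec, he, hsec⟩ := exists_span C.PP
  obtain ⟨ψ, hψ⟩ := exists_ev ((filt C.E).nc (I × Fin N)) (NC.C.comp C.ιι)
    (fun i => lift1 (τ i) fun v => if v.1 = i then e v.2 else 0)
    (fun a w => by
      cases w with
      | nil => simpa using C.ιι_O a
      | cons i w => exact zero_mem _)
    (fun i w => by
      match w with
      | [] => simpa [lift1] using τO i
      | [v] =>
        simp only [lift1, List.length_singleton, Nat.cast_one, sub_self, filt_J]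
        split_ifs
        · exact (he _).2
        · exact zero_mem _
      | _ :: _ :: _ => exact zero_mem _)
    (fun i a => by
      refine NC.ext fun w => ?_
      simp only [RingHom.comp_apply, NC.C_mul_apply, NC.mul_C_apply]
      match w with
      | [] => exact C.PP_comm (τP i) a
      | [v] =>
        simp only [lift1]
        split_ifs
        · exact C.PP_comm (he _).1 a
        · simp
      | _ :: _ :: _ => simp [lift1])
  exact ⟨⟨τ, τO, τP, N, e, sec, hsec, ψ, hψ⟩, rfl⟩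

namespace Child

variable {C : Cyc T n J} {I : Type} [Fintype I] (ch : Child C I)

theorem ψ_algebraMap (a : F) :
    ch.ψ (algebraMap F _ a) = algebraMap (Lau C.F2) _ (C.φφ a) := by
  rw [NC.algebraMap_eq, ch.hψ.map_C, NC.algebraMap_eq, ← C.ιι_algebraMap]; rfl

theorem ψ_aeval (α : NC I Δ) (q : F[X]) : ch.ψ (aeval α q) = aeval (ch.ψ α) (q.map C.φφ) :=
  map_aeval_eq_aeval_map (RingHom.ext fun a => (ch.ψ_algebraMap a).symm) q α

theorem isEv : IsEv (filt C.E) C.ιι ch.τ fun f => ch.ψ f [] where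
  bd f := by simpa using ch.hψ.bd f []
  eq f := by
    conv_lhs => rw [ch.hψ.eq]
    simp only [NC.add_apply, NC.sum_apply, NC.mul_nil, RingHom.comp_apply, NC.C_nil, lift1]

/-- parameters of a variation -/
noncomputable def par (δ : I → Lau C.E) : I × Fin ch.N → Lau C.F2 := fun v => ch.sec (δ v.1) v.2

open Classical in
theorem lin_τ {δ : I → Lau C.E} (hδ : ∀ i, δ i ∈ C.PP) (i : I) :
    lin (Lau C.F2) (lift1 (ch.τ i) fun v : I × Fin ch.N => if v.1 = i then ch.e v.2 else 0)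
      (ch.par δ) = δ i := by
  rw [lin_apply, Fintype.sum_prod_type, sum_eq_single i (fun j _ hj => by simp [lift1, hj])
    (by simp)]
  simpa [lift1, par] using ch.hsec _ (hδ i)

theorem lin_eq {δ : I → Lau C.E} (hδ : ∀ i, δ i ∈ C.PP) (f : NC I Δ) :
    lin (Lau C.F2) (ch.ψ f) (ch.par δ) = ∑ i, δ i * ch.ψ (NC.der i f) [] +
      ∑ i, ch.τ i * lin (Lau C.F2) (ch.ψ (NC.der i f)) (ch.par δ) := by
  conv_lhs => rw [ch.hψ.eq]
  simp only [lin_add, lin_sum, lin_mul, RingHom.comp_apply, lin_C, zero_add, ch.lin_τ hδ,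
    sum_add_distrib]
  rfl

theorem quad_eq {δ δ' : I → Lau C.E} (hδ : ∀ i, δ i ∈ C.PP) (f : NC I Δ) :
    quad (Lau C.F2) (ch.ψ f) (ch.par δ) (ch.par δ') =
      ∑ i, δ i * lin (Lau C.F2) (ch.ψ (NC.der i f)) (ch.par δ') +
      ∑ i, ch.τ i * quad (Lau C.F2) (ch.ψ (NC.der i f)) (ch.par δ) (ch.par δ') := by
  have h0 : ∀ (a : Lau C.E) (b : I × Fin ch.N → Lau C.E),
      quad (Lau C.F2) (lift1 a b) (ch.par δ) (ch.par δ') = 0 := fun a b => by
    simp [quad_apply, lin_apply, lift1]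
  conv_lhs => rw [ch.hψ.eq]
  simp only [quad_add, quad_sum, quad_mul, RingHom.comp_apply, quad_C, zero_add, ch.lin_τ hδ,
    sum_add_distrib, h0, zero_mul]
  rfl

theorem lin_bd (h : I × Fin ch.N → Lau C.F2) :
    ∃ b, ∀ f, lin (Lau C.F2) (ch.ψ f) h ∈ O C.E b := by
  obtain ⟨j, hj⟩ := exists_O_fin h
  refine ⟨j - 1, fun f => sum_mem fun v _ => O_smul (hj v) (ch.hψ.bd f [v]) (by simp)⟩

theorem quad_bd (h h' : I × Fin ch.N → Lau C.F2) :
    ∃ b, ∀ f, quad (Lau C.F2) (ch.ψ f) h h' ∈ O C.E b := by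
  obtain ⟨j, hj⟩ := exists_O_fin h
  obtain ⟨k, hk⟩ := exists_O_fin h'
  refine ⟨j + (k - 2), fun f => ?_⟩
  rw [quad_apply]
  refine sum_mem fun v _ => O_smul (hj v) (k := k - 2) ?_ le_rfl
  exact sum_mem fun v' _ => O_smul (hk v') (ch.hψ.bd f [v, v']) (by simp)

theorem lin_O {δ : I → Lau C.E} (hδ : ∀ i, δ i ∈ C.PP) {b : ℤ} (hb : ∀ i, δ i ∈ O C.E b)
    (f : NC I Δ) : lin (Lau C.F2) (ch.ψ f) (ch.par δ) ∈ O C.E b := by
  obtain ⟨j, hj⟩ := ch.lin_bd (ch.par δ)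
  refine (filt C.E).boot ch.τ ch.τO NC.der (fun f => lin (Lau C.F2) (ch.ψ f) (ch.par δ)) j b hj
    (fun f => ?_) f
  rw [ch.lin_eq hδ, add_sub_cancel_right]
  exact sum_mem fun i _ => O_mul' (hb i) (ch.isEv.bd _) (by simp)

theorem quad_O {δ δ' : I → Lau C.E} (hδ : ∀ i, δ i ∈ C.PP) (hδ' : ∀ i, δ' i ∈ C.PP)
    (hb : ∀ i, δ i ∈ O C.E 0) (hb' : ∀ i, δ' i ∈ O C.E 0) (f : NC I Δ) :
    quad (Lau C.F2) (ch.ψ f) (ch.par δ) (ch.par δ') ∈ O C.E 0 := by
  obtain ⟨j, hj⟩ := ch.quad_bd (ch.par δ) (ch.par δ')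
  refine (filt C.E).boot ch.τ ch.τO NC.der
    (fun f => quad (Lau C.F2) (ch.ψ f) (ch.par δ) (ch.par δ')) j 0 hj (fun f => ?_) f
  rw [ch.quad_eq hδ, add_sub_cancel_right]
  exact sum_mem fun i _ => O_mul' (hb i) (ch.lin_O hδ' hb' _) (by simp)

theorem lin_approx {δ : I → Lau C.E} (hδ : ∀ i, δ i ∈ C.PP) {a b : ℤ}
    (ha : ∀ i, ch.τ i ∈ O C.E a) (hb : ∀ i, δ i ∈ O C.E b) (f : NC I Δ) :
    lin (Lau C.F2) (ch.ψ f) (ch.par δ) - ∑ i, δ i * C.ιι (f [i]) ∈ O C.E (a + b) := by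
  rw [ch.lin_eq hδ, add_sub_right_comm, ← sum_sub_distrib]
  refine add_mem (sum_mem fun i _ => ?_) (sum_mem fun i _ => O_mul (ha i) (ch.lin_O hδ hb _))
  rw [← mul_sub]
  exact O_mul' (hb i) (ch.isEv.e1 ha (NC.der i f)) (by omega)

theorem D_eq (f : NC I Δ) :
    D (ch.ψ f []) = lin (Lau C.F2) (ch.ψ f) (ch.par fun i => D (ch.τ i)) := by
  have hδ : ∀ i, D (ch.τ i) ∈ C.PP := fun i => D_LP (ch.τP i)
  refine sub_eq_zero.mp ((filt C.E).boot0 ch.τ ch.τO NC.der
    (fun f => D (ch.ψ f []) - lin (Lau C.F2) (ch.ψ f) (ch.par fun i => D (ch.τ i))) 0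
    (fun f => sub_mem (D_O (ch.isEv.bd f))
      (ch.lin_O hδ (fun i => D_O (O_anti (by norm_num) (ch.τO i))) f)) (fun f => ?_) f)
  rw [ch.lin_eq hδ, show ch.ψ f [] = _ from ch.isEv.eq f]
  simp only [map_add, map_sum, D_mul, C.ιι_apply, D_C, mul_sub, sum_sub_distrib, sum_add_distrib]
  abel

theorem lin_dir (h : I → F) {y : Lau C.E} (hy : y ∈ C.PP) {a b : ℤ}
    (ha : ∀ i, ch.τ i ∈ O C.E a) (hb : y ∈ O C.E b) (f : NC I Δ) :
    lin (Lau C.F2) (ch.ψ f) (ch.par (C.dir h y)) - y * C.ιι (lin F f h) ∈ O C.E (a + b) := by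
  rw [← C.sum_dir]
  exact ch.lin_approx (C.dir_PP h hy) ha (C.dir_O h hb) f

theorem co_ψ (f : NC I Δ) : co (ch.ψ f []) 0 = C.ι (f []) := by
  have := ch.isEv.e1 ch.τO f 0 (by norm_num)
  rwa [co_sub, sub_eq_zero, C.ιι_apply, co_C_zero] at this

theorem ψ_O (f : NC I Δ) : ch.ψ f [] ∈ O C.E 0 := ch.isEv.bd f

theorem chi (hT : IsTr T) {g : Fin 2 → NC I Δ} (hg : Chi F g 1) :
    Chi (Lau C.F2) (fun κ => ch.ψ (g κ)) (n * n) := by
  let V : Submodule F (Fin 2 → Δ) := LinearMap.range (Phi F g) ⊔ Inn F g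
  let b := Module.finBasis F V
  have hv : LinearIndependent F fun i => (b i : Fin 2 → Δ) :=
    b.linearIndependent.map' V.subtype (Submodule.ker_subtype _)
  have h1 := C.indep_fam hT hv le_rfl
  have key : ∀ v ∈ V, ∀ y ∈ C.P0, ∃ x ∈ LinearMap.range (Phi (Lau C.F2) fun κ => ch.ψ (g κ)) ⊔
      Inn (Lau C.F2) fun κ => ch.ψ (g κ), ∀ k, x k ∈ O C.E 0 ∧ co (x k) 0 = y * C.ι (v k) := by
    intro v hv y hy
    obtain ⟨_, ⟨h, rfl⟩, _, ⟨z, rfl⟩, rfl⟩ := Submodule.mem_sup.mp hv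
    have hy' : Lau.C y ∈ C.PP := mono_LP 0 hy
    refine ⟨_, Submodule.add_mem_sup ⟨ch.par (C.dir h (Lau.C y)), rfl⟩
      ⟨Lau.C (y * C.ι z), rfl⟩, fun k => ?_⟩
    simp only [Phi, Pi.add_apply, LinearMap.pi_apply, ad_apply]
    have e1 := ch.lin_dir h hy' ch.τO (C_O y) (g k) 0 (by norm_num)
    refine ⟨add_mem (ch.lin_O (C.dir_PP h hy') (C.dir_O h (C_O y)) _)
      (sub_mem (O_mul' (C_O _) (ch.ψ_O _) (by simp)) (O_mul' (ch.ψ_O _) (C_O _) (by simp))), ?_⟩
    rw [co_sub, sub_eq_zero, co_C_mul, C.ιι_apply, co_C_zero] at e1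
    rw [co_add, e1, co_sub, co_C_mul, co_mul_C, co_ψ, map_add, map_sub, map_mul, map_mul,
      ← mul_assoc (C.ι _) y, ← C.P0_comm hy]
    noncomm_ring
  choose x hx hx' using fun p : Fin (finrank F V) × Fin n × Fin (finrank C.F2 C.L) =>
    key _ (b p.1).2 _ (C.mem_P0 (Module.finBasis C.F2 C.L p.2.2) p.2.1)
  have h2 := indep_of_red (F := C.F2) x (fun p k => (hx' p k).1) (by
    have e : (fun p k => co (x p k) 0) = fun p k => C.lam (Module.finBasis C.F2 C.L p.2.2) *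
        C.ι ((b p.1 : Fin 2 → Δ) k) * C.π ^ (p.2.1 : ℕ) := by
      funext p k
      rw [(hx' p k).2, mul_assoc, C.pow_ι, mul_assoc]
    rwa [e])
  have h3 := card_le_finrank_of_mem h2 _ hx
  simp only [Fintype.card_prod, Fintype.card_fin, C.rank] at h3
  have h4 := C.finrank_E hT
  have h5 : (finrank F Δ + 1) * (n * n) ≤ finrank F V * (n * n) := Nat.mul_le_mul_right _ hg
  rw [Chi, finrank_lau]
  nlinarith

end Child

end Vale.Agent.P199
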