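import Vale.Agent.P199.Red

/-! Interface for cyclic extensions of a division algebra. -/

namespace Vale.Agent.P199

open Finset Module

set_option linter.unusedSectionVars false

/-- twisted monomials -/
def thp {L J : Type} [CommMonoid L] (σ : L → L) (θ : J → L) : List J → L
  | [] => 1
  | l :: v => θ l * σ (thp σ θ v)

/-- A cyclic extension of `Δ` of degree `n` with generic elements indexed by `J`. -/
structure Cyc {F Δ : Type} [Field F] [DivisionRing Δ] [Algebra F Δ] (T : Δ →ₗ[F] F) (n : ℕ)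
    (J : Type) [Fintype J] where
  L : Type
  F2 : Type
  E : Type
  [fL : Field L]
  [f2 : Field F2]
  [z2 : CharZero F2]
  [aL : Algebra F2 L]
  [dL : FiniteDimensional F2 L]
  [dE : DivisionRing E]
  [aE : Algebra F2 E]
  [fE : FiniteDimensional F2 E]
  rank : finrank F2 L = n
  φ : F →+* F2
  σ : L ≃ₐ[F2] L
  σn : σ ^ n = 1
  fix : ∀ l, σ l = l → ∃ a, algebraMap F2 L a = l
  θ' : L
  prim : Algebra.adjoin F2 {θ'} = ⊤
  θne : ∀ k : ℕ, (σ ^ k) θ' = θ' → n ∣ k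
  θ : J → L
  indep : ∀ a : List J → F, ∑ w ∈ words J n, φ (a w) • thp σ θ w = 0 → ∀ w ∈ words J n, a w = 0
  lam : L →ₐ[F2] E
  ι : Δ →+* E
  ιφ : ∀ a, ι (algebraMap F Δ a) = algebraMap F2 E (φ a)
  π : E
  ε : F2
  εne : ε ≠ 0
  c1 : ∀ l a, lam l * ι a = ι a * lam l
  c2 : ∀ a, π * ι a = ι a * π
  c3 : ∀ l, π * lam l = lam (σ l) * π
  πn : π ^ n = algebraMap F2 E ε
  τ : E →ₗ[F2] L
  τ0 : ∀ l a, τ (lam l * ι a) = φ (T a) • l
  τr : ∀ l a r, 0 < r → r < n → τ (lam l * ι a * π ^ r) = 0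
  span : Submodule.span F2 {x | ∃ l a, ∃ r : ℕ, x = lam l * ι a * π ^ r} = ⊤

attribute [instance] Cyc.fL Cyc.f2 Cyc.z2 Cyc.aL Cyc.dL Cyc.dE Cyc.aE Cyc.fE

namespace Cyc

variable {F Δ : Type} [Field F] [DivisionRing Δ] [Algebra F Δ] {T : Δ →ₗ[F] F} {n : ℕ}
  {J : Type} [Fintype J] (C : Cyc T n J)

include C in
theorem npos : 0 < n := C.rank ▸ Module.finrank_pos

theorem ι_smul (a : F) (x : Δ) : C.ι (a • x) = C.φ a • C.ι x := by
  rw [Algebra.smul_def, map_mul, C.ιφ, Algebra.smul_def]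

theorem pow_lam (r : ℕ) (l : C.L) : C.π ^ r * C.lam l = C.lam ((C.σ ^ r) l) * C.π ^ r := by
  induction r generalizing l with
  | zero => simp
  | succ r ih => rw [pow_succ, mul_assoc, C.c3, ← mul_assoc, ih, mul_assoc, pow_succ C.σ]; rfl

theorem pow_ι (r : ℕ) (a : Δ) : C.π ^ r * C.ι a = C.ι a * C.π ^ r :=
  (Commute.pow_left (C.c2 a) r).eq

theorem σ_dvd {r : ℕ} (h : n ∣ r) (l : C.L) : (C.σ ^ r) l = l := by
  obtain ⟨q, rfl⟩ := h
  rw [pow_mul, C.σn, one_pow]; rfl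

theorem pow_mul_n (q : ℕ) : C.π ^ (n * q) = algebraMap _ _ (C.ε ^ q) := by
  rw [pow_mul, C.πn, map_pow]

theorem τ_dvd (l : C.L) (a : Δ) (q : ℕ) :
    C.τ (C.lam l * C.ι a * C.π ^ (n * q)) = C.ε ^ q • C.φ (T a) • l := by
  rw [pow_mul_n, ← Algebra.commutes, ← Algebra.smul_def, map_smul, C.τ0]

theorem τ_ndvd (l : C.L) (a : Δ) {r : ℕ} (h : ¬ n ∣ r) : C.τ (C.lam l * C.ι a * C.π ^ r) = 0 := by
  rw [← Nat.div_add_mod r n, pow_add, pow_mul_n, ← Algebra.smul_def, mul_smul_comm, map_smul,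
    C.τr _ _ _ (Nat.pos_of_ne_zero fun h0 => h (Nat.dvd_of_mod_eq_zero h0))
      (Nat.mod_lt _ C.npos), smul_zero]

theorem ext_gen {M : Type} [AddCommGroup M] [Module C.F2 M] {f g : C.E →ₗ[C.F2] M}
    (h : ∀ l a (r : ℕ), f (C.lam l * C.ι a * C.π ^ r) = g (C.lam l * C.ι a * C.π ^ r)) (x : C.E) :
    f x = g x :=
  LinearMap.congr_fun (LinearMap.ext_on C.span (by rintro _ ⟨l, a, r, rfl⟩; exact h l a r)) x

theorem τ_lam (m : C.L) (x : C.E) : C.τ (C.lam m * x) = m * C.τ x := by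
  refine C.ext_gen (f := C.τ ∘ₗ LinearMap.mulLeft _ (C.lam m))
    (g := LinearMap.mulLeft _ m ∘ₗ C.τ) (fun l a r => ?_) x
  simp only [LinearMap.comp_apply, LinearMap.mulLeft_apply]
  rw [← mul_assoc, ← mul_assoc, ← map_mul]
  by_cases h : n ∣ r
  · obtain ⟨q, rfl⟩ := h
    simp only [τ_dvd, mul_smul_comm]
  · simp only [C.τ_ndvd _ _ h, mul_zero]

theorem τ_lam' (m : C.L) (x : C.E) : C.τ (x * C.lam m) = m * C.τ x := by
  refine C.ext_gen (f := C.τ ∘ₗ LinearMap.mulRight _ (C.lam m))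
    (g := LinearMap.mulLeft _ m ∘ₗ C.τ) (fun l a r => ?_) x
  simp only [LinearMap.comp_apply, LinearMap.mulLeft_apply, LinearMap.mulRight_apply]
  rw [mul_assoc, pow_lam, ← mul_assoc, mul_assoc (C.lam l), ← C.c1, ← mul_assoc, ← map_mul]
  by_cases h : n ∣ r
  · rw [C.σ_dvd h]
    obtain ⟨q, rfl⟩ := h
    simp only [τ_dvd, mul_smul_comm, mul_comm l m]
  · simp only [C.τ_ndvd _ _ h, mul_zero]

theorem τ_ι (hT : IsTr T) (b : Δ) (x : C.E) : C.τ (C.ι b * x) = C.τ (x * C.ι b) := by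
  refine C.ext_gen (f := C.τ ∘ₗ LinearMap.mulLeft _ (C.ι b))
    (g := C.τ ∘ₗ LinearMap.mulRight _ (C.ι b)) (fun l a r => ?_) x
  simp only [LinearMap.comp_apply, LinearMap.mulLeft_apply, LinearMap.mulRight_apply]
  rw [mul_assoc _ (C.π ^ r), pow_ι, ← mul_assoc, ← mul_assoc, ← mul_assoc, ← C.c1,
    mul_assoc (C.lam l) (C.ι b), mul_assoc (C.lam l) (C.ι a), ← map_mul, ← map_mul]
  by_cases h : n ∣ r
  · obtain ⟨q, rfl⟩ := h
    simp only [τ_dvd, hT.comm a b]
  · simp only [C.τ_ndvd _ _ h]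

theorem τ_π (x : C.E) : C.τ (C.π * x) = C.σ (C.τ (x * C.π)) := by
  refine C.ext_gen (f := C.τ ∘ₗ LinearMap.mulLeft _ C.π)
    (g := C.σ.toLinearMap ∘ₗ C.τ ∘ₗ LinearMap.mulRight _ C.π) (fun l a r => ?_) x
  simp only [LinearMap.comp_apply, LinearMap.mulLeft_apply, LinearMap.mulRight_apply,
    AlgEquiv.toLinearMap_apply]
  rw [← mul_assoc, ← mul_assoc, C.c3, mul_assoc _ C.π, C.c2, ← mul_assoc, mul_assoc _ C.π,
    ← pow_succ', mul_assoc _ _ C.π, ← pow_succ]
  by_cases h : n ∣ r + 1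
  · obtain ⟨q, hq⟩ := h
    simp only [hq, τ_dvd, map_smul]
  · simp only [C.τ_ndvd _ _ h, map_zero]

theorem exists_Tr : ∃ Tr : C.L →ₗ[C.F2] C.F2,
    ∀ l, algebraMap _ _ (Tr l) = ∑ k ∈ range n, (C.σ ^ k) l := by
  obtain ⟨g, hg⟩ := (Algebra.linearMap C.F2 C.L).exists_leftInverse_of_injective
    (LinearMap.ker_eq_bot.mpr (algebraMap C.F2 C.L).injective)
  refine ⟨g ∘ₗ ∑ k ∈ range n, (C.σ ^ k).toLinearMap, fun l => ?_⟩
  obtain ⟨a, ha⟩ := C.fix (∑ k ∈ range n, (C.σ ^ k) l) (by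
    have h := sum_range_succ' (fun k => (C.σ ^ k) l) n
    rw [sum_range_succ, C.σn, pow_zero, add_left_inj] at h
    rw [map_sum]
    refine Eq.trans (sum_congr rfl fun k _ => ?_) h.symm
    rw [pow_succ']; rfl)
  have : g (algebraMap _ _ a) = a := LinearMap.congr_fun hg a
  simp only [LinearMap.comp_apply, LinearMap.sum_apply, AlgEquiv.toLinearMap_apply]
  rw [← ha, this]

/-- the trace of `L` -/
noncomputable def Tr : C.L →ₗ[C.F2] C.F2 := C.exists_Tr.choose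

theorem Tr_spec (l : C.L) : algebraMap _ _ (C.Tr l) = ∑ k ∈ range n, (C.σ ^ k) l :=
  C.exists_Tr.choose_spec l

theorem Tr_σ (l : C.L) : C.Tr (C.σ l) = C.Tr l := by
  apply (algebraMap C.F2 C.L).injective
  have h := sum_range_succ' (fun k => (C.σ ^ k) l) n
  rw [sum_range_succ, C.σn, pow_zero, add_left_inj] at h
  rw [Tr_spec, Tr_spec, h]
  rfl

theorem Tr_pow (k : ℕ) (l : C.L) : C.Tr ((C.σ ^ k) l) = C.Tr l := by
  induction k with
  | zero => rfl
  | succ k ih => rw [pow_succ', AlgEquiv.mul_apply, Tr_σ, ih]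

theorem Tr_one : C.Tr 1 = n := by
  apply (algebraMap C.F2 C.L).injective
  simp [Tr_spec]

theorem Tr_nd {u : C.L} (h : ∀ l, C.Tr (l * u) = 0) : u = 0 := by
  by_contra h0
  have := h u⁻¹
  rw [inv_mul_cancel₀ h0, Tr_one] at this
  exact C.npos.ne' (by exact_mod_cast this)

/-- the trace of `E` -/
noncomputable def T0 : C.E →ₗ[C.F2] C.F2 := C.Tr ∘ₗ C.τ

theorem T0_apply (x : C.E) : C.T0 x = C.Tr (C.τ x) := rfl

theorem T0_lam (l : C.L) (x : C.E) : C.T0 (C.lam l * x) = C.Tr (l * C.τ x) := by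
  rw [T0_apply, τ_lam]

theorem isTr (hT : IsTr T) : IsTr C.T0 where
  comm y x := by
    have h1 : ∀ l x, C.T0 (C.lam l * x) = C.T0 (x * C.lam l) := fun l x => by
      rw [T0_apply, T0_apply, τ_lam, τ_lam']
    have h2 : ∀ a x, C.T0 (C.ι a * x) = C.T0 (x * C.ι a) := fun a x => by
      rw [T0_apply, T0_apply, C.τ_ι hT]
    have h3 : ∀ (r : ℕ) x, C.T0 (C.π ^ r * x) = C.T0 (x * C.π ^ r) := fun r => by
      induction r with
      | zero => simp
      | succ r ih =>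
        intro x
        rw [pow_succ', mul_assoc, T0_apply, τ_π, Tr_σ, ← T0_apply, mul_assoc, ih, mul_assoc]
    refine C.ext_gen (f := C.T0 ∘ₗ LinearMap.mulRight _ x) (g := C.T0 ∘ₗ LinearMap.mulLeft _ x)
      (fun l a r => ?_) y
    simp only [LinearMap.comp_apply, LinearMap.mulLeft_apply, LinearMap.mulRight_apply]
    rw [mul_assoc, mul_assoc, h1, mul_assoc, h2, mul_assoc, mul_assoc, h3]
    simp only [mul_assoc]
  one := by
    have := C.τ0 1 1
    rw [map_one, map_one, mul_one] at this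
    rw [T0_apply, this, map_smul, Tr_one, smul_eq_mul]
    exact mul_ne_zero ((map_ne_zero _).mpr hT.one) (Nat.cast_ne_zero.mpr C.npos.ne')

theorem comm_lam {x : C.E} (h : C.lam C.θ' * x = x * C.lam C.θ') (l : C.L) :
    C.lam l * x = x * C.lam l := by
  have hl : C.lam l ∈ Algebra.adjoin C.F2 {C.lam C.θ'} := by
    rw [← Set.image_singleton, ← AlgHom.map_adjoin, C.prim]
    exact ⟨l, trivial, rfl⟩
  exact (Algebra.commute_of_mem_adjoin_singleton_of_commute hl h.symm).symm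

theorem off (hT : IsTr T) {x : C.E} (h : C.lam C.θ' * x = x * C.lam C.θ') (l : C.L) {r : ℕ}
    (hr : ¬ n ∣ r) : C.T0 (x * (C.lam l * C.π ^ r)) = 0 := by
  have hne : C.θ' - (C.σ ^ r) C.θ' ≠ 0 := fun h0 => hr (C.θne r (sub_eq_zero.mp h0).symm)
  set l' := l / (C.θ' - (C.σ ^ r) C.θ') with hl'
  have e : C.lam l * C.π ^ r =
      C.lam C.θ' * (C.lam l' * C.π ^ r) - (C.lam l' * C.π ^ r) * C.lam C.θ' := by
    rw [mul_assoc, pow_lam, ← mul_assoc, ← mul_assoc, ← sub_mul, ← map_mul, ← map_mul, ← map_sub]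
    congr 2
    rw [hl']; field_simp
  rw [e, mul_sub, map_sub, ← mul_assoc, ← h, ← mul_assoc x, (C.isTr hT).comm _ (C.lam C.θ'),
    mul_assoc, sub_self]

theorem prod_map (w : List J) :
    (w.map fun j => C.lam (C.θ j) * C.π).prod = C.lam (thp C.σ C.θ w) * C.π ^ w.length := by
  induction w with
  | nil => simp [thp]
  | cons j w ih =>
    rw [List.map_cons, List.prod_cons, ih, thp, map_mul, List.length_cons, pow_succ', mul_assoc,
      ← mul_assoc C.π, C.c3]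
    simp only [mul_assoc]

theorem thp_concat (v : List J) (l : J) :
    thp C.σ C.θ (v ++ [l]) = thp C.σ C.θ v * (C.σ ^ v.length) (C.θ l) := by
  induction v with
  | nil => simp [thp]
  | cons j v ih =>
    rw [List.cons_append, thp, thp, ih, map_mul, List.length_cons, pow_succ', mul_assoc]; rfl

theorem thp_rotate (k : ℕ) (w : List J) (hw : w.length = n) :
    (C.σ ^ k) (thp C.σ C.θ (w.rotate k)) = thp C.σ C.θ w := by
  induction k generalizing w with
  | zero => simp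
  | succ k ih =>
    cases w with
    | nil => simp [thp]
    | cons l v =>
      rw [List.rotate_cons_succ, pow_succ', AlgEquiv.mul_apply, ih _ (by simpa using hw),
        thp_concat, map_mul, thp, mul_comm, ← AlgEquiv.mul_apply, ← pow_succ',
        show v.length + 1 = n by simpa using hw, C.σn]
      rfl

theorem fix_of_coprime {k : ℕ} (hk : Nat.Coprime k n) {u : C.L} (h : (C.σ ^ k) u = u) :
    ∃ a, algebraMap C.F2 C.L a = u := by
  apply C.fix
  have h1 : Function.IsPeriodicPt C.σ k u := by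
    rw [Function.IsPeriodicPt, Function.IsFixedPt, ← AlgEquiv.coe_pow]; exact h
  have h2 : Function.IsPeriodicPt C.σ n u := by
    rw [Function.IsPeriodicPt, Function.IsFixedPt, ← AlgEquiv.coe_pow, C.σn]; rfl
  have := h1.gcd h2
  rwa [hk] at this

end Cyc

end Vale.Agent.P199
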