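import Vale.Agent.P199.Cyc

/-! Dimension counts in cyclic extensions. -/

namespace Vale.Agent.P199

open Finset Module

set_option linter.unusedSectionVars false

namespace Cyc

variable {F Δ : Type} [Field F] [CharZero F] [DivisionRing Δ] [Algebra F Δ]
  [FiniteDimensional F Δ] {T : Δ →ₗ[F] F} {n : ℕ} {J : Type} [Fintype J] (C : Cyc T n J)

/-- joint centralizer -/
def ZZ (c : Δ) : Subalgebra C.F2 C.E := Subalgebra.centralizer C.F2 {C.ι c, C.lam C.θ'}

variable {C} in
theorem mem_ZZ {c : Δ} {x : C.E} :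
    x ∈ C.ZZ c ↔ C.ι c * x = x * C.ι c ∧ C.lam C.θ' * x = x * C.lam C.θ' := by
  simp [ZZ, Subalgebra.mem_centralizer_iff]

theorem comm_ι {c k : Δ} {x : C.E} (h : C.ι c * x = x * C.ι c) (hk : k ∈ Kc F c) :
    C.ι k * x = x * C.ι k := by
  induction hk using Algebra.adjoin_induction with
  | mem y hy => rw [Set.mem_singleton_iff.mp hy]; exact h
  | algebraMap r => rw [C.ιφ, Algebra.commutes]
  | add a b _ _ ha hb => rw [map_add, add_mul, mul_add, ha, hb]
  | mul a b _ _ ha hb => rw [map_mul, mul_assoc, hb, ← mul_assoc, ha, mul_assoc]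

theorem lam_ι_mem {c z : Δ} (hz : z ∈ Zc F c) (l : C.L) : C.lam l * C.ι z ∈ C.ZZ c := by
  refine mul_mem (mem_ZZ.mpr ⟨(C.c1 _ _).symm, by rw [← map_mul, ← map_mul, mul_comm]⟩)
    (mem_ZZ.mpr ⟨by rw [← map_mul, ← map_mul, mem_Zc.mp hz], C.c1 _ _⟩)

theorem τ_pr (hT : IsTr T) {c : Δ} {x : C.E} (h : C.ι c * x = x * C.ι c) (a : Δ) :
    C.τ (x * C.ι (pr F c a)) = C.τ (x * C.ι a) := by
  obtain ⟨ζ, -, e⟩ := hT.decomp c a
  conv_rhs => rw [e, map_add, mul_add, map_add, ad_apply, map_sub, map_mul C.ι, map_mul C.ι, mul_sub,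
    map_sub, ← mul_assoc, ← C.τ_ι hT c, ← mul_assoc, h, mul_assoc, sub_self, add_zero]

/-- kernel of the pairing with `x` -/
def kerτ (x : C.E) : Submodule F Δ where
  carrier := {a | C.τ (x * C.ι a) = 0}
  add_mem' {a b} ha hb := by
    simp only [Set.mem_ofPred_eq] at *
    rw [map_add, mul_add, map_add, ha, hb, add_zero]
  zero_mem' := by simp
  smul_mem' c a ha := by
    simp only [Set.mem_ofPred_eq] at *
    rw [ι_smul, mul_smul_comm, map_smul, ha, smul_zero]

/-- elements pairing rationally with `x` -/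
def ratτ (x : C.E) : Submodule F Δ where
  carrier := {a | ∃ u, algebraMap C.F2 C.L u = C.τ (x * C.ι a)}
  add_mem' := by
    rintro a b ⟨u, hu⟩ ⟨v, hv⟩
    exact ⟨u + v, by rw [map_add, map_add, mul_add, map_add, hu, hv]⟩
  zero_mem' := ⟨0, by simp⟩
  smul_mem' := by
    rintro c a ⟨u, hu⟩
    exact ⟨C.φ c * u, by rw [ι_smul, mul_smul_comm, map_smul, ← hu, map_mul, Algebra.smul_def]⟩

theorem inj_ZZ (hT : IsTr T) {c : Δ} {x : C.E} (hx : x ∈ C.ZZ c)
    (h : ∀ z ∈ Zc F c, C.τ (x * C.ι z) = 0) : x = 0 := by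
  refine (C.isTr hT).nd (Z := ⊤) trivial fun y _ => ?_
  refine C.ext_gen (f := C.T0 ∘ₗ LinearMap.mulLeft _ x) (g := 0) (fun l a r => ?_) y
  simp only [LinearMap.comp_apply, LinearMap.mulLeft_apply, LinearMap.zero_apply]
  obtain ⟨h1, h2⟩ := mem_ZZ.mp hx
  by_cases hr : n ∣ r
  · obtain ⟨q, rfl⟩ := hr
    rw [pow_mul_n, ← Algebra.commutes, ← Algebra.smul_def, mul_smul_comm, map_smul, ← mul_assoc,
      ← C.comm_lam h2, mul_assoc, T0_lam, ← C.τ_pr hT h1, h _ (pr_mem c a)]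
    simp
  · rw [C.c1, mul_assoc, ← mul_assoc x]
    refine C.off hT ?_ l hr
    rw [← mul_assoc, h2, mul_assoc, C.c1, mul_assoc]

/-- the model annihilator -/
def NN (c : Δ) (W V : Submodule F Δ) : Submodule C.F2 C.E where
  carrier := {x | x ∈ C.ZZ c ∧ (∀ w ∈ W, C.τ (x * C.ι w) = 0) ∧
    ∀ v ∈ V, ∃ u, algebraMap C.F2 C.L u = C.τ (x * C.ι v)}
  add_mem' := by
    rintro x y ⟨h1, h2, h3⟩ ⟨g1, g2, g3⟩
    refine ⟨add_mem h1 g1, fun w hw => by rw [add_mul, map_add, h2 w hw, g2 w hw, add_zero],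
      fun v hv => ?_⟩
    obtain ⟨u, hu⟩ := h3 v hv
    obtain ⟨u', hu'⟩ := g3 v hv
    exact ⟨u + u', by rw [add_mul, map_add, map_add, hu, hu']⟩
  zero_mem' := ⟨zero_mem _, by simp, fun _ _ => ⟨0, by simp⟩⟩
  smul_mem' := by
    rintro a x ⟨h1, h2, h3⟩
    refine ⟨Subalgebra.smul_mem _ h1 a, fun w hw => by
      rw [smul_mul_assoc, map_smul, h2 w hw, smul_zero], fun v hv => ?_⟩
    obtain ⟨u, hu⟩ := h3 v hv
    exact ⟨a * u, by rw [smul_mul_assoc, map_smul, ← hu, map_mul, Algebra.smul_def]⟩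

variable {C} in
theorem mem_NN {c : Δ} {W V : Submodule F Δ} {x : C.E} : x ∈ C.NN c W V ↔
    x ∈ C.ZZ c ∧ (∀ w ∈ W, C.τ (x * C.ι w) = 0) ∧
    ∀ v ∈ V, ∃ u, algebraMap C.F2 C.L u = C.τ (x * C.ι v) := Iff.rfl

theorem le_kerτ {x : C.E} (Y : Submodule F Δ)
    (h : ∀ i, C.τ (x * C.ι (Module.finBasis F Y i : Δ)) = 0) : Y ≤ C.kerτ x := by
  intro y hy
  have := congrArg Subtype.val ((Module.finBasis F Y).sum_repr ⟨y, hy⟩)
  rw [Submodule.coe_sum] at this
  rw [← show _ = y from this]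
  exact sum_mem fun i _ => Submodule.smul_mem _ _ (h i)

theorem finrank_NN (hT : IsTr T) (c : Δ) {W V : Submodule F Δ} (hWV : W ≤ V)
    (hV : V ≤ (Zc F c).toSubmodule) :
    finrank C.F2 (C.NN c W V) + n * finrank F V + finrank F W ≤
      n * finrank F (Zc F c) + finrank F V := by
  obtain ⟨Y1, -, hY1, d1⟩ := exists_compl_le hWV
  obtain ⟨Y2, -, hY2, d2⟩ := exists_compl_le hV
  let f (Y : Submodule F Δ) : C.E →ₗ[C.F2] Fin (finrank F Y) → C.L :=
    LinearMap.pi fun i => C.τ ∘ₗ LinearMap.mulRight _ (C.ι (Module.finBasis F Y i : Δ))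
  have h1 := rank_null (f Y1) (C.NN c W V)
  have h2 : finrank C.F2 ((C.NN c W V).map (f Y1)) ≤ finrank F Y1 := by
    refine le_trans (Submodule.finrank_mono (?_ : _ ≤ LinearMap.range
      ((Algebra.linearMap C.F2 C.L).compLeft (Fin (finrank F Y1))))) ?_
    · rintro _ ⟨x, hx, rfl⟩
      choose u hu using fun i => hx.2.2 (Module.finBasis F Y1 i : Δ)
        (hY1 ▸ Submodule.mem_sup_right (Module.finBasis F Y1 i).2)
      exact ⟨u, funext hu⟩
    · simpa using LinearMap.finrank_range_le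
        ((Algebra.linearMap C.F2 C.L).compLeft (Fin (finrank F Y1)))
  have h3 := finrank_le_of_inj (f Y2) (C.NN c W V ⊓ LinearMap.ker (f Y1)) ⊤ (fun _ _ => trivial)
    (fun x hx h0 => C.inj_ZZ hT hx.1.1 fun z hz => by
      have : (Zc F c).toSubmodule ≤ C.kerτ x := by
        rw [← hY2, ← hY1]
        exact sup_le (sup_le hx.1.2.1 (C.le_kerτ _ fun i => congrFun hx.2 i))
          (C.le_kerτ _ fun i => congrFun h0 i)
      exact this hz)
  rw [finrank_top, Module.finrank_pi_fintype, sum_const, C.rank] at h3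
  simp only [card_univ, Fintype.card_fin, smul_eq_mul] at h3
  have e : finrank F (Zc F c) = finrank F (Zc F c).toSubmodule := rfl
  rw [e, ← d2, mul_add, mul_comm n (finrank F Y2)]
  omega

theorem finrank_ZZ (hT : IsTr T) (c : Δ) : finrank C.F2 (C.ZZ c) ≤ n * finrank F (Zc F c) := by
  have h := C.finrank_NN hT c (W := ⊥) (V := ⊥) le_rfl bot_le
  have : finrank C.F2 (C.ZZ c).toSubmodule ≤ finrank C.F2 (C.NN c (⊥ : Submodule F Δ) ⊥) :=
    Submodule.finrank_mono fun x hx => ⟨hx, by simp, by simp⟩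
  simp only [finrank_bot] at h
  exact le_trans this (by omega)

theorem finrank_E (hT : IsTr T) : finrank C.F2 C.E ≤ finrank F Δ * n * n := by
  let b := Module.finBasis F (⊤ : Submodule F Δ)
  let f : C.E →ₗ[C.F2] Fin (finrank F (⊤ : Submodule F Δ)) × Fin n → C.L :=
    LinearMap.pi fun i => C.τ ∘ₗ LinearMap.mulRight _ (C.ι (b i.1 : Δ)) ∘ₗ
      LinearMap.mulLeft _ (C.π ^ (i.2 : ℕ))
  have h := finrank_le_of_inj f ⊤ ⊤ (fun _ _ => trivial) fun x _ h0 => by
    refine (C.isTr hT).nd (Z := ⊤) trivial fun y _ => ?_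
    refine C.ext_gen (f := C.T0 ∘ₗ LinearMap.mulLeft _ x) (g := 0) (fun l a r => ?_) y
    simp only [LinearMap.comp_apply, LinearMap.mulLeft_apply, LinearMap.zero_apply]
    have h1 : C.τ (C.π ^ (r % n) * x * C.ι a) = 0 :=
      C.le_kerτ ⊤ (fun i => congrFun h0 (i, ⟨r % n, Nat.mod_lt _ C.npos⟩)) Submodule.mem_top
    rw [(C.isTr hT).comm, mul_assoc, mul_assoc, T0_lam, C.τ_ι hT, ← Nat.div_add_mod r n, pow_add,
      pow_mul_n, ← Algebra.smul_def, smul_mul_assoc, smul_mul_assoc, map_smul, h1]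
    simp
  rw [finrank_top, finrank_top, Module.finrank_pi_fintype, sum_const, C.rank] at h
  simpa using h

theorem indep_core (hT : IsTr T) {ι κ : Type} [Fintype ι] [Fintype κ] {v : ι → κ → Δ}
    (hv : LinearIndependent F v) {N : ℕ} (hN : N ≤ n) (m : ι → Fin N → C.L)
    (h : ∀ k, ∑ b, ∑ r, C.lam (m b r) * C.ι (v b k) * C.π ^ (r : ℕ) = 0) (b0 : ι) (r0 : Fin N) :
    m b0 r0 = 0 := by
  classical
  obtain ⟨ℓ, hℓ⟩ := (Fintype.linearCombination F v).exists_leftInverse_of_injective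
    (LinearMap.ker_eq_bot.mpr (linearIndependent_iff_injective_fintypeLinearCombination.mp hv))
  choose t ht using fun k => hT.exists_dual
    (LinearMap.proj b0 ∘ₗ ℓ ∘ₗ LinearMap.single F (fun _ : κ => Δ) k)
  have hsum : ∀ b, ∑ k, T (t k * v b k) = if b = b0 then 1 else 0 := fun b => by
    have e1 : ℓ (v b) = Pi.single b 1 := by
      have := LinearMap.congr_fun hℓ (Pi.single b 1)
      simpa [Fintype.linearCombination_apply_single] using this
    have e2 : ∑ k, ℓ (Pi.single k (v b k)) = ℓ (v b) := by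
      rw [← map_sum, Finset.univ_sum_single]
    simp only [← ht, LinearMap.comp_apply, LinearMap.coe_single, LinearMap.coe_proj,
      Function.eval]
    rw [← Finset.sum_apply, e2, e1, Pi.single_apply, if_congr eq_comm rfl rfl]
  have key : ∀ k, ∑ b, C.ε • C.φ (T (t k * v b k)) • m b r0 = 0 := fun k => by
    have := congrArg (fun y => C.τ (C.ι (t k) * y * C.π ^ (n - r0))) (h k)
    simp only [mul_sum, sum_mul, map_sum, mul_zero, zero_mul, map_zero] at this
    rw [← this]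
    refine sum_congr rfl fun b _ => ?_
    have e : ∀ r : Fin N, C.ι (t k) * (C.lam (m b r) * C.ι (v b k) * C.π ^ (r : ℕ)) *
        C.π ^ (n - r0) = C.lam (m b r) * C.ι (t k * v b k) * C.π ^ (r + (n - r0)) := fun r => by
      rw [map_mul, pow_add, ← mul_assoc, ← mul_assoc, ← C.c1]
      simp only [mul_assoc]
    simp only [e]
    rw [sum_eq_single r0 (fun r _ hr => C.τ_ndvd _ _ fun hd => ?_) (by simp),
      show (r0 : ℕ) + (n - r0) = n * 1 by have := r0.2; omega, τ_dvd, pow_one]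
    have h1 := r.2
    have h2 := r0.2
    have h3 : (r : ℕ) ≠ r0 := fun h => hr (Fin.ext h)
    obtain ⟨q, hq⟩ := hd
    rcases q with _ | _ | q
    · omega
    · omega
    · have : n * (q + 1 + 1) = n * q + 2 * n := by ring
      omega
  have := sum_eq_zero (s := univ) fun k _ => key k
  rw [sum_comm] at this
  simp only [← smul_sum, ← sum_smul, ← map_sum, hsum] at this
  rw [sum_eq_single b0 (fun b _ hb => by simp [hb]) (by simp)] at this
  simpa [C.εne] using this

theorem indep_fam (hT : IsTr T) {ι κ : Type} [Fintype ι] [Fintype κ] {v : ι → κ → Δ}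
    (hv : LinearIndependent F v) {N : ℕ} (hN : N ≤ n) :
    LinearIndependent C.F2 fun (p : ι × Fin N × Fin (finrank C.F2 C.L)) k =>
      C.lam (Module.finBasis C.F2 C.L p.2.2) * C.ι (v p.1 k) * C.π ^ (p.2.1 : ℕ) := by
  rw [Fintype.linearIndependent_iff]
  rintro g hg ⟨b0, r0, a0⟩
  have := C.indep_core hT hv hN (fun b r => ∑ a, g (b, r, a) • Module.finBasis C.F2 C.L a)
    (fun k => by
      have := congrFun hg k
      simp only [Fintype.sum_prod_type, Finset.sum_apply, Pi.smul_apply, Pi.zero_apply] at this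
      simp only [map_sum, map_smul, sum_mul, smul_mul_assoc]
      exact this) b0 r0
  exact Fintype.linearIndependent_iff.mp (Module.finBasis C.F2 C.L).linearIndependent _ this a0

theorem lb_pow (hT : IsTr T) (V : Submodule F Δ) (M : Submodule C.F2 C.E) {N : ℕ} (hN : N ≤ n)
    (h : ∀ l, ∀ v ∈ V, ∀ r < N, C.lam l * C.ι v * C.π ^ r ∈ M) :
    finrank F V * N * n ≤ finrank C.F2 M := by
  let b := Module.finBasis F V
  have hv : LinearIndependent F fun i (_ : Unit) => (b i : Δ) :=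
    (b.linearIndependent.map' V.subtype (Submodule.ker_subtype _)).map'
      (LinearMap.pi fun _ : Unit => LinearMap.id)
      (LinearMap.ker_eq_bot.mpr fun x y h => congrFun h ())
  have h1 := LinearIndependent.of_comp (LinearMap.pi fun _ : Unit => LinearMap.id)
    (v := fun (p : Fin (finrank F V) × Fin N × Fin (finrank C.F2 C.L)) =>
      C.lam (Module.finBasis C.F2 C.L p.2.2) * C.ι (b p.1 : Δ) * C.π ^ (p.2.1 : ℕ))
    (C.indep_fam hT hv hN)
  have := card_le_finrank_of_mem h1 M fun p => h _ _ (b p.1).2 _ p.2.1.2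
  simpa [C.rank, mul_assoc] using this

theorem lb_one (hT : IsTr T) (V : Submodule F Δ) (M : Submodule C.F2 C.E)
    (h : ∀ l, ∀ v ∈ V, C.lam l * C.ι v ∈ M) : n * finrank F V ≤ finrank C.F2 M := by
  have := C.lb_pow hT V M (N := 1) C.npos fun l v hv r hr => by
    rw [show r = 0 by omega, pow_zero, mul_one]; exact h l v hv
  rwa [mul_one, mul_comm] at this

/-- the cyclic algebra -/
noncomputable def P0 : Subalgebra C.F2 C.E :=
  (Submodule.span C.F2 {x | ∃ l, ∃ r : ℕ, x = C.lam l * C.π ^ r}).toSubalgebra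
    (Submodule.subset_span ⟨1, 0, by simp⟩) fun x y hx hy => by
      have h := Submodule.mul_mem_mul hx hy
      rw [Submodule.span_mul_span] at h
      refine Submodule.span_mono ?_ h
      rintro _ ⟨_, ⟨l, r, rfl⟩, _, ⟨l', r', rfl⟩, rfl⟩
      refine ⟨l * (C.σ ^ r) l', r + r', ?_⟩
      simp only [map_mul, pow_add, mul_assoc]
      rw [← mul_assoc (C.π ^ r), pow_lam, mul_assoc]

theorem mem_P0 (l : C.L) (r : ℕ) : C.lam l * C.π ^ r ∈ C.P0 := Submodule.subset_span ⟨l, r, rfl⟩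
theorem lam_P0 (l : C.L) : C.lam l ∈ C.P0 := by simpa using C.mem_P0 l 0
theorem pow_P0 (r : ℕ) : C.π ^ r ∈ C.P0 := by simpa using C.mem_P0 1 r

theorem ext_P0 {M : Type} [AddCommGroup M] [Module C.F2 M] {f g : C.E →ₗ[C.F2] M}
    (h : ∀ l (r : ℕ), f (C.lam l * C.π ^ r) = g (C.lam l * C.π ^ r)) {x : C.E} (hx : x ∈ C.P0) :
    f x = g x :=
  LinearMap.eqOn_span (by rintro _ ⟨l, r, rfl⟩; exact h l r) hx

theorem P0_comm {x : C.E} (hx : x ∈ C.P0) (a : Δ) : x * C.ι a = C.ι a * x :=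
  C.ext_P0 (f := LinearMap.mulRight _ (C.ι a)) (g := LinearMap.mulLeft _ (C.ι a)) (fun l r => by
    simp only [LinearMap.mulLeft_apply, LinearMap.mulRight_apply]
    rw [mul_assoc, pow_ι, ← mul_assoc, C.c1, mul_assoc]) hx

theorem finrank_P0 (hT : IsTr T) : n * n ≤ finrank C.F2 C.P0.toSubmodule := by
  have := C.lb_pow hT (Submodule.span F {1}) C.P0.toSubmodule le_rfl fun l v hv r _ => by
    obtain ⟨a, rfl⟩ := Submodule.mem_span_singleton.mp hv
    rw [ι_smul, map_one, mul_smul_comm, mul_one, smul_mul_assoc]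
    exact Submodule.smul_mem _ _ (C.mem_P0 l r)
  rwa [finrank_span_singleton one_ne_zero, one_mul] at this

theorem finrank_diag (hT : IsTr T) (M : Submodule C.F2 C.E)
    (h : ∀ x ∈ M, x ∈ C.P0 ∧ C.lam C.θ' * x = x * C.lam C.θ') : finrank C.F2 M ≤ n := by
  have := finrank_le_of_inj C.τ M ⊤ (fun _ _ => trivial) fun x hx h0 => by
    refine (C.isTr hT).nd (h x hx).1 fun y hy => ?_
    refine C.ext_P0 (f := C.T0 ∘ₗ LinearMap.mulLeft _ x) (g := 0) (fun l r => ?_) hy
    simp only [LinearMap.comp_apply, LinearMap.mulLeft_apply, LinearMap.zero_apply]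
    by_cases hr : n ∣ r
    · obtain ⟨q, rfl⟩ := hr
      rw [pow_mul_n, ← Algebra.commutes, ← Algebra.smul_def, mul_smul_comm, map_smul, T0_apply,
        τ_lam', h0]
      simp
    · exact C.off hT (h x hx).2 l hr
  rwa [finrank_top, C.rank] at this

end Cyc

end Vale.Agent.P199
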