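import Vale.Agent.P199.Dom

/-! Construction of cyclic extensions as skew Laurent series. -/

namespace Vale.Agent.P199

open Finset Module TensorProduct Lau

set_option linter.unusedSectionVars false

namespace Lau

variable {A : Type} [Ring A] {n : ℕ}

/-- substitution of the `n`-th power of the variable -/
noncomputable def spread (hn : 0 < n) : Lau A →+* Lau A :=
  HahnSeries.embDomainRingHom (AddMonoidHom.mulLeft (n : ℤ))
    (fun _ _ h => mul_left_cancel₀ (by omega : (n : ℤ) ≠ 0) h)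
    fun _ _ => mul_le_mul_iff_right₀ (by omega)

theorem co_spread (hn : 0 < n) (x : Lau A) (q : ℤ) : co (spread hn x) (n * q) = co x q :=
  HahnSeries.embDomain_mk_coeff _ _

theorem co_spread_ne (hn : 0 < n) (x : Lau A) {k : ℤ} (h : ¬ (n : ℤ) ∣ k) :
    co (spread hn x) k = 0 :=
  HahnSeries.embDomain_of_notMem_range fun ⟨q, hq⟩ => h ⟨q, hq.symm⟩

/-- extraction of a residue class of coefficients -/
noncomputable def extr (hn : 0 < n) (r : ℤ) : Lau A →+ Lau A where
  toFun x := mk (fun q => co x (n * q + r)) (min 0 ((exists_O x).choose - r)) fun q hq =>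
    (exists_O x).choose_spec _ (by
      have h1 : q < 0 := lt_of_lt_of_le hq (min_le_left _ _)
      have h2 := lt_of_lt_of_le hq (min_le_right _ _)
      nlinarith)
  map_zero' := ext fun _ => by simp
  map_add' x y := ext fun _ => by simp

@[simp] theorem co_extr (hn : 0 < n) (r : ℤ) (x : Lau A) (q : ℤ) :
    co (extr hn r x) q = co x (n * q + r) := rfl

theorem co_mul' (x y : Lau A) (k : ℤ) (s : Finset ℤ)
    (hs : ∀ i, co x i ≠ 0 → co y (k - i) ≠ 0 → i ∈ s) :
    co (x * y) k = ∑ i ∈ s, co x i * co y (k - i) := by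
  obtain ⟨a, ha⟩ := exists_O x
  obtain ⟨b, hb⟩ := exists_O y
  rw [co_mul ha hb]
  refine Finset.sum_bij_ne_zero (fun i _ _ => i) (fun i _ h => ?_) (fun _ _ _ _ _ _ h => h)
    (fun i _ h => ⟨i, mem_Icc.mpr ⟨?_, ?_⟩, h, rfl⟩) fun _ _ _ => rfl
  · exact hs i (left_ne_zero_of_mul h) (right_ne_zero_of_mul h)
  · by_contra hc; exact left_ne_zero_of_mul h (ha _ (by omega))
  · by_contra hc; exact right_ne_zero_of_mul h (hb _ (by omega))

theorem extr_spread_mul (hn : 0 < n) (r : ℤ) (y x : Lau A) :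
    extr hn r (spread hn y * x) = y * extr hn r x := by
  ext q
  obtain ⟨a, ha⟩ := exists_O y
  obtain ⟨b, hb⟩ := exists_O (extr hn r x)
  rw [co_extr, co_mul ha hb, co_mul' _ _ _ ((Icc a (q - b)).map
    ⟨fun p => n * p, fun _ _ h => mul_left_cancel₀ (by omega : (n : ℤ) ≠ 0) h⟩), sum_map]
  · refine sum_congr rfl fun p _ => ?_
    change co (spread hn y) (n * p) * co x (n * q + r - n * p) = _
    rw [co_spread, co_extr]
    congr 2; ring
  · intro i h1 h2
    obtain ⟨p, rfl⟩ : (n : ℤ) ∣ i := by_contra fun h => h1 (co_spread_ne hn y h)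
    refine mem_map.mpr ⟨p, mem_Icc.mpr ⟨?_, ?_⟩, rfl⟩
    · by_contra hc; exact h1 (by rw [co_spread]; exact ha _ (by omega))
    · by_contra hc
      have := hb (q - p) (by omega)
      rw [co_extr] at this
      exact h2 (by rw [← this]; congr 1; ring)

theorem mono_pow (a : A) (r : ℕ) : mono 1 a ^ r = mono r (a ^ r) := by
  induction r with
  | zero => simp [one_eq]
  | succ r ih => rw [pow_succ, ih, mono_mul, pow_succ]; push_cast; rfl

end Lau

section skew

variable {F L : Type} (Δ : Type) [Field F] [DivisionRing Δ] [Algebra F Δ] [Field L] [Algebra F L]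

/-- action on the scalar extension -/
noncomputable def sD : (L ≃ₐ[F] L) →* Module.End F (L ⊗[F] Δ) where
  toFun σ := σ.toLinearMap.rTensor Δ
  map_one' := by ext; simp
  map_mul' _ _ := by ext; simp

variable {Δ}

theorem sD_tmul (σ : L ≃ₐ[F] L) (l : L) (a : Δ) : sD Δ σ (l ⊗ₜ a) = σ l ⊗ₜ a := rfl

theorem sD_mul (σ : L ≃ₐ[F] L) (x y : L ⊗[F] Δ) : sD Δ σ (x * y) = sD Δ σ x * sD Δ σ y :=
  map_mul (Algebra.TensorProduct.map (σ : L →ₐ[F] L) (AlgHom.id F Δ)) x y

theorem sD_one (σ : L ≃ₐ[F] L) : sD Δ σ 1 = 1 :=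
  map_one (Algebra.TensorProduct.map (σ : L →ₐ[F] L) (AlgHom.id F Δ))

theorem sD_inj (σ : L ≃ₐ[F] L) {x : L ⊗[F] Δ} (h : sD Δ σ x = 0) : x = 0 := by
  have := congrArg (sD Δ σ⁻¹) h
  rwa [← Module.End.mul_apply, ← map_mul, inv_mul_cancel, map_one, map_zero] at this

variable (Δ)

/-- skew Laurent series -/
noncomputable def EE (σ : L ≃ₐ[F] L) : Subring (Lau (Module.End F (L ⊗[F] Δ))) where
  carrier := {x | ∀ k d, co x k d = co x k 1 * sD Δ (σ ^ k) d}
  mul_mem' {x y} hx hy k d := by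
    obtain ⟨a, ha⟩ := exists_O x
    obtain ⟨b, hb⟩ := exists_O y
    rw [co_mul ha hb, LinearMap.sum_apply, LinearMap.sum_apply, sum_mul]
    refine sum_congr rfl fun i _ => ?_
    rw [Module.End.mul_apply, Module.End.mul_apply, hx i, hx i (co y _ 1), hy _ d, sD_mul,
      ← Module.End.mul_apply (sD Δ _) (sD Δ _), ← map_mul, ← zpow_add, add_sub_cancel, mul_assoc]
  one_mem' k d := by
    rw [one_eq, co_mono]
    split_ifs with h <;> simp [h]
  add_mem' hx hy k d := by rw [co_add, LinearMap.add_apply, hx, hy, LinearMap.add_apply, add_mul]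
  zero_mem' k d := by simp
  neg_mem' hx k d := by rw [co_neg, LinearMap.neg_apply, hx, LinearMap.neg_apply, neg_mul]

variable {Δ}

theorem EE_domain (σ : L ≃ₐ[F] L) [NoZeroDivisors (L ⊗[F] Δ)] : IsDomain (EE Δ σ) := by
  have : NoZeroDivisors (EE Δ σ) := ⟨fun {x y} h => by
    by_contra hc
    push Not at hc
    have key : ∀ z : EE Δ σ, z ≠ 0 → ∃ j, z.1 ∈ O _ j ∧ co z.1 j 1 ≠ 0 := fun z hz => by
      obtain ⟨j, h1, h2⟩ := exists_lead (fun h => hz (Subtype.ext h))
      exact ⟨j, h1, fun h => h2 (LinearMap.ext fun d => by rw [z.2 j d, h, zero_mul]; rfl)⟩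
    obtain ⟨i, hi, hi'⟩ := key x hc.1
    obtain ⟨j, hj, hj'⟩ := key y hc.2
    have h1 := congrArg (fun z : EE Δ σ => co z.1 (i + j) 1) h
    simp only [Subring.coe_mul, co_lead hi hj rfl, Module.End.mul_apply, x.2 i (co y.1 j 1),
      Subring.coe_zero, co_zero, LinearMap.zero_apply] at h1
    exact mul_ne_zero hi' (fun h => hj' (sD_inj _ h)) h1⟩
  exact NoZeroDivisors.to_isDomain _

variable (Δ) in
/-- left multiplication by scalars of `L` -/
noncomputable def ρL : L →+* Module.End F (L ⊗[F] Δ) :=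
  (Algebra.lmul F (L ⊗[F] Δ)).toRingHom.comp
    (Algebra.TensorProduct.includeLeftRingHom : L →+* L ⊗[F] Δ)

theorem ρL_apply (l : L) (d : L ⊗[F] Δ) : ρL Δ l d = l • d := by
  change (l ⊗ₜ[F] (1 : Δ)) * d = _
  rw [Algebra.smul_def]; rfl

theorem sD_smul (σ : L ≃ₐ[F] L) (l : L) (d : L ⊗[F] Δ) : sD Δ σ (l • d) = σ l • sD Δ σ d := by
  rw [Algebra.smul_def, sD_mul, Algebra.smul_def]; rfl

variable (L) in
/-- left multiplication by elements of `Δ` -/
noncomputable def ρR : Δ →+* Module.End F (L ⊗[F] Δ) :=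
  (Algebra.lmul F (L ⊗[F] Δ)).toRingHom.comp
    (Algebra.TensorProduct.includeRight : Δ →ₐ[F] L ⊗[F] Δ).toRingHom

theorem ρR_apply (a : Δ) (d : L ⊗[F] Δ) : ρR L a d = ((1 : L) ⊗ₜ[F] a) * d := rfl

variable {n : ℕ} (hn : 0 < n) (σ : L ≃ₐ[F] L) (hσ : σ ^ n = 1)

variable (Δ) in
/-- the embedding of the cyclic field -/
noncomputable def lam0 : Lau L →+* Lau (Module.End F (L ⊗[F] Δ)) :=
  (spread hn).comp (rmap (ρL Δ))

theorem co_lam0 (l : Lau L) (k : ℤ) : ∃ u, co (lam0 Δ hn l) k = (ρL Δ u : Module.End F _) ∧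
    (∀ σ' : L ≃ₐ[F] L, co (lam0 Δ hn (rmap σ'.toRingEquiv.toRingHom l)) k =
      (ρL Δ (σ' u) : Module.End F _)) ∧
    ((n : ℤ) ∣ k ∨ u = 0) ∧ (u = 0 ∨ ∃ q, u = co l q) := by
  by_cases h : (n : ℤ) ∣ k
  · obtain ⟨q, rfl⟩ := h
    exact ⟨co l q, co_spread hn _ q, fun σ' => co_spread hn _ q, Or.inl ⟨q, rfl⟩, Or.inr ⟨q, rfl⟩⟩
  · exact ⟨0, (co_spread_ne hn _ h).trans (map_zero _).symm,
      fun σ' => (co_spread_ne hn _ h).trans (by simp), Or.inr rfl, Or.inl rfl⟩

include hσ in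
theorem zpow_dvd {k : ℤ} (h : (n : ℤ) ∣ k) : σ ^ k = 1 := by
  obtain ⟨q, rfl⟩ := h
  rw [zpow_mul, zpow_natCast, hσ, one_zpow]

include hσ in
theorem lam0_mem (l : Lau L) : lam0 Δ hn l ∈ EE Δ σ := fun k d => by
  obtain ⟨u, h1, -, h2, -⟩ := co_lam0 (F := F) (Δ := Δ) hn l k
  rw [h1, ρL_apply, ρL_apply]
  rcases h2 with h | rfl
  · rw [zpow_dvd σ hσ h]; simp
  · simp

theorem ι0_mem (a : Δ) : Lau.C (ρR L a) ∈ EE Δ σ := fun k d => by
  rw [C_eq, co_mono]
  split_ifs with h <;> simp [h, ρR_apply]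

theorem π0_mem : mono 1 (sD Δ σ) ∈ EE Δ σ := fun k d => by
  rw [co_mono]
  split_ifs with h <;> simp [h, sD_one]

end skew

/-- coefficientwise automorphism -/
noncomputable def sL {F L : Type} [Field F] [Field L] [Algebra F L] :
    (L ≃ₐ[F] L) →* RingAut (Lau L) where
  toFun σ := RingEquiv.ofRingHom (rmap σ.toRingEquiv.toRingHom) (rmap σ.symm.toRingEquiv.toRingHom)
    (RingHom.ext fun x => Lau.ext fun k => by simp) (RingHom.ext fun x => Lau.ext fun k => by simp)
  map_one' := RingEquiv.ext fun x => Lau.ext fun k => rfl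
  map_mul' _ _ := RingEquiv.ext fun x => Lau.ext fun k => rfl

theorem co_sL {F L : Type} [Field F] [Field L] [Algebra F L] (σ : L ≃ₐ[F] L) (x : Lau L) (k : ℤ) :
    co (sL σ x) k = σ (co x k) := rfl

set_option maxHeartbeats 1600000 in
theorem exists_cyc {F Δ : Type} [Field F] [CharZero F] [DivisionRing Δ] [Algebra F Δ]
    [FiniteDimensional F Δ] (T : Δ →ₗ[F] F) {n : ℕ} (hn : 0 < n) (J : Type) [Fintype J] :
    Nonempty (Cyc T n J) := by
  classical
  obtain ⟨L, _, _, σ, θ, hdom, hσ, hσ', hind⟩ := exists_shift F Δ n hn J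
  have : CharZero L := charZero_of_injective_algebraMap (algebraMap F L).injective
  let G := Subgroup.zpowers (sL σ)
  have hord : orderOf (sL σ) = n := by
    refine Nat.dvd_antisymm (orderOf_dvd_of_pow_eq_one (by rw [← map_pow, hσ, map_one]))
      (hσ' _ (AlgEquiv.ext fun l => ?_))
    have h := congrArg (fun s : RingAut (Lau L) => co (s (Lau.C l)) 0) (pow_orderOf_eq_one (sL σ))
    simp only [← map_pow, co_sL, RingAut.one_apply, co_C_zero] at h
    exact h
  have : Finite G := (finite_zpowers.mpr (orderOf_pos_iff.mp (hord ▸ hn))).to_subtype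
  let _ : Fintype G := Fintype.ofFinite G
  let F2 := FixedPoints.subfield G (Lau L)
  have hfix : ∀ x : Lau L, sL σ x = x → x ∈ F2 := fun x hx g =>
    (Subgroup.zpowers_le.mpr (show sL σ ∈ MulAction.stabilizer (RingAut (Lau L)) x from hx)) g.2
  have hfix' : ∀ x : F2, sL σ x = x := fun x => x.2 ⟨sL σ, Subgroup.mem_zpowers _⟩
  have hrank : finrank F2 (Lau L) = n := by
    rw [FixedPoints.finrank_eq_card, ← Nat.card_eq_fintype_card, Nat.card_zpowers, hord]
  have : FiniteDimensional F2 (Lau L) := Module.finite_of_finrank_pos (hrank ▸ hn)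
  let s : Lau L ≃ₐ[F2] Lau L := AlgEquiv.ofRingEquiv (f := sL σ) hfix'
  have hs : ∀ (k : ℕ) x, (s ^ k) x = sL (σ ^ k) x := by
    intro k
    induction k with
    | zero => intro x; simp
    | succ k ih => intro x; rw [pow_succ, pow_succ, map_mul, AlgEquiv.mul_apply, ih]; rfl
  obtain ⟨θ', hθ'⟩ := Field.exists_primitive_element F2 (Lau L)
  have hprim : Algebra.adjoin F2 {θ'} = ⊤ := IntermediateField.adjoin_eq_top_iff.mp hθ'
  let φ : F →+* F2 := (Lau.C.comp (algebraMap F L)).codRestrict F2 fun a =>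
    hfix _ (Lau.ext fun k => by
      rw [co_sL, RingHom.comp_apply, C_eq, co_mono]; split_ifs <;> simp)
  let lam1 : Lau L →+* EE Δ σ := (lam0 Δ hn).codRestrict _ (lam0_mem hn σ hσ)
  let _ : Algebra F2 (EE Δ σ) := RingHom.toAlgebra' (lam1.comp F2.subtype) fun a x =>
    Subtype.ext (comm_of_co fun i j => LinearMap.ext fun d => by
      obtain ⟨u, h1, -, -, h2⟩ := co_lam0 (F := F) (Δ := Δ) hn a.1 i
      have h3 : σ u = u := by
        rcases h2 with rfl | ⟨q, rfl⟩
        · exact map_zero _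
        · exact congrArg (co · q) (hfix' a)
      have h4 : (σ ^ j) u = u :=
        (MulAction.stabilizer (L ≃ₐ[F] L) u).zpow_mem (show σ ∈ _ from h3) j
      change co (lam0 Δ hn a.1) i (co x.1 j d) = co x.1 j (co (lam0 Δ hn a.1) i d)
      rw [h1, ρL_apply, ρL_apply, x.2 j d, x.2 j (u • d), sD_smul, h4, mul_smul_comm])
  let lam : Lau L →ₐ[F2] EE Δ σ := { lam1 with commutes' := fun _ => rfl }
  let ι : Δ →+* EE Δ σ := (Lau.C.comp (ρR L)).codRestrict _ (ι0_mem σ)
  let π : EE Δ σ := ⟨_, π0_mem σ⟩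
  have hπ : ∀ r : ℕ, (π ^ r).1 = mono r (sD Δ (σ ^ r)) := fun r => by
    rw [SubmonoidClass.coe_pow, mono_pow, map_pow]
  have hlam : ∀ l, (lam l).1 = lam0 Δ hn l := fun _ => rfl
  have hι : ∀ a, (ι a).1 = Lau.C (ρR L a) := fun _ => rfl
  let ev (ξ : L ⊗[F] Δ →ₗ[L] L) : Module.End F (L ⊗[F] Δ) →+ L :=
    { toFun := fun b => ξ (b 1), map_zero' := by simp, map_add' := by simp }
  have hev : ∀ ξ l (x : Lau (Module.End F (L ⊗[F] Δ))),
      cmap (ev ξ) (extr hn 0 (lam0 Δ hn l * x)) = l * cmap (ev ξ) (extr hn 0 x) := by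
    intro ξ l x
    rw [lam0, RingHom.comp_apply, extr_spread_mul]
    ext q
    obtain ⟨a, ha⟩ := exists_O l
    obtain ⟨b, hb⟩ := exists_O (extr hn 0 x)
    rw [co_cmap, co_mul (rmap_O _ ha) hb, co_mul ha (cmap_O _ hb), map_sum]
    refine sum_congr rfl fun i _ => ?_
    simp [ev, ρL_apply]
  let τ1 : L ⊗[F] Δ →ₗ[L] L := (AlgebraTensorModule.rid F L L).toLinearMap ∘ₗ T.baseChange L
  let τ : EE Δ σ →ₗ[F2] Lau L :=
    { toFun := fun x => cmap (ev τ1) (extr hn 0 x.1)
      map_add' := fun x y => by simp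
      map_smul' := fun a x => hev τ1 a.1 x.1 }
  have hτ : ∀ l x, τ (lam l * x) = l * τ x := fun l x => hev τ1 l x.1
  let b := Module.finBasis F Δ
  let bL := Algebra.TensorProduct.basis L b
  have hspan : ∀ x : EE Δ σ, x = ∑ r ∈ range n, ∑ i,
      lam (cmap (ev (bL.coord i)) (extr hn r x.1)) * ι (b i) * π ^ r := fun x => by
    refine Subtype.ext (Lau.ext fun k => LinearMap.ext fun d => ?_)
    have hr : ((k % n).toNat : ℤ) = k % n := Int.toNat_of_nonneg (Int.emod_nonneg _ (by omega))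
    have hr' : k % n < n := Int.emod_lt_of_pos _ (by omega)
    have hk : k - (k % n).toNat = n * (k / n) := by rw [hr]; have := Int.emod_add_mul_ediv k n; omega
    simp only [AddSubmonoidClass.coe_finsetSum, Subring.coe_mul, hπ, hlam, hι, co_sum, co_mul_mono,
      co_mul_C]
    rw [sum_eq_single (k % n).toNat (fun r h1 h2 => sum_eq_zero fun i _ => ?_)
      (fun h => absurd (mem_range.mpr (by omega)) h)]
    · simp only [hk, lam0, RingHom.comp_apply, co_spread, co_rmap, co_cmap, co_extr,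
        LinearMap.sum_apply, Module.End.mul_apply, ρL_apply, ρR_apply, ← smul_mul_assoc, ← sum_mul]
      rw [x.2 k d, show n * (k / n) + ((k % n).toNat : ℤ) = k by omega]
      congr 1
      · conv_lhs => rw [← bL.sum_repr (co x.1 k 1)]
        simp [ev, bL, Algebra.TensorProduct.basis_apply]
      · rw [← zpow_natCast, ← sub_add_cancel k (k % n).toNat, zpow_add,
          zpow_dvd σ hσ ⟨_, hk⟩, one_mul, sub_add_cancel]
    · rw [lam0, RingHom.comp_apply, co_spread_ne, zero_mul, zero_mul]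
      intro hd
      have h3 := mem_range.mp h1
      have h5 : (r : ℤ) % n = k % n := (Int.modEq_iff_dvd.mpr hd)
      rw [Int.emod_eq_of_lt (by omega) (by omega)] at h5
      omega
  have : FiniteDimensional F2 (EE Δ σ) := by
    let bl := Module.finBasis F2 (Lau L)
    refine Module.finite_def.mpr (Submodule.fg_def.mpr ⟨Set.range
      fun p : Fin (finrank F2 (Lau L)) × Fin (finrank F Δ) × Fin n =>
        lam (bl p.1) * ι (b p.2.1) * π ^ (p.2.2 : ℕ), Set.finite_range _,
      eq_top_iff.mpr fun x _ => ?_⟩)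
    rw [hspan x]
    refine sum_mem fun r hr => sum_mem fun i _ => ?_
    rw [← bl.sum_repr (cmap _ _), map_sum, sum_mul, sum_mul]
    refine sum_mem fun a _ => ?_
    rw [map_smul, smul_mul_assoc, smul_mul_assoc]
    exact Submodule.smul_mem _ _ (Submodule.subset_span ⟨(a, i, ⟨r, mem_range.mp hr⟩), rfl⟩)
  have := EE_domain (Δ := Δ) σ
  have hC : ∀ u : L, lam0 Δ hn (Lau.C u) = Lau.C (ρL Δ u : Module.End F (L ⊗[F] Δ)) := fun u => by
    rw [lam0, RingHom.comp_apply, C_eq, rmap_mono]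
    exact HahnSeries.embDomainRingHom_C
  refine ⟨{
    L := Lau L, F2 := F2, E := EE Δ σ, dE := divisionRingOfFiniteDimensional F2 (EE Δ σ)
    rank := hrank, φ := φ, σ := s
    σn := AlgEquiv.ext fun x => by rw [hs, hσ, map_one]; rfl
    fix := fun l hl => ⟨⟨l, hfix l hl⟩, rfl⟩
    θ' := θ', prim := hprim
    θne := fun k hk => ?_
    θ := fun j => Lau.C (θ j)
    indep := fun a ha => hind a ?_
    lam := lam, ι := ι
    ιφ := fun a => Subtype.ext ?_
    π := π
    ε := ⟨mono 1 1, hfix _ (Lau.ext fun k => by rw [co_sL, co_mono]; split_ifs <;> simp)⟩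
    εne := fun h => mono_ne one_ne_zero (congrArg Subtype.val h)
    c1 := fun l a => Subtype.ext (Lau.ext fun k => LinearMap.ext fun d => ?_)
    c2 := fun a => Subtype.ext ?_
    c3 := fun l => Subtype.ext (Lau.ext fun k => LinearMap.ext fun d => ?_)
    πn := Subtype.ext ?_
    τ := τ
    τ0 := fun l a => ?_
    τr := fun l a r h1 h2 => ?_
    span := eq_top_iff.mpr fun x _ => ?_ }⟩
  · have h1 : ((s ^ k : Lau L ≃ₐ[F2] Lau L) : Lau L →ₐ[F2] Lau L) = AlgHom.id _ _ :=
      AlgHom.ext_of_adjoin_eq_top hprim (by rintro _ rfl; exact hk)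
    refine hσ' k (AlgEquiv.ext fun l => ?_)
    have := congrArg (co · 0) ((hs k (Lau.C l)).symm.trans (AlgHom.congr_fun h1 (Lau.C l)))
    simp only [co_sL, AlgHom.id_apply, co_C_zero] at this
    exact this
  · have h1 : ∀ w, thp s (fun j => Lau.C (θ j)) w = Lau.C (thp σ θ w) := fun w => by
      induction w with
      | nil => simp [thp]
      | cons l v ih =>
        rw [thp, thp, ih, map_mul]
        exact congrArg _ (rmap_mono _ _ _)
    have := congrArg (co · 0) ha
    simp only [h1, co_sum, co_zero] at this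
    rw [← this]
    refine sum_congr rfl fun w _ => ?_
    change _ = co (Lau.C (algebraMap F L (a w)) * _) 0
    rw [← map_mul, co_C_zero, Algebra.smul_def]
  · change Lau.C (ρR L (algebraMap F Δ a)) = lam0 Δ hn (Lau.C (algebraMap F L a))
    rw [hC]
    refine congrArg _ (LinearMap.ext fun d => ?_)
    rw [ρL_apply, ρR_apply, algebraMap_smul, Algebra.smul_def, Algebra.TensorProduct.algebraMap_apply']
  · obtain ⟨u, h1, -⟩ := co_lam0 (F := F) (Δ := Δ) hn l k
    change co (A := Module.End F (L ⊗[F] Δ)) (lam0 Δ hn l * Lau.C (ρR L a)) k d =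
      co (A := Module.End F (L ⊗[F] Δ)) (Lau.C (ρR L a) * lam0 Δ hn l) k d
    rw [co_mul_C, co_C_mul, h1, Module.End.mul_apply, Module.End.mul_apply, ρL_apply, ρL_apply,
      ρR_apply, ρR_apply, mul_smul_comm]
  · change mono 1 (sD Δ σ) * Lau.C (ρR L a) = Lau.C (ρR L a) * mono 1 (sD Δ σ)
    rw [C_eq, mono_mul, mono_mul, add_comm]
    refine congrArg _ (LinearMap.ext fun d => ?_)
    rw [Module.End.mul_apply, Module.End.mul_apply, ρR_apply, ρR_apply, sD_mul, sD_tmul, map_one]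
  · obtain ⟨u, h1, h2, -⟩ := co_lam0 (F := F) (Δ := Δ) hn l (k - 1)
    change co (A := Module.End F (L ⊗[F] Δ)) (mono 1 (sD Δ σ) * lam0 Δ hn l) k d =
      co (A := Module.End F (L ⊗[F] Δ))
        (lam0 Δ hn (rmap σ.toRingEquiv.toRingHom l) * mono 1 (sD Δ σ)) k d
    rw [co_mono_mul, co_mul_mono, h1, h2, Module.End.mul_apply, Module.End.mul_apply, ρL_apply,
      ρL_apply, sD_smul]
  · change (π ^ n).1 = lam0 Δ hn (mono 1 1)
    rw [hπ, hσ, map_one, lam0, RingHom.comp_apply, rmap_mono, map_one]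
    refine (HahnSeries.embDomain_single.trans ?_).symm
    exact congrArg (fun k => mono k 1) (mul_one (n : ℤ))
  · refine (hτ l _).trans ?_
    rw [mul_comm]
    refine congrArg (· * l) (Lau.ext fun q => ?_)
    change τ1 (co (Lau.C (ρR L a)) (n * q + 0) 1) = co (Lau.C (algebraMap F L (T a))) q
    rw [C_eq, C_eq, co_mono, co_mono]
    by_cases hq : q = 0
    · simp [hq, τ1, ρR_apply, Algebra.smul_def]
    · rw [if_neg hq, if_neg (by simp [hq]; omega)]; simp
  · rw [mul_assoc]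
    refine (hτ l _).trans (mul_eq_zero_of_right _ (Lau.ext fun q => ?_))
    change τ1 (co (A := Module.End F (L ⊗[F] Δ)) (Lau.C (ρR L a) * (π ^ r).1) (n * q + 0) 1) = 0
    rw [hπ, co_C_mul, co_mono_ne, mul_zero]
    · simp
    · intro h
      have := Int.le_of_dvd (by omega) (show (n : ℤ) ∣ r from ⟨q, by omega⟩)
      omega
  · rw [hspan x]
    exact sum_mem fun r _ => sum_mem fun i _ => Submodule.subset_span ⟨_, _, r, rfl⟩

end Vale.Agent.P199
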