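import Vale.Agent.P199.Child

/-! Analysis of specializations with a diagonal leading term. -/

namespace Vale.Agent.P199

open Finset Module Polynomial Lau

set_option linter.unusedSectionVars false

variable {F Δ : Type} [Field F] [CharZero F] [DivisionRing Δ] [Algebra F Δ]
  [FiniteDimensional F Δ] {T : Δ →ₗ[F] F} {n : ℕ} {J : Type} [Fintype J]

theorem Kc_comm {c a b : Δ} (ha : a ∈ Kc F c) (hb : b ∈ Kc F c) : a * b = b * a :=
  comm_of_mem ha (Kc_le_Zc c hb)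

theorem Cyc.T0_n (C : Cyc T n J) (x : C.E) (l : C.L) :
    C.T0 (x * (C.lam l * C.π ^ n)) = C.ε * C.Tr (l * C.τ x) := by
  rw [C.πn, ← Algebra.commutes, ← Algebra.smul_def, mul_smul_comm, map_smul, C.T0_apply, C.τ_lam',
    smul_eq_mul]

namespace Child

variable {C : Cyc T n J} {I : Type} [Fintype I] (ch : Child C I) (α : NC I Δ)

theorem aeval_mem (q : F[X]) : ch.ψ (aeval α q) [] ∈ Kc (Lau C.F2) (ch.ψ α []) :=
  mem_Kc.mpr ⟨q.map C.φφ, by rw [ψ_aeval, aeval_nil]⟩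

theorem red_K {k : Δ} (hk : k ∈ Kc F (α [])) : C.ι k ∈ redA (Kc (Lau C.F2) (ch.ψ α [])) := by
  obtain ⟨q, rfl⟩ := mem_Kc.mp hk
  exact ⟨_, ch.aeval_mem α q, ch.ψ_O _, by rw [co_ψ, aeval_nil]⟩

theorem lin_ψ_aeval (q : F[X]) (h : I × Fin ch.N → Lau C.F2) :
    lin (Lau C.F2) (ch.ψ (aeval α q)) h =
      dp (q.map C.φφ) (ch.ψ α []) (lin (Lau C.F2) (ch.ψ α) h) := by
  rw [ψ_aeval, lin_aeval]

theorem tr_lin (hT : IsTr T) (q : F[X]) {t : Lau C.E} (ht : t ∈ Zc (Lau C.F2) (ch.ψ α []))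
    (h : I × Fin ch.N → Lau C.F2) :
    mapF C.T0 (t * lin (Lau C.F2) (ch.ψ (aeval α q)) h) =
      mapF C.T0 (t * ch.ψ (aeval α (derivative q)) [] * ell (Lau C.F2) (ch.ψ α) h) := by
  rw [lin_ψ_aeval, dp_trace _ (C.isTr hT).lau.comm _ (mem_Zc.mp ht), (C.isTr hT).lau.ell _
    (mul_mem ht (Kc_le_Zc _ (ch.aeval_mem α _))), ψ_aeval, aeval_nil, derivative_map]

theorem nz (hT : IsTr T) (h : ch.ψ (ft F α) [] ≠ 0) : WW (Lau C.F2) (ch.ψ α) ≠ ⊥ := by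
  intro hW
  set P := ch.ψ (ft F α) [] with hP
  obtain ⟨m, hm, hm'⟩ := exists_lead h
  have hP1 : P ∈ O C.E 1 := by simpa [ft_nil] using ch.isEv.e1 ch.τO (ft F α)
  have hm1 : 1 ≤ m := not_lt.mp fun hc => hm' (hP1 m hc)
  have hZ : P⁻¹ ∈ Zc (Lau C.F2) (ch.ψ α []) :=
    inv_mem_subalg _ (Kc_le_Zc _ (ch.aeval_mem α _))
  have h1 : mapF C.T0 (P⁻¹ * D P) = 0 := by
    have h0 : ell (Lau C.F2) (ch.ψ α) (ch.par fun i => D (ch.τ i)) = 0 := by
      rw [← Submodule.mem_bot (R := Lau C.F2), ← hW]; exact ⟨_, rfl⟩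
    have h3 := ch.tr_lin α hT (minpoly F (α [])) hZ (ch.par fun i => D (ch.τ i))
    rw [h0, mul_zero, map_zero] at h3
    rw [show D P = _ from ch.D_eq (ft F α)]
    exact h3
  have e : P * (P⁻¹ * D P) = D P := by rw [← mul_assoc, mul_inv_cancel₀ h, one_mul]
  have h2 : P⁻¹ * D P ∈ O C.E 0 := O_of_mul_left hm hm' (by rw [e, add_zero]; exact D_O hm)
  have h3 := congrArg (co · m) e
  simp only [co_lead hm h2 (add_zero m).symm, co_D, zsmul_eq_mul] at h3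
  rw [(Int.cast_commute m _).eq] at h3
  have h4 := congrArg (co · 0) h1
  simp only [co_mapF, mul_left_cancel₀ hm' h3, co_zero] at h4
  rw [← mul_one (m : C.E), ← zsmul_eq_mul, map_zsmul, zsmul_eq_mul] at h4
  exact mul_ne_zero (Int.cast_ne_zero.mpr (by omega)) (C.isTr hT).one h4

theorem co_comm_c {t : Lau C.E} {j : ℤ} (ht : t ∈ Zc (Lau C.F2) (ch.ψ α [])) (hj : t ∈ O C.E j) :
    C.ι (α []) * co t j = co t j * C.ι (α []) := by
  have := congrArg (co · j) (mem_Zc.mp ht)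
  simpa only [co_lead (ch.ψ_O α) hj (zero_add j).symm, co_lead hj (ch.ψ_O α) (add_zero j).symm,
    co_ψ] using this

/-- the diagonal leading term condition -/
structure Lead (w0 : Δ) (a : ℤ) (B : C.E) : Prop where
  hn : 1 < n
  τ2 : ∀ i, ch.τ i ∈ O C.E 2
  hw : w0 ∈ WW F α
  ne : w0 ≠ 0
  hK : WW F α ≤ (Kc F (α [])).toSubmodule
  PO : ch.ψ (ft F α) [] ∈ O C.E a
  P0 : co (ch.ψ (ft F α) []) a = C.ι (pd F (α []) * w0) * C.lam C.θ'
  P1 : co (ch.ψ (ft F α) []) (a + 1) = C.ι (pd F (α [])) * B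

variable {ch α} {w0 : Δ} {a : ℤ} {B : C.E}

theorem Lead.κ_mem (H : ch.Lead α w0 a B) : pd F (α []) * w0 ∈ Kc F (α []) :=
  mul_mem (pd_mem _) (H.hK H.hw)

theorem Lead.κ_ne (H : ch.Lead α w0 a B) : C.ι (pd F (α []) * w0) ≠ 0 :=
  (_root_.map_ne_zero _).mpr (mul_ne_zero (pd_ne _) H.ne)

theorem Lead.comm_θ (H : ch.Lead α w0 a B) {x : C.E} (h1 : C.ι (α []) * x = x * C.ι (α []))
    (h2 : co (ch.ψ (ft F α) []) a * x = x * co (ch.ψ (ft F α) []) a) : x ∈ C.ZZ (α []) := by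
  refine Cyc.mem_ZZ.mpr ⟨h1, mul_left_cancel₀ H.κ_ne ?_⟩
  rwa [H.P0, ← mul_assoc, ← C.comm_ι h1 H.κ_mem, mul_assoc, mul_assoc] at h2

theorem Lead.co_mem (H : ch.Lead α w0 a B) {t : Lau C.E} {j : ℤ}
    (ht : t ∈ Zc (Lau C.F2) (ch.ψ α [])) (hj : t ∈ O C.E j) : co t j ∈ C.ZZ (α []) := by
  refine H.comm_θ (ch.co_comm_c α ht hj) ?_
  have := congrArg (co · (a + j)) (comm_of_mem (ch.aeval_mem α (minpoly F (α []))) ht)
  simpa only [co_lead H.PO hj rfl, co_lead hj H.PO (add_comm a j), ← ft.eq_1] using this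

theorem Lead.red_Z (H : ch.Lead α w0 a B) :
    red (Zc (Lau C.F2) (ch.ψ α [])).toSubmodule ≤ (C.ZZ (α [])).toSubmodule := by
  rintro _ ⟨t, ht, ht', rfl⟩; exact H.co_mem ht ht'

theorem Lead.finrank_Z (H : ch.Lead α w0 a B) (hT : IsTr T) :
    finrank (Lau C.F2) (Zc (Lau C.F2) (ch.ψ α [])) ≤ n * finrank F (Zc F (α [])) :=
  le_trans ((finrank_red _).symm.le.trans (Submodule.finrank_mono H.red_Z)) (C.finrank_ZZ hT _)

theorem Lead.lam_mem (H : ch.Lead α w0 a B) (l : C.L) :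
    C.lam l ∈ redA (Kc (Lau C.F2) (ch.ψ α [])) := by
  have h1 : C.ι (pd F (α []) * w0) * C.lam C.θ' ∈ redA (Kc (Lau C.F2) (ch.ψ α [])) :=
    ⟨mono (-a) (1 : C.F2) • ch.ψ (ft F α) [], Submodule.smul_mem _ _ (ch.aeval_mem α _),
      by simpa using shift_O (F := C.F2) (k := -a) H.PO, by rw [co_shift, ← H.P0]; simp⟩
  have h2 := mul_mem (ch.red_K α (inv_mem_subalg _ H.κ_mem)) h1
  rw [map_inv₀, ← mul_assoc, inv_mul_cancel₀ H.κ_ne, one_mul] at h2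
  have hl : C.lam l ∈ Algebra.adjoin C.F2 {C.lam C.θ'} := by
    rw [← Set.image_singleton, ← AlgHom.map_adjoin, C.prim]
    exact ⟨l, trivial, rfl⟩
  exact Algebra.adjoin_le (Set.singleton_subset_iff.mpr h2) hl

theorem Lead.finrank_K (H : ch.Lead α w0 a B) (hT : IsTr T) :
    n * finrank F (Kc F (α [])) ≤ finrank (Lau C.F2) (Kc (Lau C.F2) (ch.ψ α [])) :=
  (C.lb_one hT (Kc F (α [])).toSubmodule (redA (Kc (Lau C.F2) (ch.ψ α []))).toSubmodule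
    fun l _ hv => Subalgebra.mul_mem _ (H.lam_mem l) (ch.red_K α hv)).trans (finrank_red _).le

theorem Lead.W_ne (H : ch.Lead α w0 a B) (hT : IsTr T) : WW (Lau C.F2) (ch.ψ α) ≠ ⊥ := by
  refine ch.nz α hT fun h => ?_
  have h1 := H.P0
  rw [h, co_zero] at h1
  have h2 : C.θ' = 0 := (_root_.map_eq_zero C.lam).mp ((mul_eq_zero.mp h1.symm).resolve_left H.κ_ne)
  have := Nat.le_of_dvd one_pos (C.θne 1 (by rw [h2, map_zero]))
  have := H.hn
  omega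

/-- annihilator of the variations -/
noncomputable def AA (ch : Child C I) (α : NC I Δ) : Submodule (Lau C.F2) (Lau C.E) :=
  perp (mapF C.T0) (Zc (Lau C.F2) (ch.ψ α [])).toSubmodule (WW (Lau C.F2) (ch.ψ α))

theorem Lead.master0 (H : ch.Lead α w0 a B) (hT : IsTr T) {t : Lau C.E} (ht : t ∈ ch.AA α)
    (ht0 : t ∈ O C.E 0) {y : C.E} (hy : y ∈ C.P0) {w : Δ} (hw : w ∈ WW F α) :
    C.T0 (co t 0 * y * C.ι w) = 0 ∧ C.T0 (co t 1 * y * C.ι w) = 0 ∧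
      C.ι (α []) * co t 1 = co t 1 * C.ι (α []) := by
  obtain ⟨h, rfl⟩ := hw
  have hy' : Lau.C y ∈ C.PP := mono_LP 0 hy
  set A := lin (Lau C.F2) (ch.ψ α) (ch.par (C.dir h (Lau.C y))) with hA
  have hA0 : A ∈ O C.E 0 := ch.lin_O (C.dir_PP h hy') (C.dir_O h (C_O y)) _
  have e := ch.lin_dir h hy' H.τ2 (C_O y) α
  have e0 := e 0 (by norm_num)
  have e1 := e 1 (by norm_num)
  rw [co_sub, sub_eq_zero, co_C_mul, C.ιι_apply, ← hA] at e0 e1
  rw [co_C_zero] at e0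
  rw [co_C_ne _ one_ne_zero, mul_zero] at e1
  have h0 : mapF C.T0 (t * A) = 0 := by
    rw [hA, ← (C.isTr hT).lau.ell _ ht.1]; exact ht.2 _ ⟨_, rfl⟩
  have g0 := congrArg (co · 0) h0
  have g1 := congrArg (co · 1) h0
  simp only [co_mapF, co_lead ht0 hA0 (add_zero 0).symm, co_zero, e0] at g0
  simp only [co_mapF, co_lead1 ht0 hA0 (show (1 : ℤ) = 0 + 0 + 1 by norm_num), co_zero, zero_add,
    e0, e1, mul_zero] at g1
  have c0 := ch.co_comm_c α ht.1 ht0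
  have c1 : C.ι (α []) * co t 1 = co t 1 * C.ι (α []) := by
    have k1 := ch.isEv.e1 H.τ2 α 1 (by norm_num)
    rw [co_sub, sub_eq_zero, C.ιι_apply, co_C_ne _ one_ne_zero] at k1
    have := congrArg (co · 1) ((mem_Zc (F := Lau C.F2)).mp ht.1)
    simpa only [co_lead1 (ch.ψ_O α) ht0 (show (1 : ℤ) = 0 + 0 + 1 by norm_num),
      co_lead1 ht0 (ch.ψ_O α) (show (1 : ℤ) = 0 + 0 + 1 by norm_num), co_ψ, zero_add, k1,
      zero_mul, mul_zero, add_zero] using this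
  have key : ∀ x, C.ι (α []) * x = x * C.ι (α []) → C.T0 (x * (y * C.ι (lin F α h))) = 0 →
      C.T0 (x * y * C.ι (ell F α h)) = 0 := fun x hx h' => by
    rw [C.T0_apply, ell, LinearMap.comp_apply, C.τ_pr hT, mul_assoc, ← C.T0_apply, h']
    rw [← mul_assoc, hx, mul_assoc, ← C.P0_comm hy, mul_assoc]
  exact ⟨key _ c0 g0, key _ c1 g1, c1⟩

theorem Lead.master1 (H : ch.Lead α w0 a B) (hT : IsTr T) {t0 : C.E} (ht : t0 ∈ red (ch.AA α))
    {w : Δ} (hw : w ∈ WW F α) : C.τ (t0 * C.ι w) = 0 := by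
  obtain ⟨t, ht, ht0, rfl⟩ := ht
  refine C.Tr_nd fun l => ?_
  rw [← C.T0_lam, ← mul_assoc, C.comm_lam (Cyc.mem_ZZ.mp (H.co_mem ht.1 ht0)).2]
  exact (H.master0 hT ht ht0 (C.lam_P0 l) hw).1

theorem Lead.master2 (H : ch.Lead α w0 a B) (hT : IsTr T) {t0 : C.E} (ht : t0 ∈ red (ch.AA α))
    {y : C.E} (hy : y ∈ C.P0) {w : Δ} (hw : w ∈ WW F α) :
    C.T0 (C.ι (w0⁻¹ * w) * (t0 * B - B * t0) * y) = 0 := by
  obtain ⟨t, ht, ht0, rfl⟩ := ht
  have c0 := ch.co_comm_c α ht.1 ht0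
  have c1 := (H.master0 hT ht ht0 hy hw).2.2
  have e := congrArg (co · (a + 1)) (comm_of_mem (ch.aeval_mem α (minpoly F (α []))) ht.1)
  simp only [← ft.eq_1, co_lead1 H.PO ht0 (show a + 1 = a + 0 + 1 by ring),
    co_lead1 ht0 H.PO (show a + 1 = 0 + a + 1 by ring), H.P0, H.P1, zero_add] at e
  have e2 : co t 0 * B - B * co t 0 =
      C.ι w0 * (C.lam C.θ' * co t 1 - co t 1 * C.lam C.θ') := by
    apply mul_left_cancel₀ ((_root_.map_ne_zero C.ι).mpr (pd_ne (F := F) (α [])))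
    rw [← mul_assoc (co t 0), ← C.comm_ι c0 (pd_mem _), ← mul_assoc (co t 1),
      ← C.comm_ι c1 H.κ_mem, map_mul] at e
    rw [mul_sub, mul_sub, mul_sub, sub_eq_sub_iff_add_eq_add]
    simp only [mul_assoc] at e ⊢
    exact e.symm
  rw [e2, ← mul_assoc, ← map_mul, mul_assoc w0⁻¹, Kc_comm (H.hK hw) (H.hK H.hw), ← mul_assoc,
    inv_mul_cancel₀ H.ne, one_mul, mul_assoc, (C.isTr hT).comm, sub_mul, sub_mul, map_sub,
    mul_assoc (C.lam _), mul_assoc (C.lam _), (C.isTr hT).comm, mul_assoc _ (C.ι w), ← C.c1,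
    ← mul_assoc, mul_assoc (co t 1), mul_assoc (co t 1) (C.lam _),
    (H.master0 hT ht ht0 (mul_mem hy (C.lam_P0 _)) hw).2.1,
    (H.master0 hT ht ht0 (mul_mem (C.lam_P0 _) hy) hw).2.1, sub_self]

theorem Lead.master3 {ι : Type} [Fintype ι] {b : ι → Δ} {k : ι → ℕ}
    (H : ch.Lead α w0 a (∑ j, C.ι (b j) * C.π ^ k j)) (hT : IsTr T)
    (hk : Function.Injective k) (hk1 : ∀ j, k j < n)
    (hk2 : ∀ j, Nat.Coprime (k j) n) {t0 : C.E} (ht : t0 ∈ red (ch.AA α))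
    {w : Δ} (hw : w ∈ WW F α) (j0 : ι) :
    ∃ u, algebraMap C.F2 C.L u = C.τ (t0 * C.ι (w0⁻¹ * (w * b j0))) := by
  have hZ : t0 ∈ C.ZZ (α []) := H.red_Z (red_mono (U := ch.AA α) (fun _ h => h.1) ht)
  obtain ⟨h1, h2⟩ := Cyc.mem_ZZ.mp hZ
  have hv : w0⁻¹ * w ∈ Kc F (α []) := mul_mem (inv_mem_subalg _ (H.hK H.hw)) (H.hK hw)
  have hx : ∀ j, C.lam C.θ' * (t0 * C.ι (w0⁻¹ * (w * b j))) =
      t0 * C.ι (w0⁻¹ * (w * b j)) * C.lam C.θ' := fun j => by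
    rw [← mul_assoc, h2, mul_assoc, C.c1, mul_assoc]
  refine C.fix_of_coprime (hk2 j0) (sub_eq_zero.mp (C.Tr_nd fun l' => ?_))
  obtain ⟨l, rfl⟩ := (C.σ ^ k j0).surjective l'
  have h := H.master2 hT ht (C.mem_P0 l (n - k j0)) hw
  have e : ∀ j, C.T0 (C.ι (w0⁻¹ * w) * (t0 * (C.ι (b j) * C.π ^ k j) -
      C.ι (b j) * C.π ^ k j * t0) * (C.lam l * C.π ^ (n - k j0))) =
      C.T0 (t0 * C.ι (w0⁻¹ * (w * b j)) * (C.lam ((C.σ ^ k j) l) * C.π ^ (k j + (n - k j0)))) -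
      C.T0 (t0 * C.ι (w0⁻¹ * (w * b j)) * (C.lam l * C.π ^ (k j + (n - k j0)))) := fun j => by
    rw [mul_sub, sub_mul, map_sub, ← mul_assoc w0⁻¹, map_mul C.ι _ (b j)]
    congr 1
    · rw [← mul_assoc _ t0, C.comm_ι h1 hv, pow_add, ← mul_assoc (C.lam _), ← C.pow_lam]
      simp only [mul_assoc]
    · rw [← mul_assoc _ _ t0, mul_assoc _ t0, (C.isTr hT).comm, ← mul_assoc (C.ι _), ← map_mul,
        mul_assoc t0, mul_assoc t0, ← mul_assoc _ (C.ι _), C.P0_comm (C.mem_P0 _ _), add_comm,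
        pow_add]
      simp only [mul_assoc]
  rw [mul_sum, sum_mul, ← sum_sub_distrib, mul_sum, sum_mul, map_sum] at h
  simp only [e] at h
  rw [sum_eq_single j0 (fun j _ hj => ?_) (by simp),
    show k j0 + (n - k j0) = n by have := hk1 j0; omega, C.T0_n, C.T0_n, ← mul_sub,
    mul_eq_zero, or_iff_right C.εne, ← C.Tr_pow (k j0) (l * _), map_mul (C.σ ^ k j0)] at h
  · rw [mul_sub, map_sub, ← neg_eq_zero, neg_sub, h]
  · have hnd : ¬ n ∣ k j + (n - k j0) := fun hd => by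
      have h1 := hk1 j
      have h2 := hk1 j0
      have h3 : k j ≠ k j0 := fun h => hj (hk h)
      obtain ⟨q, hq⟩ := hd
      rcases q with _ | _ | q
      · omega
      · omega
      · have : n * (q + 1 + 1) = n * q + 2 * n := by ring
        omega
    rw [C.off hT (hx j) _ hnd, C.off hT (hx j) _ hnd, sub_self]

theorem Lead.red_Z_eq (H : ch.Lead α w0 a B) (hT : IsTr T)
    (hz : n * finrank F (Zc F (α [])) ≤ finrank (Lau C.F2) (Zc (Lau C.F2) (ch.ψ α []))) :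
    red (Zc (Lau C.F2) (ch.ψ α [])).toSubmodule = (C.ZZ (α [])).toSubmodule :=
  Submodule.eq_of_le_of_finrank_le H.red_Z
    ((C.finrank_ZZ hT _).trans (hz.trans
      (finrank_red (Zc (Lau C.F2) (ch.ψ α [])).toSubmodule).symm.le))

theorem Lead.red_perp (H : ch.Lead α w0 a B) (hT : IsTr T)
    (hz : n * finrank F (Zc F (α [])) ≤ finrank (Lau C.F2) (Zc (Lau C.F2) (ch.ψ α [])))
    {V : Submodule (Lau C.F2) (Lau C.E)} (hV : V ≤ (Zc (Lau C.F2) (ch.ψ α [])).toSubmodule) :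
    red (perp (mapF C.T0) (Zc (Lau C.F2) (ch.ψ α [])).toSubmodule V) =
      perp C.T0 (C.ZZ (α [])).toSubmodule (red V) := by
  refine Submodule.eq_of_le_of_finrank_le ?_ ?_
  · rintro _ ⟨t, ht, ht0, rfl⟩
    refine ⟨H.co_mem ht.1 ht0, ?_⟩
    rintro _ ⟨x, hx, hx0, rfl⟩
    have := congrArg (co · 0) (ht.2 x hx)
    simpa only [co_mapF, co_lead ht0 hx0 (add_zero 0).symm, co_zero] using this
  · have h1 := finrank_perp (C.isTr hT) (C.ZZ (α [])) ((red_mono hV).trans H.red_Z)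
    have h2 := finrank_perp (C.isTr hT).lau _ hV
    have h3 := C.finrank_ZZ hT (α [])
    rw [finrank_red] at h1 ⊢
    omega

theorem Lead.mem_red_W (H : ch.Lead α w0 a B) (hT : IsTr T)
    (hz : n * finrank F (Zc F (α [])) ≤ finrank (Lau C.F2) (Zc (Lau C.F2) (ch.ψ α [])))
    {x : C.E} (hx : x ∈ C.ZZ (α [])) (h : ∀ t0 ∈ red (ch.AA α), C.T0 (x * t0) = 0) :
    x ∈ red (WW (Lau C.F2) (ch.ψ α)) := by
  have e := H.red_perp hT hz (V := ch.AA α) fun _ h => h.1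
  rw [AA, perp_perp (C.isTr hT).lau _ (WW_le (ch.ψ α))] at e
  rw [e]
  exact ⟨hx, h⟩

theorem Lead.lam_W (H : ch.Lead α w0 a B) (hT : IsTr T)
    (hz : n * finrank F (Zc F (α [])) ≤ finrank (Lau C.F2) (Zc (Lau C.F2) (ch.ψ α [])))
    (l : C.L) {w : Δ} (hw : w ∈ WW F α) : C.lam l * C.ι w ∈ red (WW (Lau C.F2) (ch.ψ α)) :=
  H.mem_red_W hT hz (C.lam_ι_mem (WW_le α hw) l) fun t0 ht => by
    rw [mul_assoc, C.T0_lam, C.τ_ι hT, H.master1 hT ht hw, mul_zero, map_zero]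

end Child

end Vale.Agent.P199
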