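import Vale.Agent.P199.Cyc

/-! Scalar extension to a rational function field keeps a division algebra a domain. -/

namespace Vale.Agent.P199

open Finset Module TensorProduct

set_option linter.unusedSectionVars false

variable {F Δ : Type} [Field F] [DivisionRing Δ] [Algebra F Δ] [FiniteDimensional F Δ]

theorem tensor_repr (A : Type) [CommRing A] [Algebra F A] (x : A ⊗[F] Δ) :
    ∃ p : Fin (finrank F Δ) → A, x = ∑ i, p i ⊗ₜ Module.finBasis F Δ i := by
  refine ⟨fun i => (Algebra.TensorProduct.basis A (Module.finBasis F Δ)).repr x i, ?_⟩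
  conv_lhs => rw [← (Algebra.TensorProduct.basis A (Module.finBasis F Δ)).sum_repr x]
  simp [Algebra.TensorProduct.basis_apply, TensorProduct.smul_tmul']

theorem poly_tensor_domain (V : Type) : NoZeroDivisors (MvPolynomial V F ⊗[F] Δ) := by
  let Ψ : MvPolynomial V F ⊗[F] Δ →ₐ[F] AddMonoidAlgebra Δ (V →₀ ℕ) :=
    Algebra.TensorProduct.lift (AddMonoidAlgebra.mapAlgHom (V →₀ ℕ) (Algebra.ofId F Δ))
      AddMonoidAlgebra.singleZeroAlgHom fun p a => by
        refine AddMonoidAlgebra.ext (Finsupp.ext fun m => ?_)
        simp [AddMonoidAlgebra.coeff_mul_single_zero, AddMonoidAlgebra.coeff_single_zero_mul,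
          Algebra.commutes]
  have hΨ : Function.Injective Ψ := by
    rw [injective_iff_map_eq_zero]
    intro x hx
    obtain ⟨p, rfl⟩ := tensor_repr _ x
    have : ∀ i, p i = 0 := fun i => MvPolynomial.ext _ _ fun m => by
      have h := congrArg (fun y => y.coeff m) hx
      have e : ∀ q a, Ψ (q ⊗ₜ a) = AddMonoidAlgebra.mapAlgHom (V →₀ ℕ) (Algebra.ofId F Δ) q *
        AddMonoidAlgebra.single 0 a := fun q a => Algebra.TensorProduct.lift_tmul _ _ _ _ _
      simp only [map_sum, e] at h
      refine Fintype.linearIndependent_iff.mp (Module.finBasis F Δ).linearIndependent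
        (fun i => MvPolynomial.coeff m (p i)) ?_ i
      simpa [Algebra.smul_def, MvPolynomial.coeff, AddMonoidAlgebra.coeff_mul_single_zero] using h
    simp [this]
  exact hΨ.noZeroDivisors Ψ (map_zero _) (map_mul _)

theorem frac_tensor_domain (V : Type) :
    NoZeroDivisors (FractionRing (MvPolynomial V F) ⊗[F] Δ) := by
  have := poly_tensor_domain (F := F) (Δ := Δ) V
  let μ : MvPolynomial V F ⊗[F] Δ →ₐ[F] FractionRing (MvPolynomial V F) ⊗[F] Δ :=
    Algebra.TensorProduct.map (IsScalarTower.toAlgHom F _ _) (AlgHom.id F Δ)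
  have hμ : Function.Injective μ :=
    Module.Flat.rTensor_preserves_injective_linearMap (M := Δ)
      (IsScalarTower.toAlgHom F (MvPolynomial V F) (FractionRing (MvPolynomial V F))).toLinearMap
      (IsFractionRing.injective _ _)
  have key : ∀ x : FractionRing (MvPolynomial V F) ⊗[F] Δ,
      ∃ a : FractionRing (MvPolynomial V F), a ≠ 0 ∧ ∃ x', μ x' = a • x := fun x => by
    obtain ⟨l, rfl⟩ := tensor_repr _ x
    obtain ⟨a, ha⟩ := IsLocalization.exist_integer_multiples_of_finite
      (nonZeroDivisors (MvPolynomial V F)) l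
    choose p hp using ha
    refine ⟨algebraMap _ _ (a : MvPolynomial V F), ?_, ∑ i, p i ⊗ₜ Module.finBasis F Δ i, ?_⟩
    · exact (map_ne_zero_iff _ (IsFractionRing.injective _ _)).mpr (nonZeroDivisors.ne_zero a.2)
    · simp [μ, smul_sum, TensorProduct.smul_tmul', hp, Algebra.smul_def]
  refine ⟨fun {x y} h => ?_⟩
  obtain ⟨a, ha, x', hx⟩ := key x
  obtain ⟨b, hb, y', hy⟩ := key y
  have h0 : x' * y' = 0 := hμ (by
    rw [map_mul, hx, hy, smul_mul_assoc, mul_smul_comm, h, map_zero, smul_zero, smul_zero])
  rcases mul_eq_zero.mp h0 with h1 | h1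
  · rw [h1, map_zero, eq_comm, smul_eq_zero] at hx
    exact Or.inl (hx.resolve_left ha)
  · rw [h1, map_zero, eq_comm, smul_eq_zero] at hy
    exact Or.inr (hy.resolve_left hb)

/-- a field with a cyclic shift of generic elements -/
theorem exists_shift (F Δ : Type) [Field F] [DivisionRing Δ] [Algebra F Δ] [FiniteDimensional F Δ]
    (n : ℕ) (hn : 0 < n) (J : Type) [Fintype J] :
    ∃ (L : Type) (_ : Field L) (_ : Algebra F L) (σ : L ≃ₐ[F] L) (θ : J → L),
      NoZeroDivisors (L ⊗[F] Δ) ∧ σ ^ n = 1 ∧ (∀ k, σ ^ k = 1 → n ∣ k) ∧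
      ∀ a : List J → F, ∑ w ∈ words J n, a w • thp σ θ w = 0 → ∀ w ∈ words J n, a w = 0 := by
  classical
  have : NeZero n := ⟨hn.ne'⟩
  let A := MvPolynomial (Option J × ZMod n) F
  let s : A ≃ₐ[F] A :=
    MvPolynomial.renameEquiv F (Equiv.prodCongr (Equiv.refl _) (Equiv.addRight 1))
  let σ : FractionRing A ≃ₐ[F] FractionRing A := IsFractionRing.algEquivOfAlgEquiv s
  let x : Option J → ZMod n → FractionRing A := fun j i => algebraMap A _ (MvPolynomial.X (j, i))
  have hσ : ∀ j i, σ (x j i) = x j (i + 1) := fun j i => by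
    simp only [σ, x, IsFractionRing.algEquivOfAlgEquiv_algebraMap]
    exact congrArg _ (MvPolynomial.rename_X _ _)
  have hσk : ∀ (k : ℕ) j i, (σ ^ k) (x j i) = x j (i + k) := by
    intro k
    induction k with
    | zero => simp
    | succ k ih =>
      intro j i
      rw [pow_succ', AlgEquiv.mul_apply, ih, hσ, Nat.cast_succ, add_assoc]
  refine ⟨FractionRing A, inferInstance, inferInstance, σ, fun j => x (some j) 0,
    frac_tensor_domain _, ?_, fun k hk => ?_, fun a ha w hw => ?_⟩
  · have : ((σ ^ n : FractionRing A ≃ₐ[F] FractionRing A) : FractionRing A →+* FractionRing A) =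
        RingHom.id _ := by
      refine IsLocalization.ringHom_ext (nonZeroDivisors A) (MvPolynomial.ringHom_ext
        (fun r => ?_) fun v => ?_)
      · exact (σ ^ n).commutes r
      · simpa using hσk n v.1 v.2
    exact AlgEquiv.ext fun y => RingHom.congr_fun this y
  · have := hσk k none 0
    rw [hk, AlgEquiv.one_apply] at this
    have := MvPolynomial.X_injective (IsFractionRing.injective A _ this)
    exact (ZMod.natCast_eq_zero_iff k n).mp (by simpa using (congrArg Prod.snd this).symm)
  · let ex : ℕ → List J → (Option J × ZMod n →₀ ℕ) := fun k w =>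
      List.rec (motive := fun _ => ℕ → (Option J × ZMod n →₀ ℕ)) (fun _ => 0)
        (fun l _ ih k => Finsupp.single (some l, (k : ZMod n)) 1 + ih (k + 1)) w k
    have h1 : ∀ (w : List J) (k : ℕ), (σ ^ k) (thp σ (fun j => x (some j) 0) w) =
        algebraMap A _ (MvPolynomial.monomial (ex k w) 1) := by
      intro w
      induction w with
      | nil => intro k; simp [thp, ex]
      | cons l v ih =>
        intro k
        rw [thp, map_mul, hσk, ← AlgEquiv.mul_apply, ← pow_succ, ih, zero_add]
        simp only [x, ← map_mul, MvPolynomial.X]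
        exact congrArg _ (MvPolynomial.monomial_mul.trans (by rw [one_mul]))
    have h2 : ∀ (w : List J) (k : ℕ) (j : Option J) (i : ZMod n), ex k w (j, i) ≠ 0 →
        ∃ m, k ≤ m ∧ m < k + w.length ∧ i = m := by
      intro w
      induction w with
      | nil => intro k j i h; exact absurd rfl h
      | cons l v ih =>
        intro k j i h
        by_cases h' : (some l, (k : ZMod n)) = (j, i)
        · exact ⟨k, le_rfl, by simp, (congrArg Prod.snd h').symm⟩
        · have : ex k (l :: v) (j, i) = ex (k + 1) v (j, i) := by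
            change (Finsupp.single (some l, (k : ZMod n)) 1 + ex (k + 1) v :
              Option J × ZMod n →₀ ℕ) (j, i) = _
            rw [Finsupp.add_apply, Finsupp.single_eq_of_ne' h', zero_add]
          obtain ⟨m, h1, h2, h3⟩ := ih (k + 1) j i (this ▸ h)
          exact ⟨m, by omega, by simp; omega, h3⟩
    have h3 : ∀ (w w' : List J) (k : ℕ), w.length = w'.length → k + w.length ≤ n →
        ex k w = ex k w' → w = w' := by
      intro w
      induction w with
      | nil => intro w' k h _ _; exact (List.length_eq_zero_iff.mp h.symm).symm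
      | cons l v ih =>
        intro w' k h hk he
        obtain ⟨l', v', rfl⟩ := List.exists_cons_of_length_eq_add_one h.symm
        simp only [List.length_cons] at h hk
        change Finsupp.single (some l, (k : ZMod n)) 1 + ex (k + 1) v =
          Finsupp.single (some l', (k : ZMod n)) 1 + ex (k + 1) v' at he
        have hl : l = l' := by
          by_contra hne
          have := congrArg (fun f => f (some l, (k : ZMod n))) he
          simp only [Finsupp.add_apply, Finsupp.single_eq_same] at this
          rw [Finsupp.single_eq_of_ne (by simpa using hne), zero_add] at this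
          obtain ⟨m, h1, h2, h3⟩ := h2 v' (k + 1) _ _ (by rw [← this]; omega)
          have := (ZMod.natCast_eq_natCast_iff' k m n).mp h3
          rw [Nat.mod_eq_of_lt (by omega), Nat.mod_eq_of_lt (by omega)] at this
          omega
        subst hl
        rw [ih v' (k + 1) (by omega) (by omega) (add_left_cancel he)]
    have h4 : ∑ w ∈ words J n, (MvPolynomial.monomial (ex 0 w) (a w) : A) = 0 := by
      apply IsFractionRing.injective A (FractionRing A)
      rw [map_sum, map_zero, ← ha]
      refine sum_congr rfl fun u _ => ?_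
      have := h1 u 0
      rw [pow_zero, AlgEquiv.one_apply] at this
      rw [this, ← algebraMap_smul A, Algebra.smul_def, ← map_mul]
      simp [A, MvPolynomial.C_mul_monomial]
    have h5 := congrArg (MvPolynomial.coeff (ex 0 w)) h4
    rw [MvPolynomial.coeff_sum, sum_eq_single w (fun u hu hne => ?_) (fun h => absurd hw h)] at h5
    · simpa using h5
    · rw [MvPolynomial.coeff_monomial, if_neg fun h => hne (h3 u w 0
        ((mem_words.mp hu).trans (mem_words.mp hw).symm) (by simp [mem_words.mp hu]) h)]

end Vale.Agent.P199
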