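import Vale.Agent.P199.NC

/-! Evaluation of noncommutative series in filtered rings. -/

namespace Vale.Agent.P199

open Finset NC

set_option linter.unusedSectionVars false

/-- words of length `m` -/
def words (J : Type) [Fintype J] : ℕ → Finset (List J)
  | 0 => {[]}
  | m + 1 => (univ ×ˢ words J m).map ⟨fun p => p.1 :: p.2, fun p q h => by
      simp only [List.cons.injEq] at h
      exact Prod.ext h.1 h.2⟩

theorem mem_words {J : Type} [Fintype J] {m : ℕ} {w : List J} : w ∈ words J m ↔ w.length = m := by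
  induction m generalizing w with
  | zero => simp [words]
  | succ m ih =>
    cases w with
    | nil => simp [words]
    | cons i w =>
      simp only [words, mem_map, mem_product, mem_univ, true_and,
        List.length_cons, Nat.add_right_cancel_iff]
      constructor
      · rintro ⟨p, hp, h⟩
        have h' : p.1 :: p.2 = i :: w := h
        rw [← (List.cons.inj h').2]
        exact ih.mp hp
      · intro h; exact ⟨(i, w), ih.mpr h, rfl⟩

theorem sum_words_succ {J M : Type} [Fintype J] [AddCommMonoid M] (m : ℕ) (F : List J → M) :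
    ∑ w ∈ words J (m + 1), F w = ∑ i, ∑ v ∈ words J m, F (i :: v) := by
  rw [words, sum_map, sum_product]
  rfl

theorem sum_words_rotate {J M : Type} [Fintype J] [AddCommMonoid M] (m k : ℕ) (F : List J → M) :
    ∑ w ∈ words J m, F (w.rotate k) = ∑ w ∈ words J m, F w := by
  classical
  refine Finset.sum_bij (fun w _ => w.rotate k) (fun w hw => ?_) (fun a _ b _ h => ?_)
    (fun b hb => ?_) (fun _ _ => rfl)
  · simpa [mem_words] using hw
  · exact List.rotate_injective k h
  · have := Finset.surj_on_of_inj_on_of_card_le (s := words J m) (t := words J m)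
      (fun w _ => w.rotate k) (fun w hw => by simpa [mem_words] using hw)
      (fun a b _ _ h => List.rotate_injective k h) le_rfl b hb
    obtain ⟨a, ha, h⟩ := this
    exact ⟨a, ha, h.symm⟩

section ev

variable {I Δ A : Type} [Fintype I] [Ring Δ] [Ring A]

/-- `e` is the evaluation at `τ`. -/
structure IsEv (Φ : Filt A) (ι : Δ →+* A) (τ : I → A) (e : NC I Δ → A) : Prop where
  bd : ∀ f, e f ∈ Φ.J 0
  eq : ∀ f, e f = ι (f []) + ∑ i, τ i * e (der i f)

def evN (ι : Δ →+* A) (τ : I → A) : ℕ → NC I Δ → A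
  | 0, _ => 0
  | N + 1, f => ι (f []) + ∑ i, τ i * evN ι τ N (der i f)

theorem exists_ev0 (Φ : Filt A) (ι : Δ →+* A) (τ : I → A) (hι : ∀ a, ι a ∈ Φ.J 0)
    (hτ : ∀ i, τ i ∈ Φ.J 1) : ∃ e, IsEv Φ ι τ e := by
  have h1 : ∀ (N : ℕ) f, evN ι τ (N + 1) f - evN ι τ N f ∈ Φ.J (N + 0) := by
    intro N
    induction N with
    | zero => intro f; simpa [evN] using hι _
    | succ N ih =>
      intro f
      rw [evN, evN, add_sub_add_left_eq_sub, ← sum_sub_distrib]
      refine sum_mem fun i _ => ?_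
      rw [← mul_sub]
      exact Φ.mul' (hτ i) (ih _) (by push_cast; omega)
  choose e he using fun f => Φ.comp 0 (fun N => evN ι τ N f) (fun N => h1 N f)
  refine ⟨e, fun f => by simpa [evN] using he f 0, fun f => ?_⟩
  refine sub_eq_zero.mp (Φ.sep' _ 0 fun N => ?_)
  have e1 : e f - (ι (f []) + ∑ i, τ i * e (der i f)) =
      (e f - evN ι τ (N + 1) f) - ∑ i, τ i * (e (der i f) - evN ι τ N (der i f)) := by
    simp only [evN, mul_sub, sum_sub_distrib]; abel
  rw [e1]
  exact sub_mem (Φ.anti (by push_cast; omega) (he f (N + 1)))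
    (sum_mem fun i _ => Φ.mul' (hτ i) (he _ N) (by omega))

theorem exists_ev (Φ : Filt A) (ι : Δ →+* A) (τ : I → A) (hι : ∀ a, ι a ∈ Φ.J 0)
    (hτ : ∀ i, τ i ∈ Φ.J 1) (hc : ∀ i a, Commute (τ i) (ι a)) :
    ∃ e : NC I Δ →+* A, IsEv Φ ι τ e := by
  obtain ⟨e, he⟩ := exists_ev0 Φ ι τ hι hτ
  have h0 : e 0 = 0 := by
    refine Φ.boot0 (X := Unit) τ hτ (fun _ x => x) (fun _ => e 0) 0 (fun _ => he.bd _)
      (fun _ => ?_) ()
    conv_lhs => rw [he.eq]
    simp [der_zero]
  have hadd : ∀ f g, e (f + g) = e f + e g := by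
    intro f g
    refine sub_eq_zero.mp (Φ.boot0 (X := NC I Δ × NC I Δ) τ hτ
      (fun i x => (der i x.1, der i x.2)) (fun x => e (x.1 + x.2) - (e x.1 + e x.2)) 0
      (fun x => sub_mem (he.bd _) (add_mem (he.bd _) (he.bd _))) (fun x => ?_) (f, g))
    conv_lhs => rw [he.eq, he.eq x.1, he.eq x.2]
    simp only [der_add, NC.add_apply, map_add, mul_sub, mul_add, sum_sub_distrib, sum_add_distrib]
    abel
  have hC : ∀ a g, e (C a * g) = ι a * e g := by
    intro a g
    refine sub_eq_zero.mp (Φ.boot0 τ hτ der (fun g => e (C a * g) - ι a * e g) 0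
      (fun x => sub_mem (he.bd _) (Φ.mul' (hι a) (he.bd _) (by simp))) (fun x => ?_) g)
    conv_lhs => rw [he.eq, he.eq x]
    simp only [der_C_mul, C_mul_apply, map_mul, mul_sub, mul_add, sum_sub_distrib, mul_sum,
      ← mul_assoc, (hc _ a).eq]
    abel
  have hmul : ∀ f g, e (f * g) = e f * e g := by
    intro f g
    refine sub_eq_zero.mp (Φ.boot0 τ hτ der (fun f => e (f * g) - e f * e g) 0
      (fun x => sub_mem (he.bd _) (Φ.mul' (he.bd _) (he.bd _) (by simp))) (fun x => ?_) f)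
    have e1 : ι (x []) * e g = ι (x []) * ι (g []) + ∑ i, τ i * (ι (x []) * e (der i g)) := by
      conv_lhs => rw [he.eq g]
      simp only [mul_add, mul_sum, ← mul_assoc, (hc _ _).eq]
    conv_lhs => rw [he.eq, he.eq x]
    simp only [der_mul', hadd, hC, mul_nil, map_mul, mul_sub, mul_add, add_mul, sum_sub_distrib,
      sum_add_distrib, sum_mul, mul_assoc]
    rw [e1]
    abel
  have h1 : e 1 = 1 := by
    rw [he.eq]
    have : ∀ i : I, der i (1 : NC I Δ) = 0 := fun _ => rfl
    simp [this, h0]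
  exact ⟨⟨⟨⟨e, h1⟩, hmul⟩, h0, hadd⟩, he⟩

variable {Φ : Filt A} {ι : Δ →+* A} {τ τ' : I → A} {e e' : NC I Δ → A}

theorem IsEv.map_C {e : NC I Δ →+* A} (he : IsEv Φ ι τ e) (a : Δ) : e (C a) = ι a := by
  rw [he.eq]; simp [der_C]

theorem IsEv.e1 (he : IsEv Φ ι τ e) {a : ℤ} (hτ : ∀ i, τ i ∈ Φ.J a) (f : NC I Δ) :
    e f - ι (f []) ∈ Φ.J a := by
  rw [he.eq, add_sub_cancel_left]
  exact sum_mem fun i _ => Φ.mul' (hτ i) (he.bd _) (by simp)

theorem IsEv.e1' (he : IsEv Φ ι τ e) {a : ℤ} (hτ : ∀ i, τ i ∈ Φ.J a) (f : NC I Δ) :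
    e f - ι (f []) - ∑ i, τ i * ι (f [i]) ∈ Φ.J (a + a) := by
  rw [he.eq, add_sub_cancel_left, ← sum_sub_distrib]
  refine sum_mem fun i _ => ?_
  rw [← mul_sub]
  exact Φ.mul (hτ i) (he.e1 hτ (der i f))

theorem IsEv.diff (he : IsEv Φ ι τ e) (he' : IsEv Φ ι τ' e') (f : NC I Δ) :
    e' f - e f = ∑ i, (τ' i - τ i) * e' (der i f) + ∑ i, τ i * (e' (der i f) - e (der i f)) := by
  conv_lhs => rw [he.eq, he'.eq]
  simp only [mul_sub, sub_mul, sum_sub_distrib]
  abel

theorem IsEv.e2a (he : IsEv Φ ι τ e) (he' : IsEv Φ ι τ' e') {b : ℤ} (hτ : ∀ i, τ i ∈ Φ.J 1)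
    (hη : ∀ i, τ' i - τ i ∈ Φ.J b) (f : NC I Δ) : e' f - e f ∈ Φ.J b := by
  refine Φ.boot τ hτ der (fun f => e' f - e f) 0 b (fun x => sub_mem (he'.bd _) (he.bd _))
    (fun x => ?_) f
  rw [he.diff he', add_sub_cancel_right]
  exact sum_mem fun i _ => Φ.mul' (hη i) (he'.bd _) (by simp)

theorem IsEv.e2b (he : IsEv Φ ι τ e) (he' : IsEv Φ ι τ' e') {a b : ℤ} (ha : 1 ≤ a)
    (hτ : ∀ i, τ i ∈ Φ.J a) (hτ' : ∀ i, τ' i ∈ Φ.J a)
    (hη : ∀ i, τ' i - τ i ∈ Φ.J b) (f : NC I Δ) :
    e' f - e f - ∑ i, (τ' i - τ i) * ι (f [i]) ∈ Φ.J (a + b) := by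
  rw [he.diff he', add_sub_right_comm, ← sum_sub_distrib]
  refine add_mem (sum_mem fun i _ => ?_) (sum_mem fun i _ => ?_)
  · rw [← mul_sub]
    exact Φ.mul' (hη i) (he'.e1 hτ' (der i f)) (by omega)
  · exact Φ.mul (hτ i) (he.e2a he' (fun i => Φ.anti ha (hτ i)) hη _)

theorem IsEv.e3 (he : IsEv Φ ι τ e) {a : ℤ} (hτ : ∀ i, τ i ∈ Φ.J a) (m : ℕ) (f : NC I Δ)
    (hf : Van m f) :
    e f - ∑ w ∈ words I m, (w.map τ).prod * ι (f w) ∈ Φ.J (a * (m + 1)) := by
  induction m generalizing f with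
  | zero => simpa [words] using he.e1 hτ f
  | succ m ih =>
    rw [he.eq, hf [] (by simp), map_zero, zero_add, sum_words_succ, ← sum_sub_distrib]
    refine sum_mem fun i _ => ?_
    simp only [List.map_cons, List.prod_cons, mul_assoc, ← mul_sum, ← mul_sub]
    exact Φ.mul' (hτ i) (ih _ (hf.der i)) (by push_cast; linarith)

theorem IsEv.mem_closed (he : IsEv Φ ι τ e) (hτ : ∀ i, τ i ∈ Φ.J 1) (M : AddSubgroup A)
    (hM : ∀ y, (∀ N : ℕ, ∃ x ∈ M, y - x ∈ Φ.J N) → y ∈ M) (hτM : ∀ i, ∀ x ∈ M, τ i * x ∈ M)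
    (f : NC I Δ) (hf : ∀ w, ι (f w) ∈ M) : e f ∈ M := by
  refine hM _ fun N => ?_
  induction N generalizing f with
  | zero => exact ⟨0, zero_mem _, by simpa using he.bd f⟩
  | succ N ih =>
    choose x hx hx' using fun i => ih (der i f) (fun w => hf (i :: w))
    refine ⟨ι (f []) + ∑ i, τ i * x i, add_mem (hf _) (sum_mem fun i _ => hτM i _ (hx i)), ?_⟩
    rw [he.eq, add_sub_add_left_eq_sub, ← sum_sub_distrib]
    refine sum_mem fun i _ => ?_
    rw [← mul_sub]
    exact Φ.mul' (hτ i) (hx' i) (by push_cast; omega)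

end ev

section lin

variable (F : Type) {I A : Type} [Fintype I] [CommRing F] [Ring A] [Algebra F A]

/-- linear coefficient in a direction -/
def lin (f : NC I A) : (I → F) →ₗ[F] A := Fintype.linearCombination F fun i => f [i]

/-- quadratic coefficient -/
def quad (f : NC I A) : (I → F) →ₗ[F] (I → F) →ₗ[F] A :=
  Fintype.linearCombination F fun i => lin F (der i f)

variable {F}

theorem lin_apply (f : NC I A) (h : I → F) : lin F f h = ∑ i, h i • f [i] := rfl

theorem quad_apply (f : NC I A) (h h' : I → F) :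
    quad F f h h' = ∑ i, h i • lin F (der i f) h' := by
  simp [quad, Fintype.linearCombination_apply]

theorem lin_add (f g : NC I A) (h : I → F) : lin F (f + g) h = lin F f h + lin F g h := by
  simp [lin_apply, sum_add_distrib]

theorem lin_zero (h : I → F) : lin F (0 : NC I A) h = 0 := by simp [lin_apply]

theorem lin_sum {ι : Type} (s : Finset ι) (f : ι → NC I A) (h : I → F) :
    lin F (∑ j ∈ s, f j) h = ∑ j ∈ s, lin F (f j) h := by
  simp only [lin_apply, NC.sum_apply, smul_sum]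
  exact sum_comm

theorem lin_smul (a : F) (f : NC I A) (h : I → F) : lin F (a • f) h = a • lin F f h := by
  simp only [lin_apply, smul_sum, NC.smul_apply, smul_comm a]

theorem lin_C (a : A) (h : I → F) : lin F (C a : NC I A) h = 0 := by simp [lin_apply]

theorem lin_mul (f g : NC I A) (h : I → F) :
    lin F (f * g) h = lin F f h * g [] + f [] * lin F g h := by
  simp [lin_apply, mul_cons, mul_nil, sum_add_distrib, sum_mul, mul_sum]

theorem quad_add (f g : NC I A) (h h' : I → F) :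
    quad F (f + g) h h' = quad F f h h' + quad F g h h' := by
  simp [quad_apply, der_add, lin_add, sum_add_distrib]

theorem quad_sum {ι : Type} (s : Finset ι) (f : ι → NC I A) (h h' : I → F) :
    quad F (∑ j ∈ s, f j) h h' = ∑ j ∈ s, quad F (f j) h h' := by
  have : ∀ i, der i (∑ j ∈ s, f j) = ∑ j ∈ s, der i (f j) := fun i => by
    ext w; simp only [der_apply, NC.sum_apply]
  simp only [quad_apply, this, lin_sum, smul_sum]
  exact sum_comm

theorem quad_smul (a : F) (f : NC I A) (h h' : I → F) :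
    quad F (a • f) h h' = a • quad F f h h' := by
  simp only [quad_apply, lin_apply, smul_sum, der_apply, NC.smul_apply, smul_comm a]

theorem quad_C (a : A) (h h' : I → F) : quad F (C a : NC I A) h h' = 0 := by
  simp [quad_apply, lin_apply]

theorem quad_mul (f g : NC I A) (h h' : I → F) :
    quad F (f * g) h h' = quad F f h h' * g [] + lin F f h * lin F g h' + f [] * quad F g h h' := by
  simp only [quad_apply, der_mul', lin_add, lin_mul, lin_C, der_apply, C_nil, zero_mul, zero_add,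
    smul_add, sum_add_distrib, sum_mul, mul_sum, smul_mul_assoc, mul_smul_comm]
  rw [lin_apply f h, sum_mul]
  simp only [smul_mul_assoc]

end lin

end Vale.Agent.P199
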