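import Vale.Agent.P199.Pow

/-! Formal families and test specializations. -/

namespace Vale.Agent.P199

open Finset Module Polynomial Lau

set_option linter.unusedSectionVars false

variable {F Δ : Type} [Field F] [CharZero F] [DivisionRing Δ] [Algebra F Δ]
  [FiniteDimensional F Δ] {I J : Type} [Fintype I] [Fintype J]

/-- substitution series with scalar coefficients -/
def famτ (Δ : Type) [DivisionRing Δ] [Algebra F Δ] (t : List J → I → F) (i : I) : NC J Δ :=
  fun w => algebraMap F Δ (t w i)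

/-- substitution of a formal family -/
def IsFam (t : List J → I → F) (e : NC I Δ →+* NC J Δ) : Prop :=
  t [] = 0 ∧ IsEv ((Filt.triv Δ).nc J) NC.C (famτ Δ t) e

theorem famτ_mem {t : List J → I → F} (ht : t [] = 0) (i : I) :
    famτ Δ t i ∈ ((Filt.triv Δ).nc J).J 1 := by
  refine (Filt.mem_nc_triv (m := 1)).mpr fun w hw => ?_
  rw [List.length_eq_zero_iff.mp (by omega : w.length = 0), famτ, ht]; simp

theorem exists_fam (t : List J → I → F) (ht : t [] = 0) : ∃ e : NC I Δ →+* NC J Δ, IsFam t e := by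
  obtain ⟨e, he⟩ := exists_ev ((Filt.triv Δ).nc J) NC.C (famτ Δ t)
    (fun a => (Filt.mem_nc_triv (m := 0)).mpr fun _ h => by simp at h) (famτ_mem ht)
    (fun i a => NC.ext fun w => by rw [NC.C_mul_apply, NC.mul_C_apply, famτ, Algebra.commutes])
  exact ⟨e, ht, he⟩

namespace IsFam

variable {t t' : List J → I → F} {e e' : NC I Δ →+* NC J Δ}

theorem nil (he : IsFam t e) (f : NC I Δ) : e f [] = f [] := by
  rw [he.2.eq]
  simp [NC.sum_apply, NC.mul_nil, famτ, he.1]

theorem one (he : IsFam t e) (f : NC I Δ) (l : J) : e f [l] = lin F f (t [l]) := by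
  rw [he.2.eq]
  simp [NC.sum_apply, NC.mul_cons, NC.mul_nil, famτ, he.1, he.nil, lin_apply, Algebra.smul_def]

theorem two (he : IsFam t e) (f : NC I Δ) (l l' : J) :
    e f [l, l'] = lin F f (t [l, l']) + quad F f (t [l]) (t [l']) := by
  rw [he.2.eq, quad_apply, lin_apply]
  simp [NC.sum_apply, NC.mul_cons, NC.mul_nil, famτ, he.1, he.nil, he.one, Algebra.smul_def,
    sum_add_distrib]

theorem map_algebraMap (he : IsFam t e) (a : F) : e (algebraMap F _ a) = algebraMap F _ a :=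
  he.2.map_C _

theorem map_aeval (he : IsFam t e) (α : NC I Δ) (q : F[X]) : e (aeval α q) = aeval (e α) q := by
  have := map_aeval_eq_aeval_map (φ := RingHom.id F) (ψ := e)
    (RingHom.ext fun a => (he.map_algebraMap a).symm) q α
  rwa [Polynomial.map_id] at this

theorem η_van {r : ℕ} (h : ∀ w : List J, w.length < r → t' w = t w) (i : I) :
    NC.Van r (famτ Δ t' i - famτ Δ t i) := fun w hw => by simp [famτ, h w hw]

theorem van (he : IsFam t e) (he' : IsFam t' e') {r : ℕ}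
    (h : ∀ w : List J, w.length < r → t' w = t w) (f : NC I Δ) : NC.Van r (e' f - e f) :=
  Filt.mem_nc_triv.mp (he.2.e2a he'.2 (famτ_mem he.1) (fun i => Filt.mem_nc_triv.mpr (η_van h i)) f)

theorem lin_diff (he : IsFam t e) (he' : IsFam t' e') {v : List J}
    (h : ∀ w : List J, w.length < v.length → t' w = t w) (f : NC I Δ) :
    e' f v = e f v + lin F f (t' v - t v) := by
  have := he.2.e2b he'.2 le_rfl (famτ_mem he.1) (famτ_mem he'.1)
    (fun i => Filt.mem_nc_triv.mpr (η_van h i)) f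
  rw [add_comm, ← Nat.cast_succ, Filt.mem_nc_triv] at this
  have := this v (by simp)
  rw [NC.sub_apply, NC.sub_apply, sub_eq_zero, sub_eq_iff_eq_add'] at this
  rw [this, NC.sum_apply, lin_apply]
  simp [NC.mul_C_apply, famτ, Algebra.smul_def]

theorem quad_diff (he : IsFam t e) (he' : IsFam t' e') {v v2 : List J} {l l' : J}
    (hv : v ++ [l'] = l :: v2) (h2 : 2 ≤ v.length)
    (h : ∀ w : List J, w.length ≠ v.length → t' w = t w) (f : NC I Δ) :
    e' f (l :: v2) = e f (l :: v2) + quad F f (t' v - t v) (t [l']) +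
      quad F f (t [l]) (t' v2 - t v2) := by
  have hl : v2.length = v.length := by simpa using (congrArg List.length hv).symm
  have h' : ∀ w : List J, w.length < v.length → t' w = t w := fun w hw => h w hw.ne
  have := congrFun (he.2.diff he'.2 f) (l :: v2)
  rw [NC.sub_apply, sub_eq_iff_eq_add'] at this
  rw [this, NC.add_apply, NC.sum_apply, NC.sum_apply, quad_apply, quad_apply, add_assoc]
  congr 2
  · refine sum_congr rfl fun i _ => ?_
    rw [← hv, NC.mul_concat _ _ _ _ (η_van h' i), he'.one, h [l'] (by simp; omega)]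
    simp [famτ, h (v ++ [l']) (by simp), Algebra.smul_def]
  · refine sum_congr rfl fun i _ => ?_
    rw [NC.mul_cons, NC.mul_apply_right _ _ _ (hl ▸ he.van he' h' _), NC.sub_apply,
      he.lin_diff he' (hl ▸ h')]
    simp [famτ, he.1, Algebra.smul_def]

theorem lead_mem (he : IsFam t e) (α : NC I Δ) {w : List J}
    (h : NC.Van w.length (e (ft F α))) : e (ft F α) w ∈ Zc F (α []) := by
  have h1 : ft F α * α = α * ft F α := by
    have := congrArg (aeval α) (mul_comm (minpoly F (α [])) X)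
    rwa [map_mul, map_mul, aeval_X] at this
  have := congrArg (fun x => e x w) h1
  simp only [map_mul, NC.mul_apply_left _ _ _ h, NC.mul_apply_right _ _ _ h, he.nil] at this
  exact mem_Zc.mpr this.symm

end IsFam

variable {T : Δ →ₗ[F] F} {n : ℕ}

theorem prod_mono {A : Type} [Ring A] (a : ℤ) (u : J → A) (w : List J) :
    (w.map fun j => mono a (u j)).prod = mono (a * w.length) (w.map u).prod := by
  induction w with
  | nil => simp [one_eq]
  | cons j w ih =>
    rw [List.map_cons, List.prod_cons, ih, mono_mul, List.map_cons, List.prod_cons,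
      List.length_cons]
    congr 1
    push_cast; ring

theorem Cyc.lead_coeff (C : Cyc T n J) {a : ℤ} {χ : NC J Δ → Lau C.E}
    (hχ : IsEv (filt C.E) C.ιι (fun j => mono a (C.lam (C.θ j) * C.π)) χ) {f : NC J Δ}
    (hf : NC.Van n f) : χ f - mono (a * n)
      (C.ε • ∑ w ∈ words J n, C.lam (thp C.σ C.θ w) * C.ι (f w)) ∈ O C.E (a * (n + 1)) := by
  have h := hχ.e3 (fun j => mono_O a _) n f hf
  rw [smul_sum, mono_sum]
  refine (congrArg (fun x => χ f - x ∈ O C.E (a * (n + 1))) (sum_congr rfl fun w hw => ?_)).mp h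
  rw [prod_mono, C.prod_map, mem_words.mp hw, C.ιι_apply, C_eq, mono_mul, add_zero, C.πn,
    ← Algebra.commutes, ← Algebra.smul_def, smul_mul_assoc]

namespace Child

variable {C : Cyc T n J} {ch : Child C I} {α : NC I Δ}

theorem lead_of {w0 : Δ} {a : ℤ} {B : C.E} (hn : 1 < n) (τ2 : ∀ i, ch.τ i ∈ O C.E 2)
    (hw : w0 ∈ WW F α) (ne : w0 ≠ 0) (hK : WW F α ≤ (Kc F (α [])).toSubmodule)
    (h : ch.ψ (ft F α) [] - (mono a (C.lam C.θ' * C.ι (pd F (α []) * w0)) +
      mono (a + 1) (C.ι (pd F (α [])) * B)) ∈ O C.E (a + 2)) : ch.Lead α w0 a B := by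
  refine ⟨hn, τ2, hw, ne, hK, ?_, ?_, ?_⟩
  · exact (sub_add_cancel (ch.ψ (ft F α) []) _) ▸ add_mem (O_anti (by omega : a ≤ a + 2) h)
      (add_mem (mono_O a _) (O_anti (by omega : a ≤ a + 1) (mono_O _ _)))
  · have := h a (by omega)
    rwa [co_sub, co_add, co_mono_self, co_mono_ne _ (by omega), add_zero, sub_eq_zero,
      C.c1] at this
  · have := h (a + 1) (by omega)
    rwa [co_sub, co_add, co_mono_self, co_mono_ne _ (by omega), zero_add, sub_eq_zero] at this

theorem var (hT : IsTr T) {t0 : C.E} (ht : t0 ∈ red (ch.AA α)) (h : I × Fin ch.N → Lau C.F2)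
    {j : ℤ} (hj : lin (Lau C.F2) (ch.ψ (ft F α)) h ∈ O C.E j) :
    C.T0 (t0 * C.ι (pd F (α []))⁻¹ * co (lin (Lau C.F2) (ch.ψ (ft F α)) h) j) = 0 := by
  obtain ⟨t, ht, ht0, rfl⟩ := ht
  set Q := ch.ψ (aeval α (derivative (minpoly F (α [])))) [] with hQ
  have hQ0 : co Q 0 = C.ι (pd F (α [])) := by rw [hQ, co_ψ, aeval_nil]; rfl
  have hne : co Q 0 ≠ 0 := hQ0 ▸ (_root_.map_ne_zero _).mpr (pd_ne _)
  have hQne : Q ≠ 0 := fun h => hne (by rw [h, co_zero])
  have e : t * Q⁻¹ * Q = t := inv_mul_cancel_right₀ hQne t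
  have hQO : Q ∈ O C.E 0 := ch.ψ_O _
  have h1 : t * Q⁻¹ ∈ O C.E 0 := O_of_mul_right hQO hne (by rwa [e, add_zero])
  have h2 : co (t * Q⁻¹) 0 = co t 0 * C.ι (pd F (α []))⁻¹ := by
    have := congrArg (co · 0) e
    simp only [co_lead h1 hQO (add_zero 0).symm] at this
    rw [← this, map_inv₀, ← hQ0, mul_inv_cancel_right₀ hne]
  have h3 := ch.tr_lin α hT (minpoly F (α []))
    (Subalgebra.mul_mem _ ht.1 (inv_mem_subalg _ (Kc_le_Zc _ (ch.aeval_mem α _))) :
      t * Q⁻¹ ∈ _) h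
  rw [← hQ, e, ht.2 _ ⟨_, rfl⟩] at h3
  have h4 := congrArg (co · j) h3
  simp only [co_mapF, ← ft.eq_1, co_lead h1 hj (zero_add j).symm, h2, co_zero] at h4
  exact h4

theorem par_sub (ch : Child C I) (δ δ' : I → Lau C.E) :
    ch.par (fun i => δ i - δ' i) = ch.par δ - ch.par δ' := by
  funext v; simp [par]

end Child

theorem exists_xchild (C : Cyc T n J) (hn : 1 < n) (α : NC I Δ) {w0 : Δ}
    (hw : w0 ∈ WW F α) (ne : w0 ≠ 0) (hK : WW F α ≤ (Kc F (α [])).toSubmodule)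
    {ι : Type} [Fintype ι] {b : ι → Δ} (hb : ∀ j, b j ∈ WW F α) (k : ι → ℕ) :
    ∃ ch : Child C I, ch.Lead α w0 2 (∑ j, C.ι (b j) * C.π ^ k j) := by
  obtain ⟨h0, hh0⟩ := hw
  choose h hh using hb
  have hO : ∀ i, C.dir h0 (mono 2 (C.lam C.θ')) i + ∑ j, C.dir (h j) (mono 3 (C.π ^ k j)) i ∈
      O C.E 2 := fun i => add_mem (C.dir_O _ (mono_O _ _) i)
        (sum_mem fun j _ => C.dir_O _ (O_anti (by norm_num) (mono_O _ _)) i)
  obtain ⟨ch, hch⟩ := exists_child C _ (fun i => O_anti (by norm_num) (hO i)) fun i =>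
    add_mem (C.dir_PP _ (mono_LP _ (C.lam_P0 _)) i)
      (sum_mem fun j _ => C.dir_PP _ (mono_LP _ (C.pow_P0 _)) i)
  have τ2 : ∀ i, ch.τ i ∈ O C.E 2 := hch ▸ hO
  refine ⟨ch, Child.lead_of hn τ2 ⟨h0, hh0⟩ ne hK ?_⟩
  have h1 := ch.isEv.e1' τ2 (ft F α)
  rw [ft_nil, map_zero, sub_zero, hch] at h1
  simp only [add_mul, sum_add_distrib, sum_mul] at h1
  rw [sum_comm] at h1
  simp only [C.sum_dir, lin_ft, hh0, hh] at h1
  simp only [C.ιι_apply, C_eq, mono_mul, add_zero] at h1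
  rw [mul_sum, mono_sum]
  simpa only [C.pow_ι, ← mul_assoc, ← map_mul, show (2 : ℤ) + 1 = 3 by norm_num, filt_J] using h1

theorem exists_ychild (hT : IsTr T) (C : Cyc T n J) (hn : 1 < n) (α : NC I Δ) {w0 b : Δ}
    (hw : w0 ∈ WW F α) (ne : w0 ≠ 0) (hK : WW F α ≤ (Kc F (α [])).toSubmodule)
    (hb : b ∈ WW F α) {t : List J → I → F} {e : NC I Δ →+* NC J Δ} (he : IsFam t e)
    (hv : NC.Van n (e (ft F α))) : ∃ (ch : Child C I) (a : ℤ), ch.Lead α w0 a (C.ι b * C.π) ∧
      ∀ t0 ∈ red (ch.AA α), ∑ w ∈ words J n,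
        C.T0 (t0 * (C.lam (thp C.σ C.θ w) * C.ι ((pd F (α []))⁻¹ * e (ft F α) w))) = 0 := by
  obtain ⟨h0, hh0⟩ := hw
  obtain ⟨h1, hh1⟩ := hb
  have hU : ∀ j, mono 3 (C.lam (C.θ j) * C.π) ∈ C.PP := fun j =>
    mono_LP _ (by simpa using C.mem_P0 (C.θ j) 1)
  have hU1 : ∀ j, mono 3 (C.lam (C.θ j) * C.π) ∈ O C.E 1 := fun j =>
    O_anti (by norm_num) (mono_O _ _)
  obtain ⟨χ, hχ⟩ := exists_ev (filt C.E) C.ιι (fun j => mono 3 (C.lam (C.θ j) * C.π)) C.ιι_O hU1
    fun j a => C.PP_comm (hU j) a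
  have hτ0 : ∀ i, χ (famτ Δ t i) ∈ O C.E 3 := fun i => by
    simpa [famτ, he.1] using hχ.e1 (fun j => mono_O 3 _) (famτ Δ t i)
  have hτP : ∀ i, χ (famτ Δ t i) ∈ C.PP := fun i =>
    hχ.mem_closed hU1 C.PP.toAddSubgroup (closed_LP _) (fun j x hx => mul_LP (hU j) hx) _
      fun w => mono_LP 0 (by rw [famτ, C.ιφ]; exact Subalgebra.algebraMap_mem _ _)
  have hev : IsEv (filt C.E) C.ιι (fun i => χ (famτ Δ t i)) fun f => χ (e f) :=
    ⟨fun f => hχ.bd _, fun f => by
      conv_lhs => rw [he.2.eq]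
      simp only [map_add, map_sum, map_mul, hχ.map_C]⟩
  set a : ℤ := 3 * n - 2 with ha
  let η : I → Lau C.E := fun i =>
    C.dir h0 (mono a (C.lam C.θ')) i + C.dir h1 (mono (a + 1) C.π) i
  have hηO : ∀ i, η i ∈ O C.E a := fun i => add_mem (C.dir_O _ (mono_O _ _) i)
    (C.dir_O _ (O_anti (by omega) (mono_O _ _)) i)
  have hηP : ∀ i, η i ∈ C.PP := fun i => add_mem (C.dir_PP _ (mono_LP _ (C.lam_P0 _)) i)
    (C.dir_PP _ (mono_LP _ (by simpa using C.pow_P0 1)) i)
  have hO : ∀ i, χ (famτ Δ t i) + η i ∈ O C.E 3 := fun i =>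
    add_mem (hτ0 i) (O_anti (by omega) (hηO i))
  obtain ⟨ch, hch⟩ := exists_child C _ (fun i => O_anti (by norm_num) (hO i)) fun i =>
    add_mem (hτP i) (hηP i)
  have τ3 : ∀ i, ch.τ i ∈ O C.E 3 := hch ▸ hO
  have hτη : ∀ i, ch.τ i - χ (famτ Δ t i) = η i := fun i => by rw [hch, add_sub_cancel_left]
  set Lp := ∑ i, η i * C.ιι (ft F α [i]) with hLp
  have hLp' : Lp = mono a (C.lam C.θ' * C.ι (pd F (α []) * w0)) +
      mono (a + 1) (C.ι (pd F (α [])) * (C.ι b * C.π)) := by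
    simp only [hLp, η, add_mul, sum_add_distrib, C.sum_dir, lin_ft, hh0, hh1]
    simp only [C.ιι_apply, C_eq, mono_mul, add_zero, C.c2]
    rw [map_mul C.ι _ b, mul_assoc]
  set H0 := C.ε • ∑ w ∈ words J n, C.lam (thp C.σ C.θ w) * C.ι (e (ft F α) w) with hH0
  have k1 := hev.e2b ch.isEv (by norm_num) hτ0 τ3 (fun i => hτη i ▸ hηO i) (ft F α)
  simp only [hτη, ← hLp, filt_J] at k1
  have k2 := C.lead_coeff hχ hv
  rw [← hH0] at k2
  have k3 : ch.ψ (ft F α) [] - Lp - mono (3 * n) H0 ∈ O C.E (3 * n + 1) := by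
    have := add_mem (O_anti (by omega : 3 * (n : ℤ) + 1 ≤ _) k1) (O_anti (by omega) k2)
    rwa [show ∀ x y z u : Lau C.E, x - y - z + (y - u) = x - z - u from fun _ _ _ _ => by abel]
      at this
  refine ⟨ch, a, Child.lead_of hn (fun i => O_anti (by norm_num) (τ3 i)) ⟨h0, hh0⟩ ne hK ?_,
    fun t0 ht => ?_⟩
  · have := add_mem (O_anti (by omega : a + 2 ≤ _) k3) (O_anti (by omega) (mono_O (3 * n) H0))
    rw [sub_add_cancel (ch.ψ (ft F α) [] - Lp)] at this
    rwa [← hLp']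
  · have k4 := ch.lin_approx (fun i => D_LP (hηP i)) τ3 (fun i => D_O (hηO i)) (ft F α)
    have k5 : ∑ i, D (η i) * C.ιι (ft F α [i]) = D Lp := by
      simp only [hLp, map_sum, D_mul, C.ιι_apply, D_C, mul_zero, add_zero]
    set Y := lin (Lau C.F2) (ch.ψ (ft F α)) (ch.par fun i => D (ch.τ i) - D (η i)) with hY
    have k6 : Y - D (mono (3 * n) H0) ∈ O C.E (3 * n + 1) := by
      have := sub_mem (D_O k3) (O_anti (by omega : 3 * (n : ℤ) + 1 ≤ _) k4)
      rw [hY, ch.par_sub, map_sub, ← ch.D_eq]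
      rwa [k5, map_sub, map_sub, show ∀ x y z u : Lau C.E, x - y - z - (u - y) = x - u - z from
        fun _ _ _ _ => by abel] at this
    have k7 : Y ∈ O C.E (3 * n) := by
      have := add_mem (O_anti (by omega : 3 * (n : ℤ) ≤ _) k6) (D_O (mono_O (3 * n) H0))
      rwa [sub_add_cancel] at this
    have k8 := k6 (3 * n) (by omega)
    rw [co_sub, sub_eq_zero, co_D, co_mono_self] at k8
    have k9 := Child.var hT ht _ k7
    rw [← hY, k8, mul_smul_comm, map_zsmul, hH0, mul_smul_comm, map_smul, zsmul_eq_mul,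
      smul_eq_mul, mul_eq_zero, mul_eq_zero, or_iff_right (Int.cast_ne_zero.mpr (by omega)),
      or_iff_right C.εne, mul_sum, map_sum] at k9
    refine Eq.trans (sum_congr rfl fun w _ => ?_) k9
    rw [map_mul C.ι, ← mul_assoc (C.lam _), C.c1]
    simp only [mul_assoc]

end Vale.Agent.P199
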