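import Vale.Agent.P199.Step

/-! The limit construction. -/

namespace Vale.Agent.P199

open Finset Module Polynomial Filter

theorem right_inv_of_integral {F R : Type} [Field F] [Ring R] [IsDomain R] [Algebra F R] {x : R}
    (hx : IsIntegral F x) (h0 : x ≠ 0) : ∃ q : F[X], x * aeval x q = 1 := by
  have hfd : FiniteDimensional F (Algebra.adjoin F {x}) := Algebra.finite_adjoin_simple_of_isIntegral hx
  let y : Algebra.adjoin F {x} := ⟨x, Algebra.subset_adjoin rfl⟩
  have hy : y ≠ 0 := fun h => h0 (congrArg Subtype.val h)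
  obtain ⟨z, hz⟩ := LinearMap.surjective_of_injective (f := LinearMap.mulLeft F y)
    (fun a b h => mul_left_cancel₀ hy h) 1
  obtain ⟨q, hq⟩ : z.1 ∈ (aeval x : F[X] →ₐ[F] R).range :=
    Algebra.adjoin_singleton_eq_range_aeval F x ▸ z.2
  exact ⟨q, by rw [show aeval x q = z.1 from hq]; exact congrArg Subtype.val hz⟩

/-- the variables -/
abbrev Var : Type := ℕ × Bool × ℕ
/-- the base ring -/
abbrev A0 : Type := MvPolynomial Var ℤ
/-- the free algebra -/
abbrev FA : Type := FreeAlgebra A0 (Fin 2)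

instance : Countable A0 := by
  rw [← Cardinal.mk_le_aleph0_iff]
  refine MvPolynomial.cardinalMk_le_max.trans ?_
  simp only [sup_le_iff, le_refl, and_true, Cardinal.mk_le_aleph0_iff]
  exact ⟨inferInstance, inferInstance⟩

instance : Countable FA := by
  rw [← Cardinal.mk_le_aleph0_iff]
  refine (FreeAlgebra.cardinalMk_le_max A0 (Fin 2)).trans ?_
  simp only [sup_le_iff, le_refl, and_true, Cardinal.mk_le_aleph0_iff]
  exact ⟨inferInstance, inferInstance⟩

/-- a stage of the construction -/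
structure Stage extends Pre where
  chi : Chi F g 1
  v : Var → F

namespace Stage

variable (S : Stage)

noncomputable def ev0 : A0 →+* NC S.I S.Δ :=
  (algebraMap S.F _).comp (MvPolynomial.eval₂Hom (Int.castRingHom S.F) S.v)

/-- the algebra structure -/
@[reducible] noncomputable def alg : Algebra A0 (NC S.I S.Δ) :=
  S.ev0.toAlgebra' fun c x =>
    Algebra.commutes (MvPolynomial.eval₂Hom (Int.castRingHom S.F) S.v c) x

noncomputable def ev : FA →+* NC S.I S.Δ :=
  letI := S.alg
  (FreeAlgebra.lift A0 S.g).toRingHom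

theorem ev_ι (κ : Fin 2) : S.ev (FreeAlgebra.ι A0 κ) = S.g κ :=
  letI := S.alg
  FreeAlgebra.lift_ι_apply S.g κ

theorem ev_alg (c : A0) : S.ev (algebraMap A0 FA c) = S.ev0 c :=
  letI := S.alg
  (FreeAlgebra.lift A0 S.g).commutes c

theorem ev_X (x : Var) : S.ev (algebraMap A0 FA (MvPolynomial.X x)) = algebraMap S.F _ (S.v x) := by
  rw [ev_alg, ev0, RingHom.comp_apply, MvPolynomial.eval₂Hom_X']

theorem ev_mem (a : FA) : S.ev a ∈ Algebra.adjoin S.F (Set.range S.g) := by
  induction a using FreeAlgebra.induction with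
  | grade0 c => rw [ev_alg]; exact Subalgebra.algebraMap_mem _ _
  | grade1 κ => rw [ev_ι]; exact Algebra.subset_adjoin ⟨κ, rfl⟩
  | mul a b ha hb => rw [map_mul]; exact mul_mem ha hb
  | add a b ha hb => rw [map_add]; exact add_mem ha hb

/-- one step of the construction -/
def Next (r : ℕ) (a : FA) (S' : Stage) (ψ : NC S.I S.Δ →+* NC S'.I S'.Δ) : Prop :=
  (∀ κ, ψ (S.g κ) = S'.g κ) ∧
  (∀ x : Var, x.1 ≠ r → ψ (algebraMap S.F _ (S.v x)) = algebraMap S'.F _ (S'.v x)) ∧
  (∃ e, ψ (S.ev a) ^ e +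
    ∑ j ∈ range e, algebraMap S'.F _ (S'.v (r, true, j)) * ψ (S.ev a) ^ j = 0) ∧
  (ψ (S.ev a) = 0 ∨ ∃ e, ψ (S.ev a) *
    ∑ j ∈ range e, algebraMap S'.F _ (S'.v (r, false, j)) * ψ (S.ev a) ^ j = 1)

theorem exists_next (r : ℕ) (a : FA) : ∃ S' ψ, S.Next r a S' ψ := by
  obtain ⟨S', ⟨φ, ψ, h1, h2, h3⟩, hχ, hint⟩ :=
    Setting.step { S.toPre with α := S.ev a, hα := S.ev_mem a } S.chi
  obtain ⟨q, hq⟩ : ∃ q : S'.F[X], S'.α = 0 ∨ S'.α * aeval S'.α q = 1 := by
    by_cases h0 : S'.α = 0
    · exact ⟨0, Or.inl h0⟩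
    · exact (right_inv_of_integral hint h0).imp fun _ h => Or.inr h
  obtain ⟨p, hp, hp'⟩ := hint
  have h3' : ψ (S.ev a) = S'.α := h3
  refine ⟨{ S'.toPre with
      chi := hχ
      v := fun x => if x.1 = r then (if x.2.1 then p else q).coeff x.2.2 else φ (S.v x) }, ψ, h2,
    fun x hx => (h1 _).trans (by simp only [if_neg hx]), ⟨p.natDegree, ?_⟩,
    hq.imp h3'.trans fun h => ⟨q.natDegree + 1, ?_⟩⟩
  · rw [eval₂_eq_sum_range, sum_range_succ, hp.coeff_natDegree, map_one, one_mul, add_comm] at hp'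
    rw [h3']
    simpa using hp'
  · rw [aeval_def, eval₂_eq_sum_range] at h
    rw [h3']
    simpa using h

/-- the initial stage -/
noncomputable def init : Stage where
  F := ℚ
  Δ := ℚ
  I := Fin 2
  T := LinearMap.id
  hT := ⟨fun x y => by rw [mul_comm], one_ne_zero⟩
  g := fun κ => lift1 0 (Pi.single κ 1)
  chi := by
    have : LinearMap.range (Phi ℚ (fun κ : Fin 2 => (lift1 0 (Pi.single κ 1) : NC (Fin 2) ℚ))) = ⊤ := by
      refine LinearMap.range_eq_top.mpr fun h => ⟨h, funext fun κ => ?_⟩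
      fin_cases κ <;> simp [Phi, lin, lift1, Fintype.linearCombination_apply]
    rw [Chi, this, top_sup_eq]
    simp
  v := fun _ => 0

end Stage

/-- an enumeration in which each element appears infinitely often -/
noncomputable def enum (r : ℕ) : FA := (exists_surjective_nat FA).choose (Nat.unpair r).1

theorem exists_enum (a : FA) (r0 : ℕ) : ∃ r, r0 ≤ r ∧ enum r = a := by
  obtain ⟨k, hk⟩ := (exists_surjective_nat FA).choose_spec a
  exact ⟨Nat.pair k r0, Nat.right_le_pair _ _, by rw [enum, Nat.unpair_pair, hk]⟩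

/-- the sequence of stages -/
noncomputable def St : ℕ → Stage
  | 0 => Stage.init
  | r + 1 => ((St r).exists_next r (enum r)).choose

/-- the transition maps -/
noncomputable def tr (r : ℕ) : NC (St r).I (St r).Δ →+* NC (St (r + 1)).I (St (r + 1)).Δ :=
  ((St r).exists_next r (enum r)).choose_spec.choose

theorem tr_next (r : ℕ) : (St r).Next r (enum r) (St (r + 1)) (tr r) :=
  ((St r).exists_next r (enum r)).choose_spec.choose_spec

/-- elements that are stable from a given stage on -/
noncomputable def stab (r0 : ℕ) : Subring FA :=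
  ⨅ r, ⨅ _ : r0 ≤ r, RingHom.eqLocus (St (r + 1)).ev ((tr r).comp (St r).ev)

theorem mem_stab {r0 : ℕ} {a : FA} :
    a ∈ stab r0 ↔ ∀ r, r0 ≤ r → (St (r + 1)).ev a = tr r ((St r).ev a) := by
  simp [stab, Subring.mem_iInf]

theorem stab_mono {r0 r1 : ℕ} (h : r0 ≤ r1) : stab r0 ≤ stab r1 := fun _ ha =>
  mem_stab.mpr fun r hr => mem_stab.mp ha r (h.trans hr)

theorem X_stab (x : Var) : algebraMap A0 FA (MvPolynomial.X x) ∈ stab (x.1 + 1) :=
  mem_stab.mpr fun r hr => by
    rw [Stage.ev_X, Stage.ev_X, (tr_next r).2.1 x (by omega)]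

theorem exists_stab (a : FA) : ∃ r0, a ∈ stab r0 := by
  have hmul : ∀ a b : FA, (∃ r, a ∈ stab r) → (∃ r, b ∈ stab r) →
      (∃ r, a * b ∈ stab r) ∧ ∃ r, a + b ∈ stab r := fun a b ⟨r, ha⟩ ⟨s, hb⟩ =>
    ⟨⟨max r s, mul_mem (stab_mono (le_max_left _ _) ha) (stab_mono (le_max_right _ _) hb)⟩,
      ⟨max r s, add_mem (stab_mono (le_max_left _ _) ha) (stab_mono (le_max_right _ _) hb)⟩⟩
  induction a using FreeAlgebra.induction with
  | grade0 c =>
    induction c using MvPolynomial.induction_on with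
    | C k => exact ⟨0, by rw [eq_intCast, map_intCast]; exact intCast_mem _ k⟩
    | add p q hp hq => rw [map_add]; exact (hmul _ _ hp hq).2
    | mul_X p x hp => rw [map_mul]; exact (hmul _ _ hp ⟨_, X_stab x⟩).1
  | grade1 κ => exact ⟨0, mem_stab.mpr fun r _ => by rw [Stage.ev_ι, Stage.ev_ι, (tr_next r).1]⟩
  | mul a b ha hb => exact (hmul _ _ ha hb).1
  | add a b ha hb => exact (hmul _ _ ha hb).2

/-- eventual equality -/
def con : RingCon FA where
  r a b := ∀ᶠ r in atTop, (St r).ev a = (St r).ev b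
  iseqv := ⟨fun _ => Eventually.of_forall fun _ => rfl, fun h => h.mono fun _ => Eq.symm,
    fun h h' => (h.and h').mono fun _ h => h.1.trans h.2⟩
  mul' h h' := (h.and h').mono fun _ h => by rw [map_mul, map_mul, h.1, h.2]
  add' h h' := (h.and h').mono fun _ h => by rw [map_add, map_add, h.1, h.2]

theorem con_of {r0 : ℕ} {a b : FA} (ha : a ∈ stab r0) (hb : b ∈ stab r0)
    (h : (St r0).ev a = (St r0).ev b) : con a b := by
  refine eventually_atTop.mpr ⟨r0, fun r hr => ?_⟩
  induction r, hr using Nat.le_induction with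
  | base => exact h
  | succ r hr ih => rw [mem_stab.mp ha r hr, mem_stab.mp hb r hr, ih]

/-- the division ring -/
abbrev DD : Type := con.Quotient

/-- the projection -/
noncomputable def mkD : FA →ₐ[A0] DD := con.mkₐ A0

theorem mkD_surj : Function.Surjective mkD := con.mkₐ_surjective

theorem mkD_eq {a b : FA} : mkD a = mkD b ↔ ∀ᶠ r in atTop, (St r).ev a = (St r).ev b := con.eq

instance : Nontrivial DD := ⟨⟨mkD 0, mkD 1, fun h => by
  obtain ⟨r, hr⟩ := (mkD_eq.mp h).exists
  rw [map_zero, map_one] at hr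
  exact zero_ne_one hr⟩⟩

theorem key (x : DD) : IsIntegral A0 x ∧ (x = 0 ∨ ∃ y, x * y = 1) := by
  obtain ⟨a, rfl⟩ := mkD_surj x
  obtain ⟨r0, h0⟩ := exists_stab a
  obtain ⟨r, hr, rfl⟩ := exists_enum a r0
  obtain ⟨-, -, ⟨e, h1⟩, h2⟩ := tr_next r
  rw [← mem_stab.mp h0 r hr] at h1 h2
  have ha := stab_mono (hr.trans r.le_succ) h0
  have hs : ∀ b e, ∑ j ∈ range e, algebraMap A0 FA (MvPolynomial.X (r, b, j)) * enum r ^ j ∈
      stab (r + 1) := fun b e => sum_mem fun j _ => mul_mem (X_stab (r, b, j)) (pow_mem ha j)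
  constructor
  · have := con.eq.mpr (con_of (add_mem (pow_mem ha e) (hs true e)) (zero_mem _) (by
      simp only [map_add, map_pow, map_sum, map_mul, Stage.ev_X, map_zero]; exact h1))
    replace this : mkD _ = mkD 0 := this
    refine ⟨X ^ e + ∑ j ∈ range e, C (MvPolynomial.X (r, true, j)) * X ^ j,
      monic_X_pow_add (by rw [Finset.sum_range]; exact degree_sum_fin_lt _), ?_⟩
    rw [← aeval_def]
    simpa using this
  · refine h2.imp (fun h => ?_) fun ⟨e, h⟩ => ?_
    · exact (map_zero mkD) ▸ con.eq.mpr (con_of ha (zero_mem _) (by rw [map_zero]; exact h))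
    · have := con.eq.mpr (con_of (mul_mem ha (hs false e)) (one_mem _) (by
        simp only [map_pow, map_sum, map_mul, Stage.ev_X, map_one]; exact h))
      replace this : mkD _ = mkD 1 := this
      rw [map_mul, map_one] at this
      exact ⟨_, this⟩

theorem isUnit_or (x : DD) : IsUnit x ∨ x = 0 := by
  refine (key x).2.symm.imp_left fun ⟨y, hy⟩ => ?_
  obtain ⟨z, hz⟩ := (key y).2.resolve_left fun h => by simp [h] at hy
  have : x = z := by rw [← mul_one x, ← hz, ← mul_assoc, hy, one_mul]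
  exact ⟨⟨x, y, hy, this ▸ hz⟩, rfl⟩

theorem adjoin_top : Algebra.adjoin A0 {mkD (FreeAlgebra.ι A0 0), mkD (FreeAlgebra.ι A0 1)} = ⊤ := by
  refine top_unique fun x _ => ?_
  obtain ⟨a, rfl⟩ := mkD_surj x
  induction a using FreeAlgebra.induction with
  | grade0 c => rw [AlgHom.commutes]; exact Subalgebra.algebraMap_mem _ _
  | grade1 κ => exact Algebra.subset_adjoin (by fin_cases κ <;> simp)
  | mul a b ha hb => rw [map_mul]; exact mul_mem (ha trivial) (hb trivial)
  | add a b ha hb => rw [map_add]; exact add_mem (ha trivial) (hb trivial)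

theorem not_finite : ¬ Module.Finite A0 DD := by
  intro hf
  obtain ⟨m, s, hs⟩ := Module.Finite.exists_fin (R := A0) (M := DD)
  choose d hd using fun i => mkD_surj (s i)
  have h1 : ∀ a : FA, ∃ c : Fin m → A0,
      ∀ᶠ r in atTop, (St r).ev a = (St r).ev (∑ i, algebraMap A0 FA (c i) * d i) := fun a => by
    obtain ⟨c, hc⟩ := (Submodule.mem_span_range_iff_exists_fun A0).mp
      (hs ▸ Submodule.mem_top : mkD a ∈ Submodule.span A0 (Set.range s))
    refine ⟨c, mkD_eq.mp ?_⟩
    rw [← hc, map_sum]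
    exact sum_congr rfl fun i _ => by rw [map_mul, AlgHom.commutes, hd, Algebra.smul_def]
  choose c hc using h1
  obtain ⟨r, hr1, hr2⟩ := ((hc 1).and (eventually_all.mpr fun p : Fin 2 × Fin m =>
    hc (FreeAlgebra.ι A0 p.1 * d p.2))).exists
  set S := St r
  let M := Submodule.span S.F (Set.range fun i => S.ev (d i))
  have hM : ∀ c : Fin m → A0, S.ev (∑ i, algebraMap A0 FA (c i) * d i) ∈ M := fun c => by
    rw [map_sum]
    refine sum_mem fun i _ => ?_
    rw [map_mul, Stage.ev_alg, Stage.ev0, RingHom.comp_apply, ← Algebra.smul_def]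
    exact M.smul_mem _ (Submodule.subset_span ⟨i, rfl⟩)
  have h2 : ∀ x ∈ Algebra.adjoin S.F (Set.range S.g), ∀ y ∈ M, x * y ∈ M := fun x hx => by
    induction hx using Algebra.adjoin_induction with
    | mem x hx =>
      obtain ⟨κ, rfl⟩ := hx
      intro y hy
      induction hy using Submodule.span_induction with
      | mem y hy =>
        obtain ⟨i, rfl⟩ := hy
        have := hr2 (κ, i)
        rw [map_mul, Stage.ev_ι] at this
        exact this ▸ hM _
      | zero => rw [mul_zero]; exact zero_mem _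
      | add a b _ _ ha hb => rw [mul_add]; exact add_mem ha hb
      | smul a b _ hb => rw [mul_smul_comm]; exact M.smul_mem _ hb
    | algebraMap a => exact fun y hy => by rw [← Algebra.smul_def]; exact M.smul_mem _ hy
    | add a b _ _ ha hb => exact fun y hy => by rw [add_mul]; exact add_mem (ha y hy) (hb y hy)
    | mul a b _ _ ha hb => exact fun y hy => by rw [mul_assoc]; exact ha _ (hb y hy)
  have h3 : (Algebra.adjoin S.F (Set.range S.g)).toSubmodule ≤ M := fun x hx => by
    have := h2 x hx _ (hr1 ▸ hM _ : S.ev 1 ∈ M)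
    rwa [map_one, mul_one] at this
  have : FiniteDimensional S.F M := FiniteDimensional.span_of_finite _ (Set.finite_range _)
  exact not_finite_of_chi S.chi (Submodule.finiteDimensional_of_le h3)

theorem tower_adjoin {A Z D : Type} [CommRing A] [CommRing Z] [Ring D] [Algebra A D]
    [Algebra A Z] [Algebra Z D] [IsScalarTower A Z D] {x y : D}
    (hgen : Algebra.adjoin A {x, y} = ⊤) (a : D) : a ∈ Algebra.adjoin Z {x, y} := by
  have ha : a ∈ Algebra.adjoin A {x, y} := by rw [hgen]; exact Algebra.mem_top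
  have h2 : Algebra.adjoin A {x, y} ≤ (Algebra.adjoin Z {x, y}).restrictScalars A :=
    Algebra.adjoin_le fun z hz => (Subalgebra.mem_restrictScalars A).mpr (Algebra.subset_adjoin hz)
  exact (Subalgebra.mem_restrictScalars A).mp (h2 ha)

theorem tower_finite {A Z D : Type} [CommRing A] [CommRing Z] [Ring D] [Algebra A D]
    [Algebra A Z] [Algebra Z D] [IsScalarTower A Z D] (hinj : Function.Injective (algebraMap Z D))
    (hint : ∀ a : D, IsIntegral A a) {x y : D} (hgen : Algebra.adjoin A {x, y} = ⊤)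
    (hf : Module.Finite Z D) : Module.Finite A D := by
  classical
  obtain ⟨B, hB, hB'⟩ := exists_subalgebra_of_fg A Z D
    ⟨{x, y}, by rw [coe_pair, hgen]⟩ hf.fg_top
  have h1 : Algebra.IsIntegral A B := ⟨fun z =>
    (isIntegral_algHom_iff ((IsScalarTower.toAlgHom A Z D).comp B.val)
      (hinj.comp Subtype.val_injective)).mp (hint _)⟩
  have h2 : Algebra.FiniteType A B := ⟨(Subalgebra.fg_top B).mpr hB⟩
  have h3 : Module.Finite A B := Algebra.IsIntegral.finite
  have h4 : Module.Finite B D := ⟨hB'⟩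
  exact Module.Finite.trans B D

theorem kurosh_of {A D : Type} [CommRing A] [Ring D] [Nontrivial D] [Algebra A D]
    (hint : ∀ a : D, IsIntegral A a) {x y : D} (hgen : Algebra.adjoin A {x, y} = ⊤)
    (hinf : ¬ Module.Finite A D) :
    Algebra.IsAlgebraic (Subring.center D) D ∧
      (∀ a, a ∈ Algebra.adjoin (Subring.center D) {x, y}) ∧
      ¬ Module.Finite (Subring.center D) D := by
  let _ : Algebra A (Subring.center D) := ((algebraMap A D).codRestrict (Subring.center D)
    fun a => Subring.mem_center_iff.mpr fun b => (Algebra.commutes a b).symm).toAlgebra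
  have : IsScalarTower A (Subring.center D) D := IsScalarTower.of_algebraMap_eq fun _ => rfl
  exact ⟨⟨fun a => (hint a).tower_top.isAlgebraic⟩, tower_adjoin hgen,
    fun hf => hinf (tower_finite Subtype.val_injective hint hgen hf)⟩

theorem kurosh_ring {D : Type} [inst : Ring D] [Nontrivial D] (h : ∀ a : D, IsUnit a ∨ a = 0)
    {x y : D} (H : Algebra.IsAlgebraic (Subring.center D) D ∧
      (∀ a, a ∈ Algebra.adjoin (Subring.center D) {x, y}) ∧
      ¬ Module.Finite (Subring.center D) D) :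
    ∃ (D : Type) (_ : DivisionRing D), Algebra.IsAlgebraic (Subring.center D) D ∧
    ∃ x y : D, (∀ a, a ∈ Algebra.adjoin (Subring.center D) {x, y}) ∧
      ¬ Module.Finite (Subring.center D) D := by
  obtain ⟨inst', rfl⟩ : ∃ inst' : DivisionRing D, inst'.toRing = inst :=
    ⟨DivisionRing.ofIsUnitOrEqZero h, rfl⟩
  exact ⟨D, inst', H.1, x, y, H.2⟩

theorem main : ∃ (D : Type) (_ : DivisionRing D), Algebra.IsAlgebraic (Subring.center D) D ∧
    ∃ x y : D, (∀ a, a ∈ Algebra.adjoin (Subring.center D) {x, y}) ∧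
      ¬ Module.Finite (Subring.center D) D :=
  kurosh_ring isUnit_or (kurosh_of (fun a => (key a).1) adjoin_top not_finite)

end Vale.Agent.P199
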