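import Vale.Agent.P199.Test

/-! Large rank of the quadratic obstruction. -/

namespace Vale.Agent.P199

open Finset Module Polynomial Lau

set_option linter.unusedSectionVars false

variable {F Δ : Type} [Field F] [CharZero F] [DivisionRing Δ] [Algebra F Δ]
  [FiniteDimensional F Δ] {I J : Type} [Fintype I] [Fintype J] {T : Δ →ₗ[F] F} {n : ℕ}

/-- quadratic obstruction -/
noncomputable def bet (F : Type) [Field F] [Algebra F Δ] (α : NC I Δ) :
    (I → F) →ₗ[F] (I → F) →ₗ[F] Δ :=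
  (quad F (ft F α)).compr₂ (LinearMap.mulLeft F (pd F (α []))⁻¹)

theorem bet_apply (α : NC I Δ) (h h' : I → F) :
    bet F α h h' = (pd F (α []))⁻¹ * quad F (ft F α) h h' := rfl

/-- large rank property -/
def LRP (T : Δ →ₗ[F] F) (α : NC I Δ) (w0 : Δ) (n : ℕ) : Prop :=
  ∀ t ∈ Zc F (α []), (∃ v ∈ V0 (WW F α) w0, T (t * v) ≠ 0) →
    ∀ U1 ≤ LinearMap.ker (ell F α), ∀ U2 ≤ LinearMap.ker (ell F α),
      (∀ h ∈ U1, ∀ h' ∈ U2, T (t * bet F α h h') = 0) →
        n * n + finrank F U1 + finrank F U2 ≤ 2 * finrank F (I → F) + n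

namespace Child

variable {C : Cyc T n J} {ch : Child C I} {α : NC I Δ} {w0 : Δ} {a : ℤ} {B : C.E}

/-- parameters of commutator variations -/
noncomputable def Θ (ch : Child C I) (h : I → F) :
    Lau C.E →ₗ[Lau C.F2] I × Fin ch.N → Lau C.F2 :=
  LinearMap.pi fun v => LinearMap.proj v.2 ∘ₗ ch.sec ∘ₗ
    (C.φφ (h v.1) • ad (Lau C.F2) (Lau.C (C.lam C.θ')))

theorem Θ_apply (h : I → F) (x : Lau C.E) :
    ch.Θ h x = ch.par (C.dir h (ad (Lau C.F2) (Lau.C (C.lam C.θ')) x)) := rfl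

theorem Lead.lr (H : ch.Lead α w0 a B) (hT : IsTr T)
    (hz : n * finrank F (Zc F (α [])) ≤ finrank (Lau C.F2) (Zc (Lau C.F2) (ch.ψ α [])))
    (hg : dz (WW F α) ≤ finrank F (WW F α ^ 2 : Submodule F Δ))
    (hd : dz (WW (Lau C.F2) (ch.ψ α)) ≤ n * dz (WW F α)) :
    ∃ w1 ∈ WW (Lau C.F2) (ch.ψ α), w1 ≠ 0 ∧
      ((∀ h ∈ LinearMap.ker (ell (Lau C.F2) (ch.ψ α)), ∀ h' ∈ LinearMap.ker (ell (Lau C.F2) (ch.ψ α)),
        bet (Lau C.F2) (ch.ψ α) h h' ∈ V0 (WW (Lau C.F2) (ch.ψ α)) w1) →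
      LRP (mapF C.T0) (ch.ψ α) w1 n) := by
  obtain ⟨w1, hw1, hw1O, hw10⟩ := H.lam_W hT hz 1 H.hw
  rw [map_one, one_mul] at hw10
  have hne : w1 ≠ 0 := fun h => (_root_.map_ne_zero C.ι).mpr H.ne (by rw [← hw10, h, co_zero])
  refine ⟨w1, hw1, hne, fun hβ t ht ⟨v, hv, hv'⟩ U1 hU1 U2 hU2 h0 => ?_⟩
  set W' := WW (Lau C.F2) (ch.ψ α) with hW'
  set Z' := Zc (Lau C.F2) (ch.ψ α []) with hZ'
  have hWZ : W' ≤ Z'.toSubmodule := WW_le _
  have hWW : W' * W' ≤ Z'.toSubmodule := by rw [← pow_two]; exact pow_le_K hWZ 2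
  have h1 : t * w1⁻¹ ∉ perp (mapF C.T0) Z'.toSubmodule (W' * W') := fun h => hv' (by
    have := h.2 _ ((mem_V0 hne).mp hv)
    rwa [mul_assoc, inv_mul_cancel_left₀ hne] at this)
  obtain ⟨c, -, s, hs, hxO, hx⟩ := exists_red_notMem h1
  set x := c • (t * w1⁻¹) + s with hxdef
  have hxZ : x ∈ Z' := add_mem (Z'.smul_mem (mul_mem ht (inv_mem_subalg _ (hWZ hw1))) c) hs.1
  rw [H.red_perp hT hz hWW] at hx
  have h2 : ∃ w ∈ WW F α, ∃ w' ∈ WW F α, C.τ (co x 0 * C.ι (w * w')) ≠ 0 := by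
    by_contra hc
    push Not at hc
    refine hx ⟨H.co_mem hxZ hxO, fun y hy => ?_⟩
    let M := Submodule.span C.F2 {y | ∃ l, ∃ v ∈ WW F α ^ 2, y = C.lam l * C.ι v}
    have hM : M = red (W' * W') := by
      refine Submodule.eq_of_le_of_finrank_le (Submodule.span_le.mpr ?_) ?_
      · rintro _ ⟨l, v, hv, rfl⟩
        rw [← pow_two]; exact H.pow_red hT hz 1 hv l
      · have := C.lb_one hT (WW F α ^ 2) M fun l v hv => Submodule.subset_span ⟨l, v, hv, rfl⟩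
        rw [finrank_red, ← pow_two]
        exact (le_dz W' 1).trans (hd.trans ((Nat.mul_le_mul_left n hg).trans this))
    rw [← hM] at hy
    refine LinearMap.eqOn_span (f := C.T0 ∘ₗ LinearMap.mulLeft _ (co x 0)) (g := 0) ?_ hy
    rintro _ ⟨l, v, hv, rfl⟩
    have : WW F α * WW F α ≤ C.kerτ (co x 0) := Submodule.mul_le.mpr hc
    have h3 : C.τ (co x 0 * C.ι v) = 0 := this (by rwa [← pow_two])
    simp only [LinearMap.comp_apply, LinearMap.mulLeft_apply, LinearMap.zero_apply]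
    rw [← mul_assoc, ← C.comm_lam (Cyc.mem_ZZ.mp (H.co_mem hxZ hxO)).2, mul_assoc, C.T0_lam, h3,
      mul_zero, map_zero]
  obtain ⟨_, ⟨h, rfl⟩, _, ⟨h', rfl⟩, hu⟩ := h2
  have hθ : Lau.C (C.lam C.θ') ∈ C.PP := mono_LP 0 (C.lam_P0 _)
  have key : ∀ x1 ∈ red (C.PP ⊓ U1.comap (ch.Θ h)),
      ∀ y1 ∈ (red (C.PP ⊓ U2.comap (ch.Θ h'))).map (ad C.F2 (C.lam C.θ')),
      C.T0 (co x 0 * C.ι (ell F α h * ell F α h') * x1 * y1) = 0 := by
    rintro _ ⟨x1, hx1, hx1O, rfl⟩ _ ⟨_, ⟨y1, hy1, hy1O, rfl⟩, rfl⟩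
    have := H.lr_core hT (t := x * w1) hz (mul_mem hxZ (hWZ hw1)) (O_mul' hxO hw1O (by simp)) h h'
      (y := ad (Lau C.F2) (Lau.C (C.lam C.θ')) y1) hx1.1 hx1O
      (sub_mem (mul_LP hy1.1 hθ) (mul_LP hθ hy1.1))
      (sub_mem (O_mul' hy1O (C_O _) (by simp)) (O_mul' (C_O _) hy1O (by simp)))
      (hU1 hx1.2) (hU2 hy1.2) (by
        have e1 := h0 _ hx1.2 _ hy1.2
        have e2 := hs.2 _ ((mem_V0 hne).mp (hβ _ (hU1 hx1.2) _ (hU2 hy1.2)))
        rw [← Θ_apply, ← Θ_apply, ← bet_apply, hxdef, add_mul, add_mul, map_add, mul_assoc s, e2,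
          smul_mul_assoc, smul_mul_assoc, map_smul, inv_mul_cancel_right₀ hne, e1, smul_zero,
          add_zero])
    rw [co_lead hxO hw1O (add_zero 0).symm, hw10, ad_apply, co_sub, co_mul_C, co_C_mul,
      mul_assoc (co x 0), ← map_mul, ← mul_assoc w0, Kc_comm (H.hK H.hw) (H.hK ⟨h, rfl⟩),
      mul_assoc _ w0, mul_inv_cancel_left₀ H.ne] at this
    exact this
  have hP : ∀ U : Submodule (Lau C.F2) (Lau C.E), red (C.PP ⊓ U) ≤ C.P0.toSubmodule :=
    fun U => (red_mono inf_le_left).trans (red_LP _).le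
  have d1 := pair_le (((LinearMap.mul C.F2 C.E).compr₂ C.T0) ∘ₗ
      LinearMap.mulLeft C.F2 (co x 0 * C.ι (ell F α h * ell F α h')))
    (red (C.PP ⊓ U1.comap (ch.Θ h))) (V := C.P0.toSubmodule)
    (W := (red (C.PP ⊓ U2.comap (ch.Θ h'))).map (ad C.F2 (C.lam C.θ')))
    (by
      rintro _ ⟨y, hy, rfl⟩
      exact sub_mem (C.P0.mul_mem (hP _ hy) (C.lam_P0 _)) (C.P0.mul_mem (C.lam_P0 _) (hP _ hy)))
    (fun y hy hy' => by
      by_contra hy0
      refine hu (C.Tr_nd fun l => ?_)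
      have := hy' _ (C.P0.mul_mem (inv_mem_subalg _ (hP _ hy)) (C.lam_P0 l))
      simp only [LinearMap.comp_apply, LinearMap.mulLeft_apply, LinearMap.compr₂_apply,
        LinearMap.mul_apply'] at this
      rwa [mul_assoc, mul_inv_cancel_left₀ hy0, C.T0_apply, C.τ_lam'] at this)
    key
  have d2 := rank_null (ad C.F2 (C.lam C.θ')) (red (C.PP ⊓ U2.comap (ch.Θ h')))
  have d3 := C.finrank_diag hT (red (C.PP ⊓ U2.comap (ch.Θ h')) ⊓
    LinearMap.ker (ad C.F2 (C.lam C.θ'))) fun y hy => ⟨hP _ hy.1, (sub_eq_zero.mp hy.2).symm⟩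
  have d4 := finrank_comap_ge (ch.Θ h) C.PP U1
  have d5 := finrank_comap_ge (ch.Θ h') C.PP U2
  have d6 := C.finrank_P0 hT
  have d7 : finrank (Lau C.F2) C.PP = _ := finrank_LP C.P0.toSubmodule
  rw [finrank_red] at d1 d2
  omega

end Child

/-- conclusion of the test specializations -/
def YT (F : Type) [Field F] [Algebra F Δ] (α : NC I Δ) (w0 : Δ) : Prop :=
  ∀ (g : ℕ) (t : List (Fin g) → I → F) (e : NC I Δ →+* NC (Fin g) Δ), IsFam t e →
    ∀ w : List (Fin g), 2 ≤ w.length → NC.Van w.length (e (ft F α)) →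
      (pd F (α []))⁻¹ * e (ft F α) w ∈ V0 (WW F α) w0 ∧
      ∑ k ∈ range w.length, (pd F (α []))⁻¹ * e (ft F α) (w.rotate k) ∈ WW F α

/-- linear family -/
def linFam {J : Type} (v : J → I → F) : List J → I → F
  | [l] => v l
  | _ => 0

theorem linFam_van {α : NC I Δ} {v : J → I → F} (hv : ∀ l, v l ∈ LinearMap.ker (ell F α))
    {e : NC I Δ →+* NC J Δ} (he : IsFam (linFam v) e) : NC.Van 2 (e (ft F α)) := by
  intro w hw
  match w with
  | [] => rw [he.nil, ft_nil]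
  | [l] => rw [he.one, lin_ft, show ell F α (linFam v [l]) = 0 from hv l, mul_zero]
  | _ :: _ :: _ => simp at hw

theorem linFam_two {α : NC I Δ} {v : J → I → F}
    {e : NC I Δ →+* NC J Δ} (he : IsFam (linFam v) e) (l l' : J) :
    (pd F (α []))⁻¹ * e (ft F α) [l, l'] = bet F α (v l) (v l') := by
  rw [he.two, show linFam v [l, l'] = 0 from rfl, map_zero, zero_add]; rfl

theorem YT.bet_mem {α : NC I Δ} {w0 : Δ} (hY : YT F α w0) {h h' : I → F}
    (hh : h ∈ LinearMap.ker (ell F α)) (hh' : h' ∈ LinearMap.ker (ell F α)) :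
    bet F α h h' ∈ V0 (WW F α) w0 ∧ bet F α h h' + bet F α h' h ∈ WW F α := by
  obtain ⟨e, he⟩ := exists_fam (Δ := Δ) (linFam ![h, h']) rfl
  have := hY 2 _ e he [0, 1] le_rfl (linFam_van (by simpa using ⟨hh, hh'⟩) he)
  simpa [sum_range_succ, linFam_two he] using this

theorem exists_nd (hT : IsTr T) {α : NC I Δ} {w0 : Δ} (hw : w0 ∈ WW F α) (h0 : w0 ≠ 0)
    (hK : WW F α ≤ (Kc F (α [])).toSubmodule) (hY : YT F α w0) (hL : LRP T α w0 n)
    {g : Fin 2 → NC I Δ} (hχ : Chi F g (n * n)) {κ G : ℕ}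
    (hκ : finrank F (V0 (WW F α) w0) = finrank F (WW F α) + κ)
    (hn1 : 2 * finrank F (WW F α) + 2 * (G * κ) + κ + n ≤ n * n)
    (hn2 : G + finrank F (WW F α) + G * κ ≤ n * n) (r : ℕ) (hr : r ≤ G) :
    ∃ (v : Fin r → I → F) (N : Submodule F (I → F)), N ≤ LinearMap.ker (ell F α) ∧
      (∀ i, v i ∈ LinearMap.ker (ell F α)) ∧ (∀ i j, bet F α (v i) (v j) ∈ WW F α) ∧
      (∀ i, ∀ s ∈ N, bet F α (v i) s ∈ WW F α) ∧
      finrank F (I → F) ≤ finrank F N + finrank F (WW F α) + r * κ ∧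
      (∀ a : Fin r → Δ, (∀ i, a i ∈ V0 (WW F α) w0) → ∃ s ∈ LinearMap.ker (ell F α),
        ∀ i, bet F α (v i) s - a i ∈ WW F α) ∧
      finrank F (Inn F g ⊔ Submodule.span F (Set.range fun i => Phi F g (v i)) :
        Submodule F (Fin 2 → Δ)) = finrank F (Inn F g) + r := by
  induction r with
  | zero =>
    refine ⟨fun i => i.elim0, LinearMap.ker (ell F α), le_rfl, fun i => i.elim0, fun i => i.elim0,
      fun i => i.elim0, ?_, fun _ _ => ⟨0, zero_mem _, fun i => i.elim0⟩,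
      by rw [Set.range_eq_empty, Submodule.span_empty, sup_bot_eq, add_zero]⟩
    have := LinearMap.finrank_range_add_finrank_ker (ell F α)
    rw [WW]; omega
  | succ r ih =>
    obtain ⟨v, N, hN, hv, hiso, hNv, hd, hsurj, hrank⟩ := ih (by omega)
    set W := WW F α with hW
    let β := (bet F α).compr₂ W.mkQ
    have hβ : ∀ u ∈ N, ∀ s ∈ N, β u s ∈ (V0 W w0).map W.mkQ := fun u hu s hs =>
      ⟨_, (hY.bet_mem (hN hu) (hN hs)).1, rfl⟩
    have hQ := finrank_map_mkQ (le_V0 hw h0)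
    have hrκ : r * κ + κ ≤ G * κ := by rw [← Nat.succ_mul]; exact Nat.mul_le_mul_right _ hr
    have h1 : ∃ u ∈ N, N.map (β u) = (V0 W w0).map W.mkQ := by
      refine (rank_lemma β N N _ hβ).resolve_right ?_
      rintro ⟨ξ, ⟨_, ⟨q, hq, rfl⟩, hq'⟩, N0, hN0, hlt, h⟩
      obtain ⟨t, ht⟩ := hT.exists_dual (ξ ∘ₗ W.mkQ)
      have e : ∀ z ∈ V0 W w0, T (pr F (α []) t * z) = ξ (W.mkQ z) := fun z hz => by
        rw [hT.comm, hT.pr_eq (Kc_le_Zc _ (V0_le hK hw hz)), hT.comm, ← ht]; rfl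
      have := hL _ (pr_mem _ t) ⟨q, hq, by rwa [e q hq]⟩ N hN N0 (hN0.trans hN) fun u hu s hs => by
        rw [e _ (hY.bet_mem (hN hu) (hN (hN0 hs))).1]; exact h u hu s hs
      omega
    set M := Inn F g ⊔ Submodule.span F (Set.range fun i => Phi F g (v i)) with hM
    have h2 : ¬ N ≤ M.comap (Phi F g) := fun h => by
      obtain ⟨Y, -, hY1, hY2⟩ := exists_compl_le (le_top : N ≤ ⊤)
      have h3 : LinearMap.range (Phi F g) ⊔ Inn F g ≤ M ⊔ Y.map (Phi F g) := by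
        refine sup_le ?_ (le_sup_left.trans le_sup_left)
        rw [LinearMap.range_eq_map, ← hY1, Submodule.map_sup]
        exact sup_le_sup_right (Submodule.map_le_iff_le_comap.mpr h) _
      have h4 := (Submodule.finrank_mono h3).trans
        (Submodule.finrank_add_le_finrank_add_finrank _ _)
      have h5 := Submodule.finrank_map_le (Phi F g) Y
      have h6 : finrank F (Inn F g) ≤ finrank F Δ := LinearMap.finrank_range_le _
      rw [finrank_top] at hY2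
      rw [Chi] at hχ
      omega
    obtain ⟨u, hu, huM, hu'⟩ := rank_avoid β N N _ hβ h1 _ h2
    have hq : ∀ x, W.mkQ x = 0 ↔ x ∈ W := fun x => Submodule.Quotient.mk_eq_zero W
    refine ⟨Fin.cons u v, N ⊓ LinearMap.ker (β u), inf_le_left.trans hN,
      Fin.forall_fin_succ.mpr ⟨hN hu, hv⟩, ?_, ?_, ?_, fun a ha => ?_, ?_⟩
    · simp only [Fin.forall_fin_succ, Fin.cons_zero, Fin.cons_succ]
      refine ⟨⟨?_, fun j => ?_⟩, fun i => ⟨hNv i u hu, hiso i⟩⟩
      · have := W.smul_mem (2 : F)⁻¹ (hY.bet_mem (hN hu) (hN hu)).2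
        rwa [← two_smul F, smul_smul, inv_mul_cancel₀ two_ne_zero, one_smul] at this
      · simpa using sub_mem (hY.bet_mem (hN hu) (hv j)).2 (hNv j u hu)
    · simp only [Fin.forall_fin_succ, Fin.cons_zero, Fin.cons_succ]
      exact ⟨fun s hs => (hq _).mp hs.2, fun i s hs => hNv i s hs.1⟩
    · have := rank_null (β u) N
      rw [hu'] at this
      rw [Nat.succ_mul]
      omega
    · obtain ⟨s, hs, hs'⟩ := hsurj (fun i => a i.succ) fun i => ha _
      obtain ⟨s', hs2, hs3⟩ : W.mkQ (a 0 - bet F α u s) ∈ N.map (β u) :=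
        hu' ▸ ⟨_, sub_mem (ha 0) (hY.bet_mem (hN hu) hs).1, rfl⟩
      refine ⟨s + s', add_mem hs (hN hs2), ?_⟩
      simp only [Fin.forall_fin_succ, Fin.cons_zero, Fin.cons_succ, map_add]
      refine ⟨(hq _).mp ?_, fun i => ?_⟩
      · rw [map_sub, map_add, show W.mkQ (bet F α u s') = _ from hs3, map_sub]; abel
      · rw [add_sub_right_comm]; exact add_mem (hs' i) (hNv i s' hs2)
    · have e : (fun i => Phi F g ((Fin.cons u v : Fin (r + 1) → I → F) i)) =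
          Fin.cons (Phi F g u) fun i => Phi F g (v i) := by
        funext i; refine Fin.cases ?_ (fun i => ?_) i <;> rfl
      rw [e, Fin.range_cons, Submodule.span_insert, sup_comm (Submodule.span F _), ← sup_assoc,
        Submodule.finrank_sup_span_singleton (show Phi F g u ∉ M from huM), hrank, add_assoc]

end Vale.Agent.P199
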