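import Vale.Agent.P199.Alg

/-! Laurent series over a ring. -/

namespace Vale.Agent.P199

open Finset Module

set_option linter.unusedSectionVars false

/-- Laurent series -/
def Lau (A : Type) [Zero A] : Type := HahnSeries ℤ A

namespace Lau

variable {A B : Type} [Ring A] [Ring B]

noncomputable instance instRing : Ring (Lau A) := inferInstanceAs (Ring (HahnSeries ℤ A))
noncomputable instance instCommRing {R : Type} [CommRing R] : CommRing (Lau R) :=
  { (instRing : Ring (Lau R)) with
    mul_comm := fun x y => (mul_comm (G := HahnSeries ℤ R) x y) }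

/-- coefficients -/
def co (x : Lau A) (k : ℤ) : A := HahnSeries.coeff (x : HahnSeries ℤ A) k

@[ext] theorem ext {x y : Lau A} (h : ∀ k, co x k = co y k) : x = y := HahnSeries.ext (funext h)

@[simp] theorem co_add (x y : Lau A) (k : ℤ) : co (x + y) k = co x k + co y k :=
  HahnSeries.coeff_add
@[simp] theorem co_zero (k : ℤ) : co (0 : Lau A) k = 0 := rfl

/-- coefficient as an additive map -/
def coA (k : ℤ) : Lau A →+ A := ⟨⟨fun x => co x k, co_zero k⟩, fun x y => co_add x y k⟩

@[simp] theorem co_neg (x : Lau A) (k : ℤ) : co (-x) k = - co x k := map_neg (coA k) x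
@[simp] theorem co_sub (x y : Lau A) (k : ℤ) : co (x - y) k = co x k - co y k :=
  map_sub (coA k) x y
theorem co_sum {ι : Type} (s : Finset ι) (f : ι → Lau A) (k : ℤ) :
    co (∑ i ∈ s, f i) k = ∑ i ∈ s, co (f i) k := map_sum (coA k) f s

/-- series vanishing below `j` -/
def O (A : Type) [Ring A] (j : ℤ) : AddSubgroup (Lau A) where
  carrier := {x | ∀ k < j, co x k = 0}
  add_mem' ha hb k hk := by rw [co_add, ha k hk, hb k hk, add_zero]
  zero_mem' _ _ := rfl
  neg_mem' ha k hk := by rw [co_neg, ha k hk, neg_zero]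

theorem mem_O {j : ℤ} {x : Lau A} : x ∈ O A j ↔ ∀ k < j, co x k = 0 := Iff.rfl

theorem O_anti {j k : ℤ} {x : Lau A} (h : j ≤ k) (hx : x ∈ O A k) : x ∈ O A j :=
  fun i hi => hx i (by omega)

theorem O_succ {j : ℤ} {x : Lau A} (hx : x ∈ O A j) (h : co x j = 0) : x ∈ O A (j + 1) :=
  fun i hi => by
    rcases eq_or_lt_of_le (Int.lt_add_one_iff.mp hi) with rfl | h'
    · exact h
    · exact hx i h'

theorem exists_lead {x : Lau A} (hx : x ≠ 0) : ∃ j, x ∈ O A j ∧ co x j ≠ 0 :=
  ⟨HahnSeries.order (x : HahnSeries ℤ A), fun _ hk => HahnSeries.coeff_eq_zero_of_lt_order hk,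
    HahnSeries.coeff_order_eq_zero.not.mpr hx⟩

theorem exists_O (x : Lau A) : ∃ j, x ∈ O A j := by
  by_cases hx : x = 0
  · exact ⟨0, hx ▸ zero_mem _⟩
  · exact (exists_lead hx).imp fun _ h => h.1

theorem exists_O_fin {ι : Type} [Finite ι] (x : ι → Lau A) : ∃ j, ∀ i, x i ∈ O A j := by
  choose j hj using fun i => exists_O (x i)
  obtain ⟨b, hb⟩ := (Set.finite_range j).bddBelow
  exact ⟨b, fun i => O_anti (hb ⟨i, rfl⟩) (hj i)⟩

theorem co_mul {j k : ℤ} {x y : Lau A} (hx : x ∈ O A j) (hy : y ∈ O A k) (n : ℤ) :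
    co (x * y) n = ∑ i ∈ Icc j (n - k), co x i * co y (n - i) := by
  classical
  have h : co (x * y) n = _ := HahnSeries.coeff_mul (x := (x : HahnSeries ℤ A)) (y := y) (a := n)
  rw [h]
  symm
  refine Finset.sum_bij_ne_zero (fun i _ _ => (i, n - i)) (fun i _ h => ?_)
    (fun a _ _ b _ _ h => (Prod.mk.inj h).1) (fun p hp h => ?_) (fun _ _ _ => rfl)
  · simp only [Finset.mem_antidiagonal]
    exact ⟨left_ne_zero_of_mul h, right_ne_zero_of_mul h, by ring⟩
  · simp only [Finset.mem_antidiagonal] at hp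
    obtain ⟨h1, h2, h3⟩ := hp
    have e : n - p.1 = p.2 := by omega
    refine ⟨p.1, mem_Icc.mpr ⟨?_, ?_⟩, ?_, ?_⟩
    · by_contra hc; exact h1 (hx _ (by omega))
    · by_contra hc; exact h2 (hy _ (by omega))
    · rw [e]; exact h
    · rw [e]

theorem O_mul {j k : ℤ} {x y : Lau A} (hx : x ∈ O A j) (hy : y ∈ O A k) :
    x * y ∈ O A (j + k) := fun n hn => by
  rw [co_mul hx hy, Icc_eq_empty (by omega), sum_empty]

theorem O_mul' {j k l : ℤ} {x y : Lau A} (hx : x ∈ O A j) (hy : y ∈ O A k) (h : l ≤ j + k) :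
    x * y ∈ O A l := O_anti h (O_mul hx hy)

theorem co_lead {j k n : ℤ} {x y : Lau A} (hx : x ∈ O A j) (hy : y ∈ O A k) (h : n = j + k) :
    co (x * y) n = co x j * co y k := by
  rw [co_mul hx hy, show n - k = j by omega, Icc_self, sum_singleton, show n - j = k by omega]

theorem co_lead1 {j k n : ℤ} {x y : Lau A} (hx : x ∈ O A j) (hy : y ∈ O A k) (h : n = j + k + 1) :
    co (x * y) n = co x j * co y (k + 1) + co x (j + 1) * co y k := by
  have : Icc j (n - k) = {j, j + 1} := by ext i; simp; omega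
  rw [co_mul hx hy, this, sum_pair (by omega), show n - j = k + 1 by omega,
    show n - (j + 1) = k by omega]

/-- monomials -/
noncomputable def mono (k : ℤ) (a : A) : Lau A := HahnSeries.single k a

theorem co_mono (k : ℤ) (a : A) (n : ℤ) : co (mono k a) n = if n = k then a else 0 := by
  classical
  have := HahnSeries.coeff_single (a := k) (b := n) (r := a)
  unfold co mono
  rw [this]
  split_ifs <;> rfl

theorem co_mono_self (k : ℤ) (a : A) : co (mono k a) k = a := by simp [co_mono]
theorem co_mono_ne {k n : ℤ} (a : A) (h : n ≠ k) : co (mono k a) n = 0 := by simp [co_mono, h]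

theorem mono_O (k : ℤ) (a : A) : mono k a ∈ O A k := fun _ h => co_mono_ne _ h.ne

theorem co_mono_mul (k : ℤ) (a : A) (x : Lau A) (n : ℤ) :
    co (mono k a * x) n = a * co x (n - k) := HahnSeries.coeff_single_mul
theorem co_mul_mono (k : ℤ) (a : A) (x : Lau A) (n : ℤ) :
    co (x * mono k a) n = co x (n - k) * a := HahnSeries.coeff_mul_single

theorem mono_mul (j k : ℤ) (a b : A) : mono j a * mono k b = mono (j + k) (a * b) :=
  HahnSeries.single_mul_single

theorem mono_add (k : ℤ) (a b : A) : mono k (a + b) = mono k a + mono k b := by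
  ext n; simp only [co_add, co_mono]; split_ifs <;> simp

theorem mono_zero (k : ℤ) : mono k (0 : A) = 0 := by ext n; simp [co_mono]

theorem mono_sum {ι : Type} (s : Finset ι) (k : ℤ) (f : ι → A) :
    mono k (∑ i ∈ s, f i) = ∑ i ∈ s, mono k (f i) :=
  map_sum (⟨⟨mono k, mono_zero k⟩, mono_add k⟩ : A →+ Lau A) f s

/-- constants -/
noncomputable def C : A →+* Lau A := HahnSeries.C

theorem C_eq (a : A) : C a = mono 0 a := rfl
theorem one_eq : (1 : Lau A) = mono 0 1 := rfl
theorem C_O (a : A) : C a ∈ O A 0 := mono_O 0 a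
theorem one_O : (1 : Lau A) ∈ O A 0 := mono_O 0 1
@[simp] theorem co_C_zero (a : A) : co (C a) 0 = a := co_mono_self 0 a
@[simp] theorem co_one_zero : co (1 : Lau A) 0 = 1 := co_mono_self 0 1
theorem co_C_ne (a : A) {n : ℤ} (h : n ≠ 0) : co (C a) n = 0 := co_mono_ne a h
theorem co_C_mul (a : A) (x : Lau A) (n : ℤ) : co (C a * x) n = a * co x n := by
  rw [C_eq, co_mono_mul, sub_zero]
theorem co_mul_C (a : A) (x : Lau A) (n : ℤ) : co (x * C a) n = co x n * a := by
  rw [C_eq, co_mul_mono, sub_zero]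
theorem C_inj : Function.Injective (C : A → Lau A) := fun a b h => by
  simpa using congrArg (co · 0) h

/-- series from coefficients -/
noncomputable def mk (f : ℤ → A) (b : ℤ) (h : ∀ k < b, f k = 0) : Lau A :=
  HahnSeries.ofSuppBddBelow f ⟨b, fun k hk => not_lt.mp fun hc => hk (h k hc)⟩

@[simp] theorem co_mk (f : ℤ → A) (b : ℤ) (h : ∀ k < b, f k = 0) (k : ℤ) :
    co (mk f b h) k = f k := rfl

/-- the adic filtration -/
noncomputable def filt (A : Type) [Ring A] : Filt (Lau A) where
  J := O A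
  anti := O_anti
  mul := O_mul
  one := one_O
  sep x h := ext fun k => h (k + 1) k (by omega)
  comp b x h := by
    have key : ∀ (k : ℤ) (M N : ℕ), k < N + b → co (x (N + M)) k = co (x N) k := by
      intro k M
      induction M with
      | zero => simp
      | succ M ih =>
        intro N hN
        have := h (N + M) k (by push_cast; omega)
        rw [co_sub, sub_eq_zero] at this
        rw [← add_assoc, this, ih N hN]
    have key2 : ∀ (k : ℤ) (N : ℕ), k < N + b → co (x (k + 1 - b).toNat) k = co (x N) k := by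
      intro k N hN
      have e : N = (k + 1 - b).toNat + (N - (k + 1 - b).toNat) := by omega
      conv_rhs => rw [e]
      exact (key _ _ _ (by omega)).symm
    obtain ⟨j, hj⟩ := exists_O (x 0)
    refine ⟨mk (fun k => co (x (k + 1 - b).toNat) k) (min j b) fun k hk => ?_, fun N k hk => ?_⟩
    · rw [key2 k 0 (by simp; omega)]
      exact hj k (by omega)
    · rw [co_sub, co_mk, key2 k N hk, sub_self]

@[simp] theorem filt_J (j : ℤ) : (filt A).J j = O A j := rfl

theorem O_of_mul_left [NoZeroDivisors A] {j k : ℤ} {x y : Lau A} (hx : x ∈ O A j)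
    (hx' : co x j ≠ 0) (h : x * y ∈ O A (j + k)) : y ∈ O A k := by
  by_cases hy : y = 0
  · exact hy ▸ zero_mem _
  obtain ⟨i, hi, hi'⟩ := exists_lead hy
  by_cases hik : k ≤ i
  · exact O_anti hik hi
  · exact absurd (h (j + i) (by omega)) (by rw [co_lead hx hi rfl]; exact mul_ne_zero hx' hi')

theorem O_of_mul_right [NoZeroDivisors A] {j k : ℤ} {x y : Lau A} (hx : x ∈ O A j)
    (hx' : co x j ≠ 0) (h : y * x ∈ O A (k + j)) : y ∈ O A k := by
  by_cases hy : y = 0
  · exact hy ▸ zero_mem _
  obtain ⟨i, hi, hi'⟩ := exists_lead hy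
  by_cases hik : k ≤ i
  · exact O_anti hik hi
  · exact absurd (h (i + j) (by omega)) (by rw [co_lead hi hx rfl]; exact mul_ne_zero hi' hx')

instance [Nontrivial A] : Nontrivial (Lau A) := C_inj.nontrivial

theorem isUnit_or {A : Type} [DivisionRing A] (x : Lau A) : IsUnit x ∨ x = 0 := by
  have key : ∀ x : Lau A, x ≠ 0 → ∃ z, x * z = 1 := by
    intro x hx
    obtain ⟨j, hj, hj'⟩ := exists_lead hx
    have h1 : 1 - x * mono (-j) (co x j)⁻¹ ∈ (filt A).J 1 := by
      refine O_succ (j := 0) (sub_mem one_O (O_mul' hj (mono_O _ _) (by omega))) ?_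
      rw [co_sub, co_mul_mono]
      simp [hj']
    obtain ⟨z, hz⟩ := (filt A).exists_inv h1
    exact ⟨mono (-j) (co x j)⁻¹ * z, by rwa [sub_sub_cancel, mul_assoc] at hz⟩
  by_cases hx : x = 0
  · exact Or.inr hx
  obtain ⟨z, hz⟩ := key x hx
  obtain ⟨w, hw⟩ := key z (right_ne_zero_of_mul_eq_one hz)
  have : x = w := by rw [← mul_one x, ← hw, ← mul_assoc, hz, one_mul]
  exact Or.inl ⟨⟨x, z, hz, this ▸ hw⟩, rfl⟩

noncomputable instance instDivisionRing {A : Type} [DivisionRing A] : DivisionRing (Lau A) :=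
  DivisionRing.ofIsUnitOrEqZero isUnit_or

noncomputable instance instField {F : Type} [Field F] : Field (Lau F) :=
  { (instDivisionRing : DivisionRing (Lau F)), (instCommRing : CommRing (Lau F)) with }

instance [CharZero A] : CharZero (Lau A) := charZero_of_injective_ringHom C_inj

/-- coefficientwise map -/
noncomputable def cmap (φ : A →+ B) : Lau A →+ Lau B where
  toFun x := mk (fun k => φ (co x k)) (exists_O x).choose fun k hk => by
    rw [(exists_O x).choose_spec k hk, map_zero]
  map_zero' := ext fun _ => by simp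
  map_add' x y := ext fun k => by simp

@[simp] theorem co_cmap (φ : A →+ B) (x : Lau A) (k : ℤ) : co (cmap φ x) k = φ (co x k) := rfl

theorem cmap_O (φ : A →+ B) {j : ℤ} {x : Lau A} (hx : x ∈ O A j) : cmap φ x ∈ O B j :=
  fun k hk => by rw [co_cmap, hx k hk, map_zero]

/-- coefficientwise ring map -/
noncomputable def rmap (φ : A →+* B) : Lau A →+* Lau B :=
  { cmap φ.toAddMonoidHom with
    map_one' := ext fun k => by
      change φ (co 1 k) = _
      rw [one_eq, one_eq, co_mono, co_mono]
      split_ifs <;> simp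
    map_mul' x y := ext fun k => by
      obtain ⟨i, hi⟩ := exists_O x
      obtain ⟨j, hj⟩ := exists_O y
      change φ (co (x * y) k) = co (cmap φ.toAddMonoidHom x * cmap φ.toAddMonoidHom y) k
      rw [co_mul hi hj, co_mul (cmap_O _ hi) (cmap_O _ hj)]
      simp }

@[simp] theorem co_rmap (φ : A →+* B) (x : Lau A) (k : ℤ) : co (rmap φ x) k = φ (co x k) := rfl

theorem rmap_O (φ : A →+* B) {j : ℤ} {x : Lau A} (hx : x ∈ O A j) : rmap φ x ∈ O B j :=
  cmap_O φ.toAddMonoidHom hx

theorem rmap_mono (φ : A →+* B) (k : ℤ) (a : A) : rmap φ (mono k a) = mono k (φ a) := by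
  ext n
  rw [co_rmap, co_mono, co_mono]
  split_ifs <;> simp

theorem sum_Icc_rev {M : Type} [AddCommMonoid M] (j k n : ℤ) (f : ℤ → ℤ → M) :
    ∑ i ∈ Icc j (n - k), f i (n - i) = ∑ i ∈ Icc k (n - j), f (n - i) i := by
  refine Finset.sum_nbij' (fun i => n - i) (fun i => n - i) ?_ ?_ ?_ ?_ ?_ <;>
    simp +contextual <;> omega

theorem comm_of_co {x y : Lau A} (h : ∀ i j, co x i * co y j = co y j * co x i) :
    x * y = y * x := by
  ext n
  obtain ⟨i, hi⟩ := exists_O x
  obtain ⟨j, hj⟩ := exists_O y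
  rw [co_mul hi hj, co_mul hj hi, sum_Icc_rev i j n fun a b => co x a * co y b]
  exact sum_congr rfl fun _ _ => h _ _

/-- the Euler derivation -/
noncomputable def D : Lau A →+ Lau A where
  toFun x := mk (fun k => k • co x k) (exists_O x).choose fun k hk => by
    rw [(exists_O x).choose_spec k hk, smul_zero]
  map_zero' := ext fun _ => by simp
  map_add' x y := ext fun _ => by simp

@[simp] theorem co_D (x : Lau A) (k : ℤ) : co (D x) k = k • co x k := rfl

theorem D_O {j : ℤ} {x : Lau A} (hx : x ∈ O A j) : D x ∈ O A j :=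
  fun k hk => by rw [co_D, hx k hk, smul_zero]

theorem D_mul (x y : Lau A) : D (x * y) = D x * y + x * D y := by
  ext n
  obtain ⟨i, hi⟩ := exists_O x
  obtain ⟨j, hj⟩ := exists_O y
  rw [co_D, co_add, co_mul hi hj, co_mul (D_O hi) hj, co_mul hi (D_O hj), smul_sum,
    ← sum_add_distrib]
  refine sum_congr rfl fun k _ => ?_
  rw [co_D, co_D, smul_mul_assoc, mul_smul_comm, ← add_smul, add_sub_cancel]

theorem D_C (a : A) : D (C a) = 0 := by
  ext n
  rw [co_D, C_eq, co_mono]
  split_ifs with h <;> simp [h]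

section alg

variable {F : Type} [Field F] [Algebra F A] [Algebra F B]

noncomputable instance (priority := 50) instAlgebra : Algebra (Lau F) (Lau A) :=
  RingHom.toAlgebra' (rmap (algebraMap F A)) fun _ _ =>
    comm_of_co fun _ _ => by rw [co_rmap, Algebra.commutes]

theorem algebraMap_eq (a : Lau F) : algebraMap (Lau F) (Lau A) a = rmap (algebraMap F A) a := rfl

theorem co_smul {j k : ℤ} {a : Lau F} {x : Lau A} (ha : a ∈ O F j) (hx : x ∈ O A k) (n : ℤ) :
    co (a • x) n = ∑ i ∈ Icc j (n - k), co a i • co x (n - i) := by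
  rw [Algebra.smul_def, algebraMap_eq, co_mul (rmap_O _ ha) hx]
  simp [Algebra.smul_def]

theorem O_smul {j k l : ℤ} {a : Lau F} {x : Lau A} (ha : a ∈ O F j) (hx : x ∈ O A k)
    (h : l ≤ j + k) : a • x ∈ O A l := by
  rw [Algebra.smul_def]
  exact O_mul' (rmap_O _ ha) hx h

theorem co_smul_lead {j k n : ℤ} {a : Lau F} {x : Lau A} (ha : a ∈ O F j) (hx : x ∈ O A k)
    (h : n = j + k) : co (a • x) n = co a j • co x k := by
  rw [Algebra.smul_def, algebraMap_eq, co_lead (rmap_O _ ha) hx h, co_rmap, Algebra.smul_def]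

theorem co_mono_smul (k : ℤ) (a : F) (x : Lau A) (n : ℤ) :
    co (mono k a • x) n = a • co x (n - k) := by
  rw [Algebra.smul_def, algebraMap_eq, rmap_mono, co_mono_mul, Algebra.smul_def]

theorem algebraMap_C (a : F) : algebraMap (Lau F) (Lau A) (C a) = C (algebraMap F A a) :=
  rmap_mono _ _ _

/-- coefficientwise linear map -/
noncomputable def mapL (φ : A →ₗ[F] B) : Lau A →ₗ[Lau F] Lau B :=
  { cmap φ.toAddMonoidHom with
    map_smul' := fun a x => ext fun n => by
      obtain ⟨i, hi⟩ := exists_O a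
      obtain ⟨j, hj⟩ := exists_O x
      change φ (co (a • x) n) = co (a • cmap φ.toAddMonoidHom x) n
      rw [co_smul hi hj, co_smul hi (cmap_O _ hj)]
      simp }

@[simp] theorem co_mapL (φ : A →ₗ[F] B) (x : Lau A) (k : ℤ) : co (mapL φ x) k = φ (co x k) := rfl

/-- coefficientwise functional -/
noncomputable def mapF (φ : A →ₗ[F] F) : Lau A →ₗ[Lau F] Lau F :=
  { cmap φ.toAddMonoidHom with
    map_smul' := fun a x => ext fun n => by
      obtain ⟨i, hi⟩ := exists_O a
      obtain ⟨j, hj⟩ := exists_O x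
      change φ (co (a • x) n) = co (a * cmap φ.toAddMonoidHom x) n
      rw [co_smul hi hj, co_mul hi (cmap_O _ hj)]
      simp }

@[simp] theorem co_mapF (φ : A →ₗ[F] F) (x : Lau A) (k : ℤ) : co (mapF φ x) k = φ (co x k) := rfl

end alg

end Lau

end Vale.Agent.P199
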