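import Mathlib

/-! Noncommutative power series with coefficients in a ring (variables commute with coefficients). -/

namespace Vale.Agent.P199

open Finset

set_option linter.unusedSectionVars false

/-- Noncommutative power series. -/
def NC (I A : Type) : Type := List I → A

namespace NC

variable {I A : Type} [Ring A]

instance : AddCommGroup (NC I A) := inferInstanceAs (AddCommGroup (List I → A))

@[ext] theorem ext {f g : NC I A} (h : ∀ w, f w = g w) : f = g := funext h

@[simp] theorem add_apply (f g : NC I A) (w : List I) : (f + g) w = f w + g w := rfl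
@[simp] theorem sub_apply (f g : NC I A) (w : List I) : (f - g) w = f w - g w := rfl
@[simp] theorem neg_apply (f : NC I A) (w : List I) : (-f) w = - f w := rfl
@[simp] theorem zero_apply (w : List I) : (0 : NC I A) w = 0 := rfl

theorem sum_apply {ι : Type} (s : Finset ι) (f : ι → NC I A) (w : List I) :
    (∑ i ∈ s, f i) w = ∑ i ∈ s, f i w := by
  classical
  induction s using Finset.induction_on with
  | empty => simp
  | insert a s ha ih => rw [sum_insert ha, sum_insert ha, add_apply, ih]

/-- left derivative -/
def der (i : I) (f : NC I A) : NC I A := fun w => f (i :: w)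

@[simp] theorem der_apply (i : I) (f : NC I A) (w : List I) : der i f w = f (i :: w) := rfl

def mulc : NC I A → NC I A → List I → A
  | f, g, [] => f [] * g []
  | f, g, i :: w => mulc (der i f) g w + f [] * g (i :: w)

def cst (a : A) : NC I A := fun w => match w with
  | [] => a
  | _ :: _ => 0

instance : Mul (NC I A) := ⟨fun f g => mulc f g⟩
instance : One (NC I A) := ⟨cst 1⟩

theorem mul_nil (f g : NC I A) : (f * g) [] = f [] * g [] := rfl
theorem mul_cons (f g : NC I A) (i : I) (w : List I) :
    (f * g) (i :: w) = (der i f * g) w + f [] * g (i :: w) := rfl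

@[simp] theorem cst_nil (a : A) : (cst a : NC I A) [] = a := rfl
@[simp] theorem cst_cons (a : A) (i : I) (w : List I) : (cst a : NC I A) (i :: w) = 0 := rfl

theorem der_cst (i : I) (a : A) : der i (cst a : NC I A) = 0 := rfl
theorem der_add (i : I) (f g : NC I A) : der i (f + g) = der i f + der i g := rfl
theorem der_zero (i : I) : der i (0 : NC I A) = 0 := rfl

theorem zero_mul' (g : NC I A) : (0 : NC I A) * g = 0 := by
  ext w
  induction w with
  | nil => simp [mul_nil]
  | cons i w ih => rw [mul_cons, der_zero, ih]; simp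

theorem mul_zero' (f : NC I A) : f * (0 : NC I A) = 0 := by
  ext w
  induction w generalizing f with
  | nil => simp [mul_nil]
  | cons i w ih => rw [mul_cons, ih]; simp

theorem add_mul' (f f' g : NC I A) : (f + f') * g = f * g + f' * g := by
  ext w
  induction w generalizing f f' with
  | nil => simp [mul_nil, add_mul]
  | cons i w ih =>
    rw [mul_cons, der_add, ih]
    simp only [add_apply, mul_cons, add_mul]
    abel

theorem mul_add' (f g g' : NC I A) : f * (g + g') = f * g + f * g' := by
  ext w
  induction w generalizing f with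
  | nil => simp [mul_nil, mul_add]
  | cons i w ih =>
    rw [mul_cons, ih]
    simp only [add_apply, mul_cons, mul_add]
    abel

theorem cst_mul_apply (a : A) (g : NC I A) (w : List I) : (cst a * g : NC I A) w = a * g w := by
  cases w with
  | nil => simp [mul_nil]
  | cons i w => rw [mul_cons, der_cst, zero_mul']; simp

theorem mul_cst_apply (a : A) (f : NC I A) (w : List I) : (f * cst a : NC I A) w = f w * a := by
  induction w generalizing f with
  | nil => simp [mul_nil]
  | cons i w ih => rw [mul_cons, ih]; simp

theorem der_mul (i : I) (f g : NC I A) :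
    der i (f * g) = der i f * g + cst (f []) * der i g := by
  ext w
  rw [der_apply, mul_cons, add_apply, cst_mul_apply, der_apply]

theorem der_cst_mul (i : I) (a : A) (g : NC I A) : der i (cst a * g) = cst a * der i g := by
  ext w
  rw [der_apply, cst_mul_apply, cst_mul_apply, der_apply]

theorem cst_mul_assoc (a : A) (g h : NC I A) : cst a * g * h = cst a * (g * h) := by
  ext w
  induction w generalizing g with
  | nil => simp [mul_nil, mul_assoc]
  | cons i w ih =>
    rw [mul_cons, der_cst_mul, ih, cst_mul_apply, cst_mul_apply, cst_mul_apply, mul_cons, mul_add,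
      mul_assoc]

theorem mul_assoc' (f g h : NC I A) : f * g * h = f * (g * h) := by
  ext w
  induction w generalizing f with
  | nil => simp [mul_nil, mul_assoc]
  | cons i w ih =>
    rw [mul_cons, der_mul, add_mul', add_apply, ih, cst_mul_assoc, cst_mul_apply, mul_cons f,
      mul_cons g, mul_nil, mul_add, mul_assoc, add_assoc]

instance : Ring (NC I A) :=
  { (inferInstance : AddCommGroup (NC I A)) with
    mul_assoc := mul_assoc'
    one_mul := fun f => by
      ext w
      exact (cst_mul_apply 1 f w).trans (one_mul _)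
    mul_one := fun f => by
      ext w
      exact (mul_cst_apply 1 f w).trans (mul_one _)
    left_distrib := mul_add'
    right_distrib := add_mul'
    zero_mul := zero_mul'
    mul_zero := mul_zero' }

/-- constants -/
def C : A →+* NC I A where
  toFun := cst
  map_one' := rfl
  map_zero' := by ext w; cases w <;> rfl
  map_add' a b := by ext w; cases w <;> simp
  map_mul' a b := by
    ext w
    rw [cst_mul_apply]
    cases w <;> simp

@[simp] theorem C_nil (a : A) : (C a : NC I A) [] = a := rfl
@[simp] theorem C_cons (a : A) (i : I) (w : List I) : (C a : NC I A) (i :: w) = 0 := rfl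
theorem C_mul_apply (a : A) (g : NC I A) (w : List I) : (C a * g : NC I A) w = a * g w :=
  cst_mul_apply a g w
theorem mul_C_apply (a : A) (f : NC I A) (w : List I) : (f * C a : NC I A) w = f w * a :=
  mul_cst_apply a f w
theorem der_mul' (i : I) (f g : NC I A) :
    der i (f * g) = der i f * g + C (f []) * der i g := der_mul i f g
theorem der_C (i : I) (a : A) : der i (C a : NC I A) = 0 := rfl
theorem der_C_mul (i : I) (a : A) (g : NC I A) : der i (C a * g) = C a * der i g :=
  der_cst_mul i a g
@[simp] theorem one_nil : (1 : NC I A) [] = 1 := rfl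
@[simp] theorem one_cons (i : I) (w : List I) : (1 : NC I A) (i :: w) = 0 := rfl

/-- constant coefficient -/
def c0 : NC I A →+* A where
  toFun f := f []
  map_one' := rfl
  map_zero' := rfl
  map_add' _ _ := rfl
  map_mul' _ _ := rfl

@[simp] theorem c0_apply (f : NC I A) : c0 f = f [] := rfl

section alg
variable {F : Type} [CommRing F] [Algebra F A]

instance : Module F (NC I A) := inferInstanceAs (Module F (List I → A))

@[simp] theorem smul_apply (a : F) (f : NC I A) (w : List I) : (a • f) w = a • f w := rfl

theorem smul_eq_C_mul (a : F) (f : NC I A) : a • f = C (algebraMap F A a) * f := by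
  ext w
  rw [C_mul_apply, smul_apply, Algebra.smul_def]

instance : Algebra F (NC I A) where
  algebraMap := C.comp (algebraMap F A)
  commutes' a f := by
    ext w
    simp only [RingHom.comp_apply]
    rw [C_mul_apply, mul_C_apply, Algebra.commutes]
  smul_def' a f := smul_eq_C_mul a f

theorem algebraMap_eq (a : F) : algebraMap F (NC I A) a = C (algebraMap F A a) := rfl

/-- constant coefficient as an algebra map -/
def c0a : NC I A →ₐ[F] A := { c0 with commutes' := fun _ => rfl }

@[simp] theorem c0a_apply (f : NC I A) : (c0a : NC I A →ₐ[F] A) f = f [] := rfl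

end alg

/-- `f` vanishes in degrees below `m`. -/
def Van (m : ℕ) (f : NC I A) : Prop := ∀ w : List I, w.length < m → f w = 0

theorem Van.der {m : ℕ} {f : NC I A} (h : Van (m + 1) f) (i : I) : Van m (der i f) :=
  fun w hw => h (i :: w) (by simpa using hw)

theorem mul_apply_eq_zero (f g : NC I A) (w : List I) (hg : Van (w.length + 1) g) :
    (f * g) w = 0 := by
  induction w generalizing f with
  | nil => rw [mul_nil, hg [] (by simp), mul_zero]
  | cons i w ih =>
    rw [mul_cons, ih _ (fun v hv => hg v (by simp; omega)), hg _ (by simp)]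
    simp

theorem mul_apply_right (f g : NC I A) (v : List I) (hg : Van v.length g) :
    (f * g) v = f [] * g v := by
  cases v with
  | nil => rfl
  | cons i w => rw [mul_cons, mul_apply_eq_zero _ _ _ hg, zero_add]

theorem mul_append (f g : NC I A) (u v : List I) (hf : Van u.length f) (hg : Van v.length g) :
    (f * g) (u ++ v) = f u * g v := by
  induction u generalizing f with
  | nil => exact mul_apply_right f g v hg
  | cons i u ih =>
    rw [List.cons_append, mul_cons, ih _ (hf.der i), hf [] (by simp)]
    simp

theorem mul_apply_left (f g : NC I A) (u : List I) (hf : Van u.length f) :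
    (f * g) u = f u * g [] := by
  simpa using mul_append f g u [] hf (fun _ h => by simp at h)

theorem mul_concat (f g : NC I A) (u : List I) (l : I) (hf : Van u.length f) :
    (f * g) (u ++ [l]) = f u * g [l] + f (u ++ [l]) * g [] := by
  induction u generalizing f with
  | nil => simp [mul_cons, mul_nil, add_comm]
  | cons i u ih =>
    rw [List.cons_append, mul_cons, ih _ (hf.der i), hf [] (by simp)]
    simp

theorem exists_van {f : NC I A} (hf : f ≠ 0) : ∃ w, f w ≠ 0 ∧ Van w.length f := by
  classical
  have h : ∃ m, ∃ w : List I, w.length = m ∧ f w ≠ 0 := by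
    by_contra hc
    push Not at hc
    exact hf (ext fun w => hc _ w rfl)
  obtain ⟨w, hw, hne⟩ := Nat.find_spec h
  refine ⟨w, hne, fun v hv => ?_⟩
  by_contra hc
  exact Nat.find_min h (hw ▸ hv) ⟨v, rfl, hc⟩

instance [Nontrivial A] : Nontrivial (NC I A) := (c0 : NC I A →+* A).domain_nontrivial

instance [NoZeroDivisors A] : NoZeroDivisors (NC I A) where
  eq_zero_or_eq_zero_of_mul_eq_zero {f g} h := by
    by_contra hc
    push Not at hc
    obtain ⟨u, hu, hu'⟩ := exists_van hc.1
    obtain ⟨v, hv, hv'⟩ := exists_van hc.2
    have := mul_append f g u v hu' hv'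
    rw [h, zero_apply] at this
    exact mul_ne_zero hu hv this.symm

instance [IsDomain A] : IsDomain (NC I A) := NoZeroDivisors.to_isDomain _

end NC

/-- A separated complete multiplicative filtration. -/
structure Filt (A : Type) [Ring A] where
  J : ℤ → AddSubgroup A
  anti : ∀ {j k : ℤ} {x : A}, j ≤ k → x ∈ J k → x ∈ J j
  mul : ∀ {j k : ℤ} {x y : A}, x ∈ J j → y ∈ J k → x * y ∈ J (j + k)
  one : (1 : A) ∈ J 0
  sep : ∀ x : A, (∀ k, x ∈ J k) → x = 0
  comp : ∀ (b : ℤ) (x : ℕ → A), (∀ N : ℕ, x (N + 1) - x N ∈ J (N + b)) →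
    ∃ y, ∀ N : ℕ, y - x N ∈ J (N + b)

namespace Filt

variable {A : Type} [Ring A] (Φ : Filt A)

theorem mul' {j k l : ℤ} {x y : A} (hx : x ∈ Φ.J j) (hy : y ∈ Φ.J k) (h : l ≤ j + k) :
    x * y ∈ Φ.J l := Φ.anti h (Φ.mul hx hy)

theorem sep' (x : A) (b : ℤ) (h : ∀ N : ℕ, x ∈ Φ.J (N + b)) : x = 0 :=
  Φ.sep x fun k => Φ.anti (by omega) (h (k - b).toNat)

theorem pow_mem {x : A} {a : ℤ} (hx : x ∈ Φ.J a) (N : ℕ) : x ^ N ∈ Φ.J (N * a) := by
  induction N with
  | zero => simpa using Φ.one
  | succ N ih => rw [pow_succ]; exact Φ.mul' ih hx (by push_cast; linarith)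

theorem exists_inv {y : A} (hy : y ∈ Φ.J 1) : ∃ z, (1 - y) * z = 1 := by
  obtain ⟨z, hz⟩ := Φ.comp 0 (fun N => ∑ k ∈ range N, y ^ k) (fun N => by
    simpa [sum_range_succ] using Φ.pow_mem hy N)
  refine ⟨z, sub_eq_zero.mp (Φ.sep' _ 0 fun N => ?_)⟩
  have e : (1 - y) * z - 1 = (1 - y) * (z - ∑ k ∈ range N, y ^ k) - y ^ N := by
    rw [mul_sub, mul_neg_geom_sum]; abel
  rw [e]
  refine sub_mem (Φ.mul' (sub_mem Φ.one (Φ.anti (by norm_num) hy)) (hz N) (by simp)) ?_
  simpa using Φ.pow_mem hy N

/-- bootstrapping -/
theorem boot {X I : Type} [Fintype I] (τ : I → A) (hτ : ∀ i, τ i ∈ Φ.J 1) (D : I → X → X)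
    (d : X → A) (b k : ℤ) (hb : ∀ x, d x ∈ Φ.J b)
    (hk : ∀ x, d x - ∑ i, τ i * d (D i x) ∈ Φ.J k) (x : X) : d x ∈ Φ.J k := by
  have key : ∀ N : ℕ, ∀ x, d x ∈ Φ.J (min (N + b) k) := by
    intro N
    induction N with
    | zero => intro x; exact Φ.anti (by simp) (hb x)
    | succ N ih =>
      intro x
      have e : d x = (d x - ∑ i, τ i * d (D i x)) + ∑ i, τ i * d (D i x) := by abel
      rw [e]
      refine add_mem (Φ.anti (min_le_right _ _) (hk x)) (sum_mem fun i _ => ?_)
      exact Φ.mul' (hτ i) (ih _) (by push_cast; omega)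
  exact Φ.anti (by omega) (key (k - b).toNat x)

theorem boot0 {X I : Type} [Fintype I] (τ : I → A) (hτ : ∀ i, τ i ∈ Φ.J 1) (D : I → X → X)
    (d : X → A) (b : ℤ) (hb : ∀ x, d x ∈ Φ.J b)
    (hk : ∀ x, d x = ∑ i, τ i * d (D i x)) (x : X) : d x = 0 :=
  Φ.sep _ fun k => Φ.boot τ hτ D d b k hb (fun x => by rw [← hk x, sub_self]; exact zero_mem _) x

/-- the trivial filtration -/
def triv (A : Type) [Ring A] : Filt A where
  J k := if k ≤ 0 then ⊤ else ⊥
  anti {j k x} h hx := by
    split_ifs at hx ⊢ <;> first
      | trivial
      | omega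
  mul {j k x y} hx hy := by
    split_ifs at hx hy ⊢ with h1 h2 h3 h4 h5 h6 h7 <;> first
      | trivial
      | omega
      | simp_all
  one := by simp
  sep x h := by simpa using h 1
  comp b x h := by
    refine ⟨x (1 - b).toNat, fun N => ?_⟩
    split_ifs with h1
    · trivial
    · have key : ∀ M : ℕ, ∀ N : ℕ, 0 < N + b → x (N + M) = x N := by
        intro M
        induction M with
        | zero => simp
        | succ M ih =>
          intro N hN
          have := h (N + M)
          rw [if_neg (by push_cast; omega)] at this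
          rw [← add_assoc, sub_eq_zero.mp (AddSubgroup.mem_bot.mp this), ih N hN]
      have e : N = (1 - b).toNat + (N - (1 - b).toNat) := by omega
      rw [AddSubgroup.mem_bot, sub_eq_zero]
      conv_rhs => rw [e]
      exact (key _ _ (by omega)).symm

theorem mem_triv {k : ℤ} {x : A} : x ∈ (triv A).J k ↔ (0 < k → x = 0) := by
  simp only [triv]
  split_ifs with h
  · simp; omega
  · simp; omega

/-- the induced filtration on series -/
def nc (I : Type) : Filt (NC I A) where
  J k :=
    { carrier := {f | ∀ w : List I, f w ∈ Φ.J (k - w.length)}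
      add_mem' := fun ha hb w => add_mem (ha w) (hb w)
      zero_mem' := fun _ => zero_mem _
      neg_mem' := fun ha w => neg_mem (ha w) }
  anti h hx w := Φ.anti (by omega) (hx w)
  mul {j k f g} hf hg w := by
    induction w generalizing f j with
    | nil => exact Φ.mul' (hf []) (hg []) (by simp)
    | cons i w ih =>
      rw [NC.mul_cons]
      refine add_mem ?_ (Φ.mul' (hf []) (hg _) (by simp; omega))
      refine Φ.anti (by simp; omega) (ih (j := j - 1) (f := NC.der i f) fun v => ?_)
      exact Φ.anti (by simp; omega) (hf (i :: v))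
  one w := by
    cases w with
    | nil => simpa using Φ.one
    | cons i w => exact zero_mem _
  sep f h := NC.ext fun w => Φ.sep _ fun k => by simpa using h (k + w.length) w
  comp b x h := by
    have : ∀ w : List I, ∃ y, ∀ N : ℕ, y - x N w ∈ Φ.J (N + (b - w.length)) := fun w =>
      Φ.comp _ (fun N => x N w) fun N => Φ.anti (by omega) (h N w)
    choose y hy using this
    exact ⟨y, fun N w => Φ.anti (by omega) (hy w N)⟩

theorem mem_nc {I : Type} {k : ℤ} {f : NC I A} :
    f ∈ (Φ.nc I).J k ↔ ∀ w : List I, f w ∈ Φ.J (k - w.length) := Iff.rfl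

theorem mem_nc_triv {I : Type} {m : ℕ} {f : NC I A} :
    f ∈ ((triv A).nc I).J m ↔ NC.Van m f := by
  rw [mem_nc]
  refine forall_congr' fun w => ?_
  rw [mem_triv]
  constructor
  · intro h hw; exact h (by omega)
  · intro h hw; exact h (by omega)

end Filt

end Vale.Agent.P199
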