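import Vale.Agent.P199.Diag

/-! Powers of a subspace of a field, and their reductions. -/

namespace Vale.Agent.P199

open Finset Module Polynomial Lau

set_option linter.unusedSectionVars false

variable {F Δ : Type} [Field F] [CharZero F] [DivisionRing Δ] [Algebra F Δ]
  [FiniteDimensional F Δ]

/-- stable dimension of the powers -/
noncomputable def dz (W : Submodule F Δ) : ℕ :=
  sSup (Set.range fun k : ℕ => finrank F (W ^ (k + 1) : Submodule F Δ))

theorem dz_bdd (W : Submodule F Δ) :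
    BddAbove (Set.range fun k : ℕ => finrank F (W ^ (k + 1) : Submodule F Δ)) :=
  ⟨finrank F Δ, by rintro _ ⟨k, rfl⟩; exact Submodule.finrank_le _⟩

theorem le_dz (W : Submodule F Δ) (k : ℕ) : finrank F (W ^ (k + 1) : Submodule F Δ) ≤ dz W :=
  le_csSup (dz_bdd W) ⟨k, rfl⟩

theorem exists_dz (W : Submodule F Δ) : ∃ k, finrank F (W ^ (k + 1) : Submodule F Δ) = dz W :=
  Nat.sSup_mem (Set.range_nonempty _) (dz_bdd W)

theorem finrank_map_mul {u : Δ} (hu : u ≠ 0) (V : Submodule F Δ) :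
    finrank F (V.map (LinearMap.mulLeft F u)) = finrank F V :=
  finrank_map_inj _ _ fun _ _ h => (mul_eq_zero.mp h).resolve_left hu

theorem finrank_pow_mono {W : Submodule F Δ} (hW : W ≠ ⊥) {j k : ℕ} (h : j ≤ k) :
    finrank F (W ^ j : Submodule F Δ) ≤ finrank F (W ^ k : Submodule F Δ) := by
  obtain ⟨w0, hw, h0⟩ := (Submodule.ne_bot_iff W).mp hW
  refine monotone_nat_of_le_succ (f := fun k => finrank F (W ^ k : Submodule F Δ)) (fun k => ?_) h
  exact finrank_le_of_inj (LinearMap.mulLeft F w0) _ _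
    (fun x hx => by rw [pow_succ']; exact Submodule.mul_mem_mul hw hx)
    fun _ _ h => (mul_eq_zero.mp h).resolve_left h0

theorem pow_le_K {W : Submodule F Δ} {K : Subalgebra F Δ} (h : W ≤ K.toSubmodule) (k : ℕ) :
    W ^ k ≤ K.toSubmodule := by
  induction k with
  | zero => rw [pow_zero, Submodule.one_le]; exact one_mem K
  | succ k ih =>
    rw [pow_succ]
    exact Submodule.mul_le.mpr fun a ha b hb => K.mul_mem (ih ha) (h hb)

theorem stable_mul {W : Submodule F Δ} {w0 : Δ} (hw : w0 ∈ W) (h0 : w0 ≠ 0) {k : ℕ}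
    (hk : dz W ≤ finrank F (W ^ k : Submodule F Δ)) {w m : Δ} (h1 : w ∈ W) (h2 : m ∈ W ^ k) :
    w0⁻¹ * (w * m) ∈ W ^ k := by
  have e : (W ^ k).map (LinearMap.mulLeft F w0) = W ^ (k + 1) := by
    refine Submodule.eq_of_le_of_finrank_le ?_ ?_
    · rintro _ ⟨x, hx, rfl⟩
      rw [pow_succ']; exact Submodule.mul_mem_mul hw hx
    · rw [finrank_map_mul h0]; exact (le_dz W k).trans hk
  have : w * m ∈ W ^ (k + 1) := by rw [pow_succ']; exact Submodule.mul_mem_mul h1 h2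
  rw [← e] at this
  obtain ⟨x, hx, h⟩ := this
  rw [← h, LinearMap.mulLeft_apply, ← mul_assoc, inv_mul_cancel₀ h0, one_mul]
  exact hx

theorem dz_dvd {W : Submodule F Δ} {c : Δ} (hK : W ≤ (Kc F c).toSubmodule) (hW : W ≠ ⊥) :
    dz W ∣ finrank F (Kc F c) := by
  obtain ⟨w0, hw, h0⟩ := (Submodule.ne_bot_iff W).mp hW
  obtain ⟨k, hk⟩ := exists_dz W
  let S : Subalgebra F Δ :=
    { carrier := {x | x ∈ Kc F c ∧ ∀ m ∈ W ^ (k + 1), x * m ∈ W ^ (k + 1)}
      mul_mem' := fun ha hb => ⟨mul_mem ha.1 hb.1, fun m hm => by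
        rw [mul_assoc]; exact ha.2 _ (hb.2 m hm)⟩
      add_mem' := fun ha hb => ⟨add_mem ha.1 hb.1, fun m hm => by
        rw [add_mul]; exact add_mem (ha.2 m hm) (hb.2 m hm)⟩
      algebraMap_mem' := fun r => ⟨Subalgebra.algebraMap_mem _ r, fun m hm => by
        rw [← Algebra.smul_def]; exact Submodule.smul_mem _ r hm⟩ }
  have hi : w0⁻¹ ∈ Kc F c := inv_mem_subalg _ (hK hw)
  have h2 : ∀ j, ∀ x ∈ W ^ j, w0⁻¹ ^ j * x ∈ S := by
    intro j
    induction j with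
    | zero =>
      intro x hx
      rw [pow_zero, Submodule.mem_one] at hx
      obtain ⟨r, rfl⟩ := hx
      rw [pow_zero, one_mul]; exact S.algebraMap_mem r
    | succ j ih =>
      intro x hx
      rw [pow_succ] at hx
      refine Submodule.mul_induction_on hx (fun a ha w hw' => ?_) fun a b ha hb => ?_
      · rw [pow_succ, mul_assoc, ← mul_assoc w0⁻¹, Kc_comm hi (pow_le_K hK j ha), mul_assoc,
          ← mul_assoc]
        refine mul_mem (ih a ha) ⟨mul_mem hi (hK hw'), fun m hm => ?_⟩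
        rw [mul_assoc]; exact stable_mul hw h0 hk.ge hw' hm
      · rw [mul_add]; exact add_mem ha hb
  have e : finrank F S.toSubmodule = dz W := by
    rw [← hk]
    apply le_antisymm
    · exact finrank_le_of_inj (LinearMap.mulRight F (w0 ^ (k + 1))) _ _
        (fun x hx => hx.2 _ (Submodule.pow_mem_pow W hw _))
        fun _ _ h => (mul_eq_zero.mp h).resolve_right (pow_ne_zero _ h0)
    · exact finrank_le_of_inj (LinearMap.mulLeft F (w0⁻¹ ^ (k + 1))) _ _ (h2 _)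
        fun _ _ h => (mul_eq_zero.mp h).resolve_left (pow_ne_zero _ (inv_ne_zero h0))
  rw [← e]
  exact finrank_dvd S (Kc F c).toSubmodule fun a ha b hb => (Kc F c).mul_mem ha.1 hb

/-- normalized square -/
noncomputable def V0 (W : Submodule F Δ) (w0 : Δ) : Submodule F Δ :=
  (W * W).map (LinearMap.mulLeft F w0⁻¹)

theorem mem_V0 {W : Submodule F Δ} {w0 v : Δ} (h0 : w0 ≠ 0) : v ∈ V0 W w0 ↔ w0 * v ∈ W * W := by
  constructor
  · rintro ⟨x, hx, rfl⟩
    rwa [LinearMap.mulLeft_apply, ← mul_assoc, mul_inv_cancel₀ h0, one_mul]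
  · intro h
    exact ⟨_, h, by rw [LinearMap.mulLeft_apply, ← mul_assoc, inv_mul_cancel₀ h0, one_mul]⟩

theorem le_V0 {W : Submodule F Δ} {w0 : Δ} (hw : w0 ∈ W) (h0 : w0 ≠ 0) : W ≤ V0 W w0 :=
  fun _ h => (mem_V0 h0).mpr (Submodule.mul_mem_mul hw h)

theorem V0_le {W : Submodule F Δ} {w0 : Δ} {K : Subalgebra F Δ} (hK : W ≤ K.toSubmodule)
    (hw : w0 ∈ W) : V0 W w0 ≤ K.toSubmodule := by
  rintro _ ⟨x, hx, rfl⟩
  exact K.mul_mem (inv_mem_subalg _ (hK hw)) (pow_le_K hK 2 (by rwa [pow_two]))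

theorem finrank_V0 {W : Submodule F Δ} {w0 : Δ} (h0 : w0 ≠ 0)
    (hg : dz W ≤ finrank F (W ^ 2 : Submodule F Δ)) : finrank F (V0 W w0) = dz W := by
  rw [V0, finrank_map_mul (inv_ne_zero h0), ← pow_two]
  exact le_antisymm (le_dz W 1) hg

theorem finrank_map_mkQ {W V : Submodule F Δ} (h : W ≤ V) :
    finrank F W + finrank F (V.map W.mkQ) = finrank F V := by
  have := rank_null W.mkQ V
  rwa [Submodule.ker_mkQ, inf_eq_right.mpr h] at this

theorem exists_b {W : Submodule F Δ} {c w0 : Δ} (hK : W ≤ (Kc F c).toSubmodule) (hw : w0 ∈ W)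
    (h0 : w0 ≠ 0) (hg : dz W ≤ finrank F (W ^ 2 : Submodule F Δ))
    (hbig : 2 * dz W ≤ 3 * finrank F W) :
    ∃ b ∈ W, ∀ v ∈ V0 W w0, ∃ w ∈ W, ∃ w' ∈ W, v = w + w0⁻¹ * (w' * b) := by
  let β : Δ →ₗ[F] Δ →ₗ[F] Δ ⧸ W :=
    ((LinearMap.mul F Δ).flip.compr₂ (W.mkQ ∘ₗ LinearMap.mulLeft F w0⁻¹))
  have hβ : ∀ u v, β u v = W.mkQ (w0⁻¹ * (v * u)) := fun _ _ => rfl
  have hd := finrank_map_mkQ (le_V0 hw h0)
  rw [finrank_V0 h0 hg] at hd
  rcases rank_lemma β W W ((V0 W w0).map W.mkQ) (fun u hu v hv =>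
    ⟨_, ⟨_, Submodule.mul_mem_mul hv hu, rfl⟩, rfl⟩) with ⟨b, hb, h⟩ | ⟨ξ, hξ, N, hN, hlt, h⟩
  · refine ⟨b, hb, fun v hv => ?_⟩
    obtain ⟨w', hw', e⟩ : W.mkQ v ∈ W.map (β b) := h ▸ ⟨v, hv, rfl⟩
    rw [hβ, eq_comm, Submodule.mkQ_apply, Submodule.mkQ_apply, Submodule.Quotient.eq] at e
    exact ⟨_, e, w', hw', by simp⟩
  · exfalso
    have := pair_le (β.flip.compr₂ ξ) N (le_V0 hw h0) (fun v hv hv' => ?_)
      (fun v hv y hy => h y hy v hv)
    · rw [finrank_V0 h0 hg] at this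
      omega
    · by_contra hv0
      obtain ⟨_, ⟨q, hq, rfl⟩, hq'⟩ := hξ
      have e : (V0 W w0).map (LinearMap.mulLeft F (w0⁻¹ * v)) = V0 W w0 := by
        refine Submodule.eq_of_le_of_finrank_le ?_
          (finrank_map_mul (mul_ne_zero (inv_ne_zero h0) hv0) _).ge
        rintro _ ⟨y, hy, rfl⟩
        rw [mem_V0 h0, LinearMap.mulLeft_apply, ← mul_assoc, ← mul_assoc, mul_inv_cancel₀ h0,
          one_mul]
        obtain ⟨x, hx, rfl⟩ := hy
        rw [LinearMap.mulLeft_apply, ← mul_assoc,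
          Kc_comm (hK (hN hv)) (inv_mem_subalg _ (hK hw)), mul_assoc, ← pow_two]
        exact stable_mul hw h0 hg (hN hv) (by rwa [pow_two])
      rw [← e] at hq
      obtain ⟨y, hy, rfl⟩ := hq
      exact hq' (by rw [LinearMap.mulLeft_apply, mul_assoc]; exact hv' y hy)

variable {T : Δ →ₗ[F] F} {n : ℕ} {J : Type} [Fintype J]

namespace Child

variable {C : Cyc T n J} {I : Type} [Fintype I] {ch : Child C I} {α : NC I Δ}
  {w0 : Δ} {a : ℤ} {B : C.E}

/-- rationality of the annihilator on the normalized square -/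
def Rat (ch : Child C I) (α : NC I Δ) (w0 : Δ) : Prop :=
  ∀ t0 ∈ red (ch.AA α), ∀ v ∈ V0 (WW F α) w0, ∃ u, algebraMap C.F2 C.L u = C.τ (t0 * C.ι v)

theorem Lead.rat_basis {k : Fin (finrank F (WW F α)) → ℕ}
    (H : ch.Lead α w0 a (∑ j, C.ι (Module.finBasis F (WW F α) j : Δ) * C.π ^ k j)) (hT : IsTr T)
    (hk : Function.Injective k) (hk1 : ∀ j, k j < n) (hk2 : ∀ j, Nat.Coprime (k j) n) :
    ch.Rat α w0 := by
  rintro t0 ht _ ⟨x, hx, rfl⟩
  change w0⁻¹ * x ∈ C.ratτ t0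
  refine Submodule.mul_induction_on hx (fun w hw b hb => ?_) fun a b ha hb => ?_
  · have := congrArg Subtype.val ((Module.finBasis F (WW F α)).sum_repr ⟨b, hb⟩)
    rw [Submodule.coe_sum] at this
    rw [← show _ = b from this, mul_sum, mul_sum]
    refine sum_mem fun j _ => ?_
    rw [Submodule.coe_smul, mul_smul_comm, mul_smul_comm]
    exact Submodule.smul_mem _ _ (H.master3 hT hk hk1 hk2 ht hw j)
  · rw [mul_add]; exact add_mem ha hb

theorem Lead.rat_one {b : Δ} (H : ch.Lead α w0 a (C.ι b * C.π)) (hT : IsTr T)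
    (hb : ∀ v ∈ V0 (WW F α) w0, ∃ w ∈ WW F α, ∃ w' ∈ WW F α, v = w + w0⁻¹ * (w' * b)) :
    ch.Rat α w0 := by
  intro t0 ht v hv
  obtain ⟨w, hw, w', hw', rfl⟩ := hb v hv
  have H' : ch.Lead α w0 a (∑ _j : Unit, C.ι b * C.π ^ 1) := by simpa using H
  refine (C.ratτ t0).add_mem ⟨0, by rw [H.master1 hT ht hw, map_zero]⟩ ?_
  exact H'.master3 (b := fun _ => b) (k := fun _ => 1) hT (fun _ _ _ => rfl) (fun _ => H.hn)
    (fun _ => Nat.coprime_one_left n) ht hw' ()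

theorem Lead.pow_red (H : ch.Lead α w0 a B) (hT : IsTr T)
    (hz : n * finrank F (Zc F (α [])) ≤ finrank (Lau C.F2) (Zc (Lau C.F2) (ch.ψ α []))) (j : ℕ)
    {x : Δ} (hx : x ∈ WW F α ^ (j + 1)) (l : C.L) :
    C.lam l * C.ι x ∈ red (WW (Lau C.F2) (ch.ψ α) ^ (j + 1)) := by
  induction j generalizing x with
  | zero => rw [zero_add, pow_one] at hx ⊢; exact H.lam_W hT hz l hx
  | succ j ih =>
    rw [pow_succ] at hx
    refine Submodule.mul_induction_on hx (fun y hy w hw => ?_) fun a b ha hb => ?_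
    · have := red_mul (M := WW (Lau C.F2) (ch.ψ α) ^ (j + 1 + 1))
        (fun x hx y hy => by rw [pow_succ]; exact Submodule.mul_mem_mul hx hy) (ih hy)
        (H.lam_W hT hz 1 hw)
      rwa [map_one, one_mul, mul_assoc, ← map_mul] at this
    · rw [map_add, mul_add]; exact add_mem ha hb

theorem Lead.pow_le (H : ch.Lead α w0 a B) (hT : IsTr T)
    (hz : n * finrank F (Zc F (α [])) ≤ finrank (Lau C.F2) (Zc (Lau C.F2) (ch.ψ α []))) (j : ℕ) :
    n * finrank F (WW F α ^ (j + 1) : Submodule F Δ) ≤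
      finrank (Lau C.F2) (WW (Lau C.F2) (ch.ψ α) ^ (j + 1) : Submodule (Lau C.F2) (Lau C.E)) :=
  (C.lb_one hT _ _ fun l _ hv => H.pow_red hT hz j hv l).trans (finrank_red _).le

theorem Lead.pow_le2 (H : ch.Lead α w0 a B) (hT : IsTr T)
    (hz : n * finrank F (Zc F (α [])) ≤ finrank (Lau C.F2) (Zc (Lau C.F2) (ch.ψ α [])))
    (hR : ch.Rat α w0) (j : ℕ) :
    n * finrank F (WW F α ^ (2 * j + 1) : Submodule F Δ) ≤
      finrank (Lau C.F2) (WW (Lau C.F2) (ch.ψ α) ^ (j + 1) : Submodule (Lau C.F2) (Lau C.E)) := by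
  have hi : w0⁻¹ ∈ Kc F (α []) := inv_mem_subalg _ (H.hK H.hw)
  have hh : C.σ C.θ' - C.θ' ≠ 0 := fun h => by
    have := Nat.le_of_dvd one_pos (C.θne 1 (by rw [pow_one]; exact sub_eq_zero.mp h))
    have := H.hn
    omega
  have h1 : ∀ v ∈ V0 (WW F α) w0, C.lam (C.σ C.θ' - C.θ') * C.ι v ∈
      red (WW (Lau C.F2) (ch.ψ α)) := fun v hv =>
    H.mem_red_W hT hz (C.lam_ι_mem (Kc_le_Zc _ (V0_le H.hK H.hw hv)) _) fun t0 ht => by
      obtain ⟨u, hu⟩ := hR t0 ht v hv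
      rw [mul_assoc, C.T0_lam, C.τ_ι hT, ← hu, mul_comm, ← Algebra.smul_def, map_smul, map_sub,
        C.Tr_σ, sub_self, smul_zero]
  have h2 : ∀ x ∈ WW F α ^ (2 * j + 1), ∀ l,
      C.lam l * C.ι (w0⁻¹ ^ j * x) ∈ red (WW (Lau C.F2) (ch.ψ α) ^ (j + 1)) := by
    induction j with
    | zero =>
      intro x hx l
      rw [mul_zero, zero_add, pow_one] at hx
      rw [zero_add, pow_one, pow_zero, one_mul]
      exact H.lam_W hT hz l hx
    | succ j ih =>
      intro x hx l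
      rw [show 2 * (j + 1) + 1 = (2 * j + 1) + 2 by ring, pow_add, pow_two] at hx
      refine Submodule.mul_induction_on hx (fun y hy v hv => ?_) fun a b ha hb => ?_
      · have := red_mul (M := WW (Lau C.F2) (ch.ψ α) ^ (j + 1 + 1))
          (fun x hx y hy => by rw [pow_succ]; exact Submodule.mul_mem_mul hx hy)
          (ih y hy (l / (C.σ C.θ' - C.θ'))) (h1 _ ⟨v, hv, rfl⟩)
        rw [mul_assoc, ← mul_assoc (C.ι _), ← C.c1, mul_assoc, ← mul_assoc, ← map_mul,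
          ← map_mul, div_mul_cancel₀ _ hh, LinearMap.mulLeft_apply, mul_assoc, ← mul_assoc y,
          Kc_comm (pow_le_K H.hK _ hy) hi, mul_assoc, ← mul_assoc, ← pow_succ] at this
        exact this
      · rw [mul_add, map_add, mul_add]; exact add_mem ha hb
  rw [← finrank_map_mul (pow_ne_zero j (inv_ne_zero H.ne))]
  refine (C.lb_one hT _ _ ?_).trans (finrank_red _).le
  rintro l _ ⟨x, hx, rfl⟩
  exact h2 x hx l

theorem Lead.red_le_NN (H : ch.Lead α w0 a B) (hT : IsTr T) (hR : ch.Rat α w0) :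
    red (ch.AA α) ≤ C.NN (α []) (WW F α) (V0 (WW F α) w0) := fun t0 ht =>
  ⟨H.red_Z (red_mono (U := ch.AA α) (fun _ h => h.1) ht), fun _ hw => H.master1 hT ht hw,
    hR t0 ht⟩

theorem Lead.W_lower (H : ch.Lead α w0 a B) (hT : IsTr T)
    (hz : n * finrank F (Zc F (α [])) ≤ finrank (Lau C.F2) (Zc (Lau C.F2) (ch.ψ α [])))
    (hR : ch.Rat α w0) : n * finrank F (V0 (WW F α) w0) + finrank F (WW F α) ≤
      finrank (Lau C.F2) (WW (Lau C.F2) (ch.ψ α)) + finrank F (V0 (WW F α) w0) := by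
  have h1 := C.finrank_NN hT (α []) (le_V0 H.hw H.ne)
    ((V0_le H.hK H.hw).trans fun _ h => Kc_le_Zc _ h)
  have h2 := Submodule.finrank_mono (H.red_le_NN hT hR)
  have h3 := finrank_perp (C.isTr hT).lau _ (WW_le (ch.ψ α))
  rw [finrank_red, AA] at h2
  omega

theorem Lead.red_eq_NN (H : ch.Lead α w0 a B) (hT : IsTr T)
    (hz : n * finrank F (Zc F (α [])) ≤ finrank (Lau C.F2) (Zc (Lau C.F2) (ch.ψ α [])))
    (hR : ch.Rat α w0) (h : finrank (Lau C.F2) (WW (Lau C.F2) (ch.ψ α)) +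
      finrank F (V0 (WW F α) w0) ≤ n * finrank F (V0 (WW F α) w0) + finrank F (WW F α)) :
    red (ch.AA α) = C.NN (α []) (WW F α) (V0 (WW F α) w0) := by
  refine Submodule.eq_of_le_of_finrank_le (H.red_le_NN hT hR) ?_
  have h1 := C.finrank_NN hT (α []) (le_V0 H.hw H.ne)
    ((V0_le H.hK H.hw).trans fun _ h => Kc_le_Zc _ h)
  have h3 := finrank_perp (C.isTr hT).lau _ (WW_le (ch.ψ α))
  rw [finrank_red, AA]
  omega

end Child

end Vale.Agent.P199
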