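import Vale.Agent.P199.Lau

/-! Reduction of subspaces of Laurent series. -/

namespace Vale.Agent.P199

open Finset Module

set_option linter.unusedSectionVars false

namespace Lau

variable {F A : Type} [Field F] [Ring A] [Algebra F A]

theorem mono_ne {k : ℤ} {a : A} (h : a ≠ 0) : mono k a ≠ 0 := fun h0 => h (by
  have := congrArg (co · k) h0
  simpa [co_mono_self] using this)

theorem shift_O {j k : ℤ} {x : Lau A} (hx : x ∈ O A j) : (mono k (1 : F)) • x ∈ O A (k + j) :=
  O_smul (mono_O _ _) hx le_rfl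

theorem co_shift (k : ℤ) (x : Lau A) (n : ℤ) : co ((mono k (1 : F)) • x) n = co x (n - k) := by
  rw [co_mono_smul, one_smul]

theorem exists_norm (F : Type) [Field F] [Algebra F A] {x : Lau A} (hx : x ≠ 0) :
    ∃ c : Lau F, c ≠ 0 ∧ c • x ∈ O A 0 ∧ co (c • x) 0 ≠ 0 := by
  obtain ⟨j, hj, hj'⟩ := exists_lead hx
  refine ⟨mono (-j) 1, mono_ne one_ne_zero, by simpa using shift_O (F := F) (k := -j) hj, ?_⟩
  rw [co_shift]; simpa using hj'

theorem exists_lead_fin {ι : Type} [Finite ι] {g : ι → Lau A} (hg : ∃ i, g i ≠ 0) :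
    ∃ j, (∀ i, g i ∈ O A j) ∧ ∃ i, co (g i) j ≠ 0 := by
  obtain ⟨b, hb⟩ := exists_O_fin g
  obtain ⟨i, hi⟩ := hg
  obtain ⟨j, -, hj⟩ := exists_lead hi
  obtain ⟨l, hl, hl'⟩ := Int.exists_least_of_bdd (P := fun k => ∃ i, co (g i) k ≠ 0)
    ⟨b, fun k ⟨i, hi⟩ => not_lt.mp fun hc => hi (hb i k hc)⟩ ⟨j, i, hj⟩
  refine ⟨l, fun i k hk => ?_, hl⟩
  by_contra hc
  exact absurd (hl' k ⟨i, hc⟩) (not_le.mpr hk)

theorem indep_of_red {ι κ : Type} [Fintype ι] (x : ι → κ → Lau A) (hO : ∀ i k, x i k ∈ O A 0)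
    (h : LinearIndependent F fun i k => co (x i k) 0) : LinearIndependent (Lau F) x := by
  rw [Fintype.linearIndependent_iff] at h ⊢
  intro g hg
  by_contra hc
  obtain ⟨j, hj, i, hi⟩ := exists_lead_fin (not_forall.mp hc)
  refine hi (h (fun i => co (g i) j) (funext fun k => ?_) i)
  have := congrArg (fun y => co (y k) j) hg
  simp only [Finset.sum_apply, Pi.smul_apply, co_sum, Pi.zero_apply, co_zero] at this ⊢
  rw [← this]
  exact sum_congr rfl fun i _ => (co_smul_lead (hj i) (hO i k) (by simp)).symm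

theorem indep_of_red' {ι : Type} [Fintype ι] (x : ι → Lau A) (hO : ∀ i, x i ∈ O A 0)
    (h : LinearIndependent F fun i => co (x i) 0) : LinearIndependent (Lau F) x := by
  rw [Fintype.linearIndependent_iff] at h ⊢
  intro g hg
  by_contra hc
  obtain ⟨j, hj, i, hi⟩ := exists_lead_fin (not_forall.mp hc)
  refine hi (h (fun i => co (g i) j) ?_ i)
  have := congrArg (fun y => co y j) hg
  simp only [co_sum, co_zero] at this
  rw [← this]
  exact sum_congr rfl fun i _ => (co_smul_lead (hj i) (hO i) (by simp)).symm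

/-- reduction of a subspace -/
def red (V : Submodule (Lau F) (Lau A)) : Submodule F A where
  carrier := {a | ∃ x ∈ V, x ∈ O A 0 ∧ co x 0 = a}
  add_mem' := by
    rintro _ _ ⟨x, hx, hx', rfl⟩ ⟨y, hy, hy', rfl⟩
    exact ⟨x + y, add_mem hx hy, add_mem hx' hy', co_add _ _ _⟩
  zero_mem' := ⟨0, zero_mem _, zero_mem _, rfl⟩
  smul_mem' := by
    rintro c _ ⟨x, hx, hx', rfl⟩
    exact ⟨mono 0 c • x, V.smul_mem _ hx, O_smul (mono_O _ _) hx' (by simp),
      by rw [co_mono_smul]; simp⟩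

theorem mem_red {V : Submodule (Lau F) (Lau A)} {a : A} :
    a ∈ red V ↔ ∃ x ∈ V, x ∈ O A 0 ∧ co x 0 = a := Iff.rfl

theorem red_mono {U V : Submodule (Lau F) (Lau A)} (h : U ≤ V) : red U ≤ red V := by
  rintro _ ⟨x, hx, hx', rfl⟩
  exact ⟨x, h hx, hx', rfl⟩

theorem red_mul {U V M : Submodule (Lau F) (Lau A)} (h : ∀ x ∈ U, ∀ y ∈ V, x * y ∈ M) {a b : A}
    (ha : a ∈ red U) (hb : b ∈ red V) : a * b ∈ red M := by
  obtain ⟨x, hx, hx', rfl⟩ := ha
  obtain ⟨y, hy, hy', rfl⟩ := hb
  exact ⟨x * y, h x hx y hy, O_mul' hx' hy' (by simp), co_lead hx' hy' (by simp)⟩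

/-- reduction of a subalgebra -/
noncomputable def redA (K : Subalgebra (Lau F) (Lau A)) : Subalgebra F A :=
  (red K.toSubmodule).toSubalgebra ⟨1, one_mem K, one_O, co_one_zero⟩
    fun _ _ ha hb => red_mul (fun _ hx _ hy => mul_mem (s := K) hx hy) ha hb

theorem mem_redA {K : Subalgebra (Lau F) (Lau A)} {a : A} :
    a ∈ redA K ↔ a ∈ red K.toSubmodule := Iff.rfl

/-- series with coefficients in a subspace -/
def LP (P : Submodule F A) : Submodule (Lau F) (Lau A) where
  carrier := {x | ∀ k, co x k ∈ P}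
  add_mem' ha hb k := by rw [co_add]; exact add_mem (ha k) (hb k)
  zero_mem' _ := zero_mem _
  smul_mem' c x hx k := by
    obtain ⟨i, hi⟩ := exists_O c
    obtain ⟨j, hj⟩ := exists_O x
    rw [co_smul hi hj]
    exact sum_mem fun _ _ => P.smul_mem _ (hx _)

theorem mem_LP {P : Submodule F A} {x : Lau A} : x ∈ LP P ↔ ∀ k, co x k ∈ P := Iff.rfl

theorem mono_LP {P : Submodule F A} (k : ℤ) {a : A} (ha : a ∈ P) : mono k a ∈ LP P := fun n => by
  rw [co_mono]; split_ifs
  · exact ha
  · exact zero_mem _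

theorem red_LP (P : Submodule F A) : red (LP P) = P := by
  ext a
  constructor
  · rintro ⟨x, hx, -, rfl⟩; exact hx 0
  · intro ha; exact ⟨C a, mono_LP 0 ha, C_O a, co_C_zero a⟩

theorem mul_LP {P : Subalgebra F A} {x y : Lau A} (hx : x ∈ LP P.toSubmodule)
    (hy : y ∈ LP P.toSubmodule) : x * y ∈ LP P.toSubmodule := fun k => by
  obtain ⟨i, hi⟩ := exists_O x
  obtain ⟨j, hj⟩ := exists_O y
  rw [co_mul hi hj]
  exact sum_mem fun _ _ => mul_mem (s := P) (hx _) (hy _)

theorem D_LP {P : Submodule F A} {x : Lau A} (hx : x ∈ LP P) : D x ∈ LP P :=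
  fun k => by rw [co_D]; exact zsmul_mem (hx k) k

theorem closed_LP (P : Submodule F A) (y : Lau A)
    (h : ∀ N : ℕ, ∃ x ∈ (LP P).toAddSubgroup, y - x ∈ (filt A).J N) : y ∈ (LP P).toAddSubgroup := by
  intro k
  obtain ⟨x, hx, hx'⟩ := h (k + 1).toNat
  have := hx' k (by omega)
  rw [co_sub, sub_eq_zero] at this
  rw [this]; exact hx k

variable [FiniteDimensional F A]

instance : FiniteDimensional (Lau F) (Lau A) := by
  let b := Module.finBasis F A
  refine FiniteDimensional.of_injective (LinearMap.pi fun i => mapF (b.coord i)) ?_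
  rw [← LinearMap.ker_eq_bot, eq_bot_iff]
  intro x hx
  refine ext fun k => b.forall_coord_eq_zero_iff.mp fun i => ?_
  exact congrArg (co · k) (congrFun hx i)

theorem finrank_red (V : Submodule (Lau F) (Lau A)) : finrank F (red V) = finrank (Lau F) V := by
  let b := Module.finBasis F (red V)
  apply le_antisymm
  · choose x hx hx' hx'' using fun i => (b i).2
    have h := indep_of_red' x hx' (F := F) (by
      have := b.linearIndependent.map' (red V).subtype (Submodule.ker_subtype _)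
      have e : (fun i => co (x i) 0) = (red V).subtype ∘ b := funext hx''
      rwa [e])
    simpa using card_le_finrank_of_mem h V hx
  · obtain ⟨g, hg⟩ := (red V).subtype.exists_leftInverse_of_injective (Submodule.ker_subtype _)
    have := finrank_le_of_inj (LinearMap.pi fun i => mapF (b.coord i ∘ₗ g)) V ⊤
      (fun _ _ => trivial) (fun x hx h0 => by
        by_contra hc
        obtain ⟨c, -, hc1, hc2⟩ := exists_norm F hc
        let y : red V := ⟨co (c • x) 0, c • x, V.smul_mem c hx, hc1, rfl⟩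
        have hy : y = 0 := b.forall_coord_eq_zero_iff.mp fun i => by
          have h1 : mapF (b.coord i ∘ₗ g) (c • x) = 0 := by
            rw [map_smul, show mapF (b.coord i ∘ₗ g) x = 0 from congrFun h0 i, smul_zero]
          have h2 : b.coord i (g (co (c • x) 0)) = 0 := congrArg (co · 0) h1
          have h3 : g (co (c • x) 0) = y := LinearMap.congr_fun hg y
          rwa [h3] at h2
        exact hc2 (congrArg Subtype.val hy))
    simpa using this

theorem finrank_LP (P : Submodule F A) : finrank (Lau F) (LP P) = finrank F P := by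
  rw [← finrank_red, red_LP]

theorem finrank_lau : finrank (Lau F) (Lau A) = finrank F A := by
  have : LP (⊤ : Submodule F A) = ⊤ := eq_top_iff.mpr fun _ _ _ => trivial
  rw [← finrank_top, ← this, finrank_LP, finrank_top]

theorem exists_red_notMem {V : Submodule (Lau F) (Lau A)} {t : Lau A} (ht : t ∉ V) :
    ∃ c : Lau F, c ≠ 0 ∧ ∃ a ∈ V, c • t + a ∈ O A 0 ∧ co (c • t + a) 0 ∉ red V := by
  have h1 := Submodule.finrank_sup_span_singleton ht
  rw [← finrank_red, ← finrank_red] at h1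
  have h2 : ¬ red (V ⊔ Submodule.span (Lau F) {t}) ≤ red V := fun h => by
    have := Submodule.finrank_mono h
    omega
  obtain ⟨_, ⟨x, hx, hx', rfl⟩, h3⟩ := SetLike.not_le_iff_exists.mp h2
  obtain ⟨a, ha, y, hy, rfl⟩ := Submodule.mem_sup.mp hx
  obtain ⟨c, rfl⟩ := Submodule.mem_span_singleton.mp hy
  refine ⟨c, ?_, a, ha, by rwa [add_comm], by rwa [add_comm]⟩
  rintro rfl
  exact h3 ⟨_, by simpa using ha, hx', rfl⟩

theorem exists_span (V : Submodule (Lau F) (Lau A)) :
    ∃ (N : ℕ) (e : Fin N → Lau A) (sec : Lau A →ₗ[Lau F] Fin N → Lau F),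
      (∀ b, e b ∈ V ∧ e b ∈ O A 0) ∧ ∀ x ∈ V, ∑ b, sec x b • e b = x := by
  let b := Module.finBasis (Lau F) V
  obtain ⟨j, hj⟩ := exists_O_fin fun i => (b i : Lau A)
  obtain ⟨g, hg⟩ := V.subtype.exists_leftInverse_of_injective (Submodule.ker_subtype _)
  refine ⟨_, fun i => mono (-j) (1 : F) • (b i : Lau A),
    (mono j (1 : F)) • (b.equivFun.toLinearMap ∘ₗ g),
    fun i => ⟨V.smul_mem _ (b i).2, by simpa using shift_O (F := F) (k := -j) (hj i)⟩,
    fun x hx => ?_⟩
  have h1 : g x = ⟨x, hx⟩ := LinearMap.congr_fun hg ⟨x, hx⟩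
  have h2 := congrArg Subtype.val (b.sum_equivFun ⟨x, hx⟩)
  simp only [LinearMap.smul_apply, LinearMap.comp_apply, h1, Pi.smul_apply, smul_eq_mul, smul_smul,
    LinearEquiv.coe_coe]
  rw [Submodule.coe_sum] at h2
  refine Eq.trans (sum_congr rfl fun i _ => ?_) h2
  rw [mul_right_comm, mono_mul, add_neg_cancel, mul_one, ← one_eq, one_mul, Submodule.coe_smul]

end Lau

theorem IsTr.lau {F A : Type} [Field F] [DivisionRing A] [Algebra F A] {T : A →ₗ[F] F}
    (hT : IsTr T) : IsTr (Lau.mapF T) where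
  comm x y := by
    ext n
    obtain ⟨i, hi⟩ := Lau.exists_O x
    obtain ⟨j, hj⟩ := Lau.exists_O y
    rw [Lau.co_mapF, Lau.co_mapF, Lau.co_mul hi hj, Lau.co_mul hj hi,
      Lau.sum_Icc_rev i j n fun a b => Lau.co x a * Lau.co y b, map_sum, map_sum]
    exact sum_congr rfl fun _ _ => hT.comm _ _
  one h := hT.one (by simpa using congrArg (Lau.co · 0) h)

end Vale.Agent.P199
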