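import Vale.Agent.P199.LR

/-! Order by order construction of a formal family, and infinite dimensionality. -/

namespace Vale.Agent.P199

open Finset Module Polynomial

set_option linter.unusedSectionVars false

variable {F Δ : Type} [Field F] [CharZero F] [DivisionRing Δ] [Algebra F Δ]
  [FiniteDimensional F Δ] {I J : Type} [Fintype I] [Fintype J]

theorem step_H {α : NC I Δ} {t : List J → I → F} {e : NC I Δ →+* NC J Δ} (he : IsFam t e) {m : ℕ}
    (hm : 0 < m) (hv : NC.Van m (e (ft F α)))
    (hW : ∀ w : List J, w.length = m → (pd F (α []))⁻¹ * e (ft F α) w ∈ WW F α) :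
    ∃ (t' : List J → I → F) (e' : NC I Δ →+* NC J Δ), IsFam t' e' ∧
      (∀ w : List J, w.length ≠ m → t' w = t w) ∧ NC.Van (m + 1) (e' (ft F α)) := by
  choose! h hh using hW
  have ht : ∀ w : List J, w.length ≠ m → (if w.length = m then t w - h w else t w) = t w :=
    fun w hw => if_neg hw
  obtain ⟨e', he'⟩ := exists_fam (Δ := Δ) (fun w => if w.length = m then t w - h w else t w)
    ((ht [] hm.ne).trans he.1)
  refine ⟨_, e', he', ht, fun w hw => ?_⟩
  rcases eq_or_lt_of_le (Nat.lt_succ_iff.mp hw) with h1 | h1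
  · rw [he.lin_diff he' fun u hu => ht u (by omega), if_pos h1, sub_sub_cancel_left, map_neg,
      lin_ft, hh w h1, mul_inv_cancel_left₀ (pd_ne _), add_neg_cancel]
  · have := he.van he' (fun u hu => ht u hu.ne) (ft F α) w h1
    rwa [NC.sub_apply, hv w h1, sub_zero] at this

theorem telescope (y : ℕ → Δ) (m : ℕ) : ∑ k ∈ range m, (k : F) • y k - ∑ k ∈ range m, (k : F) • y (k + 1)
    = ∑ k ∈ range m, y k - y 0 - (m : F) • y m + y m := by
  induction m with
  | zero => simp
  | succ m ih =>
    rw [sum_range_succ, sum_range_succ, sum_range_succ, add_sub_add_comm, ih, Nat.cast_succ,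
      add_smul, one_smul]
    abel

theorem step_K {α : NC I Δ} {w0 : Δ} (hY : YT F α w0) {G : ℕ} {v : Fin G → I → F}
    (hv : ∀ i, v i ∈ LinearMap.ker (ell F α))
    (hs : ∀ a : Fin G → Δ, (∀ i, a i ∈ V0 (WW F α) w0) → ∃ s ∈ LinearMap.ker (ell F α),
      ∀ i, bet F α (v i) s - a i ∈ WW F α)
    {t : List (Fin G) → I → F} {e : NC I Δ →+* NC (Fin G) Δ} (he : IsFam t e)
    (ht1 : ∀ l, t [l] = v l) {r : ℕ} (hr : 2 ≤ r) (hvan : NC.Van (r + 1) (e (ft F α))) :
    ∃ (t' : List (Fin G) → I → F) (e' : NC I Δ →+* NC (Fin G) Δ), IsFam t' e' ∧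
      (∀ w : List (Fin G), w.length ≠ r → t' w = t w) ∧ NC.Van (r + 1) (e' (ft F α)) ∧
      ∀ w : List (Fin G), w.length = r + 1 → (pd F (α []))⁻¹ * e' (ft F α) w ∈ WW F α := by
  let o : List (Fin G) → Δ := fun w => (pd F (α []))⁻¹ * e (ft F α) w
  let a : List (Fin G) → Δ := fun w =>
    -((r + 1 : ℕ) : F)⁻¹ • ∑ k ∈ range (r + 1), (k : F) • o (w.rotate (k + 1))
  have hY' := fun (w : List (Fin G)) (hw : w.length = r + 1) =>
    hY G t e he w (by omega) (hw ▸ hvan)
  have ha : ∀ u : List (Fin G), u.length = r → ∃ s ∈ LinearMap.ker (ell F α),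
      ∀ l, bet F α (v l) s - a (l :: u) ∈ WW F α := fun u hu =>
    hs _ fun l => Submodule.smul_mem _ _ (sum_mem fun k _ =>
      Submodule.smul_mem _ _ (hY' _ (by simp [hu])).1)
  choose! s hs1 hs2 using ha
  have ht : ∀ w : List (Fin G), w.length ≠ r → (if w.length = r then t w + s w else t w) = t w :=
    fun w hw => if_neg hw
  obtain ⟨e', he'⟩ := exists_fam (Δ := Δ) (fun w => if w.length = r then t w + s w else t w)
    ((ht [] (by simp; omega)).trans he.1)
  refine ⟨_, e', he', ht, fun w hw => ?_, fun w hw => ?_⟩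
  · rcases eq_or_lt_of_le (Nat.lt_succ_iff.mp hw) with h1 | h1
    · rw [he.lin_diff he' fun u hu => ht u (by omega), if_pos h1, add_sub_cancel_left,
        lin_ft, show ell F α (s w) = 0 from hs1 w h1, hvan w hw, mul_zero, add_zero]
    · have := he.van he' (fun u hu => ht u hu.ne) (ft F α) w h1
      rwa [NC.sub_apply, hvan w hw, sub_zero] at this
  · obtain ⟨v1, l', h1⟩ := (List.eq_nil_or_concat w).resolve_left (by rintro rfl; simp at hw)
    rw [List.concat_eq_append] at h1
    obtain ⟨l, v2, h2⟩ := List.exists_cons_of_length_eq_add_one hw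
    have l1 : v1.length = r := by simpa [h1] using hw
    have l2 : v2.length = r := by simpa [h2] using hw
    have key := he.quad_diff he' (h1.symm.trans h2) (by omega) (l1 ▸ ht) (ft F α)
    simp only [if_pos l1, if_pos l2, add_sub_cancel_left, ht1, ← h2] at key
    rw [key, mul_add, mul_add, ← bet_apply, ← bet_apply]
    have k1 := (hY.bet_mem (hs1 v1 l1) (hv l')).2
    have k2 := hs2 v1 l1 l'
    have k3 := hs2 v2 l2 l
    have k4 := (hY' w hw).2
    have k5 := telescope (F := F) (fun k => o (w.rotate k)) (r + 1)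
    have k6 : o (w.rotate (r + 1)) = o w := by rw [← hw, List.rotate_length]
    have k7 : a (l' :: v1) = -((r + 1 : ℕ) : F)⁻¹ • ∑ k ∈ range (r + 1), (k : F) • o (w.rotate k) := by
      simp only [a, List.rotate_cons_succ, h1]
    have hne : ((r + 1 : ℕ) : F) ≠ 0 := Nat.cast_ne_zero.mpr (by omega)
    rw [← h2] at k3
    rw [hw] at k4
    have k8 : o w - a (l' :: v1) + a w =
        ((r + 1 : ℕ) : F)⁻¹ • ∑ k ∈ range (r + 1), o (w.rotate k) := by
      rw [k6, List.rotate_zero, sub_eq_iff_eq_add] at k5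
      rw [k7, k5]
      simp only [a, neg_smul, smul_add, smul_sub, inv_smul_smul₀ hne]
      abel
    have := add_mem (add_mem (sub_mem k1 k2) k3) (k8 ▸ Submodule.smul_mem _ _ k4)
    refine (congrArg (· ∈ WW F α) ?_).mp this
    simp only [o]
    abel

theorem exists_solution {α : NC I Δ} {w0 : Δ} (hY : YT F α w0) {G : ℕ} {v : Fin G → I → F}
    (hv : ∀ i, v i ∈ LinearMap.ker (ell F α)) (hiso : ∀ i j, bet F α (v i) (v j) ∈ WW F α)
    (hs : ∀ a : Fin G → Δ, (∀ i, a i ∈ V0 (WW F α) w0) → ∃ s ∈ LinearMap.ker (ell F α),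
      ∀ i, bet F α (v i) s - a i ∈ WW F α) :
    ∃ (t : List (Fin G) → I → F) (e : NC I Δ →+* NC (Fin G) Δ), IsFam t e ∧ (∀ l, t [l] = v l) ∧
      e (ft F α) = 0 := by
  let X : ℕ → Type := fun k => {t : List (Fin G) → I → F // ∃ e : NC I Δ →+* NC (Fin G) Δ,
    IsFam t e ∧ (∀ l, t [l] = v l) ∧ NC.Van (k + 3) (e (ft F α))}
  have h0 : Nonempty (X 0) := by
    obtain ⟨e, he⟩ := exists_fam (Δ := Δ) (linFam v) rfl
    obtain ⟨t', e', he', h1, h2⟩ := step_H he two_pos (linFam_van hv he) fun w hw => by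
      obtain ⟨l, l', rfl⟩ := List.length_eq_two.mp hw
      rw [linFam_two he]; exact hiso l l'
    exact ⟨⟨t', e', he', fun l => h1 [l] (by simp), h2⟩⟩
  have hstep : ∀ k (x : X k), ∃ y : X (k + 1), ∀ w : List (Fin G), w.length ≤ k → y.1 w = x.1 w := by
    rintro k ⟨t, e, he, h1, h2⟩
    obtain ⟨t', e', he', h3, h4, h5⟩ := step_K hY hv hs he h1 (r := k + 2) (by omega) h2
    obtain ⟨t'', e'', he'', h6, h7⟩ := step_H he' (by omega) h4 h5
    exact ⟨⟨t'', e'', he'', fun l => by rw [h6 _ (by simp), h3 _ (by simp), h1], h7⟩,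
      fun w hw => (h6 w (by omega)).trans (h3 w (by omega))⟩
  choose nx hnx using hstep
  let s : ∀ k, X k := fun k => Nat.rec h0.some nx k
  have hs' : ∀ (w : List (Fin G)) k, w.length ≤ k → (s k).1 w = (s w.length).1 w := by
    intro w k hk
    induction k, hk using Nat.le_induction with
    | base => rfl
    | succ k hk ih => exact (hnx k (s k) w hk).trans ih
  obtain ⟨e, he⟩ := exists_fam (Δ := Δ) (fun w => (s w.length).1 w) (s 0).2.choose_spec.1.1
  refine ⟨_, e, he, fun l => (s 1).2.choose_spec.2.1 l, NC.ext fun w => ?_⟩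
  obtain ⟨e', he', -, h2⟩ := (s w.length).2
  have := he'.van he (r := w.length + 1) (fun u hu => (hs' u _ (by omega)).symm) (ft F α) w
    (by omega)
  rwa [NC.sub_apply, h2 w (by omega), sub_zero] at this

theorem chi_of_fam {g : Fin 2 → NC I Δ} {α : NC I Δ} (hα : α ∈ Algebra.adjoin F (Set.range g))
    {G : ℕ} {v : Fin G → I → F} {t : List (Fin G) → I → F} {e : NC I Δ →+* NC (Fin G) Δ}
    (he : IsFam t e) (ht : ∀ l, t [l] = v l) (hG : finrank F (Zc F (α [])) < G)
    (hr : finrank F (Inn F g ⊔ Submodule.span F (Set.range fun i => Phi F g (v i)) :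
        Submodule F (Fin 2 → Δ)) = finrank F (Inn F g) + G) : Chi F (fun κ => e (g κ)) 1 := by
  classical
  have h1 : Inn F (fun κ => e (g κ)) = Inn F g := by simp only [Inn, he.nil]
  have h2 : Inn F g ⊔ Submodule.span F (Set.range fun i => Phi F g (v i)) ≤
      LinearMap.range (Phi F fun κ => e (g κ)) ⊔ Inn F g := by
    refine sup_le le_sup_right (le_trans (Submodule.span_le.mpr ?_) le_sup_left)
    rintro _ ⟨i, rfl⟩
    refine ⟨Pi.single i 1, funext fun κ => ?_⟩
    simp [Phi, lin, he.one, ht, Fintype.linearCombination_apply_single]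
  have h3 := Submodule.finrank_mono h2
  have h4 := LinearMap.finrank_range_add_finrank_ker (LinearMap.pi fun κ => ad F (g κ []))
  have h5 : finrank F (LinearMap.ker (LinearMap.pi fun κ => ad F (g κ []))) ≤
      finrank F (Zc F (α [])).toSubmodule := by
    refine Submodule.finrank_mono fun z hz => (mem_Zc (F := F)).mpr ?_
    have : α [] ∈ Algebra.adjoin F ((NC.c0 : NC I Δ →+* Δ) '' Set.range g) :=
      map_mem_adjoin (RingHom.id F) NC.c0 (fun _ => rfl) hα
    refine (Algebra.commute_of_mem_adjoin_of_forall_mem_commute this ?_).symm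
    rintro _ ⟨_, ⟨κ, rfl⟩, rfl⟩
    exact sub_eq_zero.mp (congrFun hz κ)
  have e1 : finrank F (Zc F (α [])) = finrank F (Zc F (α [])).toSubmodule := rfl
  rw [Chi, h1]
  rw [← Inn] at h4
  omega

theorem not_finite_of_chi {g : Fin 2 → NC I Δ} (hχ : Chi F g 1) :
    ¬ FiniteDimensional F (Algebra.adjoin F (Set.range g)) := by
  classical
  intro hfd
  set A := Algebra.adjoin F (Set.range g) with hA
  let _ : DivisionRing A := divisionRingOfFiniteDimensional F A
  let T : A →ₗ[F] F := LinearMap.trace F A ∘ₗ (Algebra.lmul F A).toLinearMap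
  have hT : IsTr T := ⟨fun x y => by
      simp only [T, LinearMap.comp_apply, AlgHom.toLinearMap_apply, map_mul]
      exact LinearMap.trace_mul_comm F _ _, by
      simp only [T, LinearMap.comp_apply, AlgHom.toLinearMap_apply, map_one, LinearMap.trace_one]
      exact Nat.cast_ne_zero.mpr Module.finrank_pos.ne'⟩
  let b := Module.finBasis F A
  choose d hd using fun i => hT.exists_dual (b.coord i)
  have hb : ∀ x : A, ∑ i, T (d i * x) • b i = x := fun x => by
    simp only [← hd]; exact b.sum_repr x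
  have hd' : ∀ x : A, ∑ i, T (x * b i) • d i = x := fun x => by
    refine sub_eq_zero.mp (hT.nd (Z := ⊤) trivial fun y _ => ?_)
    have e1 : T (x * y) = ∑ i, T (d i * y) * T (x * b i) := by
      conv_lhs => rw [← hb y]
      simp only [mul_sum, map_sum, mul_smul_comm, map_smul, smul_eq_mul]
    rw [sub_mul, map_sub, e1]
    simp only [sum_mul, map_sum, smul_mul_assoc, map_smul, smul_eq_mul, mul_comm, sub_self]
  have cas : ∀ {M : Type} [AddCommGroup M] [Module F M] (B : A →ₗ[F] A →ₗ[F] M) (a : A),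
      ∑ i, B (a * b i) (d i) = ∑ i, B (b i) (d i * a) := by
    intro M _ _ B a
    calc ∑ i, B (a * b i) (d i) = ∑ i, ∑ j, T (d j * (a * b i)) • B (b j) (d i) := by
          refine sum_congr rfl fun i _ => ?_
          conv_lhs => rw [← hb (a * b i)]
          simp only [map_sum, map_smul, LinearMap.sum_apply, LinearMap.smul_apply]
      _ = _ := by
          rw [sum_comm]
          refine sum_congr rfl fun j _ => ?_
          conv_rhs => rw [← hd' (d j * a)]
          simp only [map_sum, map_smul, mul_assoc]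
  let ρ : A →ₐ[F] Δ := (NC.c0a : NC I Δ →ₐ[F] Δ).comp A.val
  set ω : A := ∑ i, b i * d i with hω
  have hω0 : ρ ω ≠ 0 := by
    refine (_root_.map_ne_zero ρ).mpr fun h => ?_
    have := congrArg T h
    simp only [hω, map_sum, hT.comm (b _), ← hd, Basis.coord_apply, Basis.repr_self,
      Finsupp.single_eq_same, sum_const, card_univ, Fintype.card_fin, map_zero, nsmul_eq_mul,
      mul_one] at this
    exact Nat.cast_ne_zero.mpr Module.finrank_pos.ne' this
  have hωc : ∀ a, a * ω = ω * a := fun a => by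
    simpa only [hω, mul_sum, sum_mul, LinearMap.mul_apply', mul_assoc] using
      cas (LinearMap.mul F A) a
  have key : LinearMap.range (Phi F g) ≤ Inn F g := by
    rintro _ ⟨h, rfl⟩
    let δ : A →ₗ[F] Δ :=
      { toFun := fun a => lin F (a : NC I Δ) h
        map_add' := fun a b => lin_add _ _ h
        map_smul' := fun a b => lin_smul _ _ h }
    refine ⟨(∑ i, δ (b i) * ρ (d i)) * (ρ ω)⁻¹, funext fun κ => ?_⟩
    let a : A := ⟨g κ, Algebra.subset_adjoin ⟨κ, rfl⟩⟩
    have h1 := cas ((LinearMap.mul F Δ).compl₁₂ δ ρ.toLinearMap) a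
    have h2 : ∀ x, δ (a * x) = δ a * ρ x + ρ a * δ x := fun x => lin_mul _ _ h
    simp only [LinearMap.compl₁₂_apply, LinearMap.mul_apply', AlgHom.toLinearMap_apply, h2,
      map_mul, add_mul, sum_add_distrib, mul_assoc, ← mul_sum] at h1
    simp only [← map_mul, ← map_sum, ← hω] at h1
    simp only [← mul_assoc, ← sum_mul, map_mul] at h1
    have h3 : ρ a * (ρ ω)⁻¹ = (ρ ω)⁻¹ * ρ a :=
      (Commute.inv_right₀ (show Commute (ρ a) (ρ ω) by
        rw [Commute, SemiconjBy, ← map_mul, hωc, map_mul])).eq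
    change _ * ρ a - ρ a * _ = δ a
    rw [mul_assoc, ← h3, ← mul_assoc, ← h1, ← mul_assoc, ← sub_mul, add_sub_cancel_right,
      mul_inv_cancel_right₀ hω0]
  have h6 : finrank F (Inn F g) ≤ finrank F Δ := LinearMap.finrank_range_le _
  rw [Chi, sup_eq_right.mpr key] at hχ
  omega

end Vale.Agent.P199
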