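import Vale.Agent.P199.Solve
import Vale.Agent.P199.CycEx

/-! The inductive step: any element can be made algebraic. -/

namespace Vale.Agent.P199

open Finset Module Polynomial Lau

/-- a series ring over a finite-dimensional division algebra, with two generators -/
structure Pre where
  F : Type
  Δ : Type
  I : Type
  [fF : Field F]
  [zF : CharZero F]
  [dΔ : DivisionRing Δ]
  [aΔ : Algebra F Δ]
  [fd : FiniteDimensional F Δ]
  [fI : Fintype I]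
  T : Δ →ₗ[F] F
  hT : IsTr T
  g : Fin 2 → NC I Δ

attribute [instance] Pre.fF Pre.zF Pre.dΔ Pre.aΔ Pre.fd Pre.fI

/-- a series ring with a chosen element -/
structure Setting extends Pre where
  α : NC I Δ
  hα : α ∈ Algebra.adjoin F (Set.range g)

namespace Setting

/-- reachability -/
def Reach (S S' : Setting) : Prop :=
  ∃ (φ : S.F →+* S'.F) (ψ : NC S.I S.Δ →+* NC S'.I S'.Δ),
    (∀ a, ψ (algebraMap _ _ a) = algebraMap _ _ (φ a)) ∧ (∀ κ, ψ (S.g κ) = S'.g κ) ∧ ψ S.α = S'.α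

theorem Reach.refl (S : Setting) : Reach S S :=
  ⟨RingHom.id _, RingHom.id _, fun _ => rfl, fun _ => rfl, rfl⟩

theorem Reach.trans {S S' S'' : Setting} (h : Reach S S') (h' : Reach S' S'') : Reach S S'' := by
  obtain ⟨φ, ψ, h1, h2, h3⟩ := h
  obtain ⟨φ', ψ', g1, g2, g3⟩ := h'
  exact ⟨φ'.comp φ, ψ'.comp ψ, fun a => by simp only [RingHom.comp_apply, h1, g1],
    fun κ => by simp only [RingHom.comp_apply, h2, g2], by simp only [RingHom.comp_apply, h3, g3]⟩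

variable (S : Setting) {n : ℕ} {J : Type} [Fintype J]

/-- the specialized setting -/
noncomputable def child {C : Cyc S.T n J} (ch : Child C S.I) : Setting where
  F := Lau C.F2
  Δ := Lau C.E
  I := S.I × Fin ch.N
  T := mapF C.T0
  hT := (C.isTr S.hT).lau
  g := fun κ => ch.ψ (S.g κ)
  α := ch.ψ S.α
  hα := by
    have := map_mem_adjoin C.φφ ch.ψ ch.ψ_algebraMap S.hα
    rwa [← Set.range_comp] at this

noncomputable def W : Submodule S.F S.Δ := WW S.F S.α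
noncomputable def z : ℕ := finrank S.F (Zc S.F (S.α []))
noncomputable def d : ℕ := finrank S.F (Kc S.F (S.α []))
noncomputable def w (k : ℕ) : ℕ := finrank S.F (S.W ^ k : Submodule S.F S.Δ)
noncomputable def d0 : ℕ := dz S.W

theorem z_pos : 0 < S.z := Module.finrank_pos
theorem d_pos : 0 < S.d := Module.finrank_pos
theorem d_dvd : S.d ∣ S.z :=
  finrank_dvd _ (Zc S.F (S.α [])).toSubmodule fun _ ha _ hb =>
    Subalgebra.mul_mem _ (Kc_le_Zc _ ha) hb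
theorem w_one : S.w 1 = finrank S.F (WW S.F S.α) := by rw [w, pow_one]; rfl
theorem w_le : finrank S.F (WW S.F S.α) ≤ S.d0 := S.w_one ▸ le_dz S.W 0
theorem w_le_z : finrank S.F (WW S.F S.α) ≤ S.z := Submodule.finrank_mono (WW_le S.α)

variable (S0 : Setting)

def C0 : Prop := Reach S0 S ∧ Chi S.F S.g 1 ∧ S.W ≠ ⊥
def T1 : Prop := C0 S S0 ∧ ∀ S', C0 S' S0 → S.z / S.d ≤ S'.z / S'.d
def T2 : Prop := T1 S S0 ∧ ∀ S', T1 S' S0 → S.d / S.d0 ≤ S'.d / S'.d0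
def T2g : Prop := T2 S S0 ∧ S.d0 ≤ S.w 2
def T3 : Prop := T2g S S0 ∧ ∀ S', T2g S' S0 → S.d0 - S.w 1 ≤ S'.d0 - S'.w 1

theorem exists_min {P : Setting → Prop} (f : Setting → ℕ) (h : ∃ S, P S) :
    ∃ S, P S ∧ ∀ S', P S' → f S ≤ f S' := by
  classical
  have h' : ∃ k, ∃ S, P S ∧ f S = k := h.elim fun S hS => ⟨_, S, hS, rfl⟩
  obtain ⟨S, hS, e⟩ := Nat.find_spec h'
  exact ⟨S, hS, fun S' hS' => e ▸ Nat.find_min' h' ⟨S', hS', rfl⟩⟩

variable {S S0}

theorem child_C0 (h1 : Reach S0 S) (h2 : Chi S.F S.g 1) {C : Cyc S.T n J} (ch : Child C S.I)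
    (h3 : WW (Lau C.F2) (ch.ψ S.α) ≠ ⊥) : C0 (S.child ch) S0 :=
  ⟨h1.trans ⟨C.φφ, ch.ψ, ch.ψ_algebraMap, fun _ => rfl, rfl⟩,
    le_trans (Nat.add_le_add_left (Nat.mul_pos C.npos C.npos) _) (ch.chi S.hT h2), h3⟩

theorem T1.good (h : T1 S S0) : WW S.F S.α ≤ (Kc S.F (S.α [])).toSubmodule := by
  intro w hw
  by_contra hK
  obtain ⟨C⟩ := exists_cyc S.T one_pos (Fin 0)
  obtain ⟨ch, h1, h2, h3⟩ := exists_good S.hT C S.α hw hK
  have h4 := h.2 _ (child_C0 h.1.1 h.1.2.1 ch h1)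
  have h5 := Nat.mul_div_cancel' S.d_dvd
  have h6 := Nat.mul_div_cancel' (S.child ch).d_dvd
  have h7 : (S.child ch).z ≤ S.z := h2
  have h8 : S.d < (S.child ch).d := h3
  have h9 := Nat.div_pos (Nat.le_of_dvd S.z_pos S.d_dvd) S.d_pos
  nlinarith

variable {C : Cyc S.T n J} {ch : Child C S.I} {w0 : S.Δ} {a : ℤ} {B : C.E}

theorem T1.diag (h : T1 S S0) (H : ch.Lead S.α w0 a B) :
    T1 (S.child ch) S0 ∧ (S.child ch).z = n * S.z ∧ (S.child ch).d = n * S.d := by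
  have h0 := child_C0 h.1.1 h.1.2.1 ch (H.W_ne S.hT)
  have h4 := h.2 _ h0
  have h5 := Nat.mul_div_cancel' S.d_dvd
  have h6 := Nat.mul_div_cancel' (S.child ch).d_dvd
  have h7 : (S.child ch).z ≤ n * S.z := H.finrank_Z S.hT
  have h8 : n * S.d ≤ (S.child ch).d := H.finrank_K S.hT
  have h9 := Nat.div_pos (Nat.le_of_dvd S.z_pos S.d_dvd) S.d_pos
  have h10 := (S.child ch).d_pos
  generalize S.z / S.d = r at *
  generalize hr' : (S.child ch).z / (S.child ch).d = r' at *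
  have e1 : (S.child ch).d = n * S.d := by nlinarith
  have e2 : r' = r := by nlinarith
  refine ⟨⟨h0, fun S' hS' => ?_⟩, by nlinarith, e1⟩
  have := h.2 S' hS'
  rw [hr', e2]
  rwa [← h5, Nat.mul_div_cancel_left _ S.d_pos] at this

theorem T1.hz (h : T1 S S0) (H : ch.Lead S.α w0 a B) : n * finrank S.F (Zc S.F (S.α [])) ≤
    finrank (Lau C.F2) (Zc (Lau C.F2) (ch.ψ S.α [])) := (h.diag H).2.1.ge

theorem T2.diag (h : T2 S S0) (H : ch.Lead S.α w0 a B) :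
    T2 (S.child ch) S0 ∧ (S.child ch).d0 = n * S.d0 := by
  obtain ⟨h0, -, h1⟩ := h.1.diag H
  have h4 := h.2 _ h0
  have d1 : S.d0 ∣ S.d := dz_dvd h.1.good h.1.1.2.2
  have d2 : (S.child ch).d0 ∣ (S.child ch).d := dz_dvd h0.good h0.1.2.2
  have h5 := Nat.mul_div_cancel' d1
  have h6 := Nat.mul_div_cancel' d2
  obtain ⟨k, hk⟩ := exists_dz S.W
  have h8 : n * S.d0 ≤ (S.child ch).d0 :=
    le_trans (le_of_eq (congrArg _ hk.symm)) ((H.pow_le S.hT (h.1.hz H) k).trans (le_dz _ k))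
  have p1 := Nat.pos_of_dvd_of_pos d1 S.d_pos
  have p2 := Nat.pos_of_dvd_of_pos d2 (S.child ch).d_pos
  have h9 := Nat.div_pos (Nat.le_of_dvd S.d_pos d1) p1
  generalize S.d / S.d0 = r at *
  generalize hr' : (S.child ch).d / (S.child ch).d0 = r' at *
  have e1 : (S.child ch).d0 = n * S.d0 := by nlinarith
  have e2 : r' = r := by nlinarith
  refine ⟨⟨h0, fun S' hS' => ?_⟩, e1⟩
  have := h.2 S' hS'
  rw [hr', e2]
  rwa [← h5, Nat.mul_div_cancel_left _ p1] at this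

theorem T2g.diag (h : T2g S S0) (H : ch.Lead S.α w0 a B) : T2g (S.child ch) S0 :=
  ⟨(h.1.diag H).1, (h.1.diag H).2.le.trans
    ((Nat.mul_le_mul_left n h.2).trans (H.pow_le S.hT (h.1.1.hz H) 1))⟩

theorem T1.xchild (h : T1 S S0) (hn : n.Prime) (hw : S.z < n) :
    ∃ (C : Cyc S.T n (Fin 0)) (ch : Child C S.I) (w0 : S.Δ) (B : C.E),
      ch.Lead S.α w0 2 B ∧ ch.Rat S.α w0 := by
  obtain ⟨C⟩ := exists_cyc S.T hn.pos (Fin 0)
  obtain ⟨w0, hw0, h0⟩ := (Submodule.ne_bot_iff _).mp h.1.2.2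
  obtain ⟨ch, H⟩ := exists_xchild C hn.one_lt S.α hw0 h0 h.good
    (fun j => (Module.finBasis S.F (WW S.F S.α) j).2) fun j => (j : ℕ) + 1
  have hlt : ∀ j : Fin (finrank S.F (WW S.F S.α)), (j : ℕ) + 1 < n := fun j => by
    have := j.2
    have := S.w_le_z
    omega
  exact ⟨C, ch, w0, _, H, H.rat_basis S.hT (fun i j h => Fin.ext (Nat.succ_injective h)) hlt
    fun j => (Nat.coprime_of_lt_prime (Nat.succ_ne_zero _) (hlt j) hn).symm⟩

theorem exists_T2g (h : ∃ S, C0 S S0) : ∃ S, T2g S S0 := by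
  obtain ⟨S, hS⟩ : ∃ S, T2 S S0 :=
    exists_min (fun S => S.d / S.d0) (exists_min (fun S => S.z / S.d) h)
  obtain ⟨k, hk⟩ : ∃ k, S.d0 ≤ S.w (k + 2) := by
    obtain ⟨k, hk⟩ := exists_dz S.W
    exact ⟨k, hk.ge.trans (finrank_pow_mono hS.1.1.2.2 (by omega))⟩
  induction k generalizing S with
  | zero => exact ⟨S, hS, hk⟩
  | succ k ih =>
    obtain ⟨n, hn, hp⟩ := Nat.exists_infinite_primes (S.z + 1)
    obtain ⟨C, ch, w0, B, H, hR⟩ := hS.1.xchild hp hn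
    refine ih _ (hS.diag H).1 ((hS.diag H).2.le.trans (le_trans (Nat.mul_le_mul_left n
      (hk.trans (finrank_pow_mono hS.1.1.2.2 (by omega)))) (H.pow_le2 S.hT (hS.1.hz H) hR (k + 1))))

theorem T3.yt (h : T3 S S0) (hbig : 2 * S.d0 ≤ 3 * S.w 1) {w0 : S.Δ} (hw : w0 ∈ WW S.F S.α)
    (h0 : w0 ≠ 0) : YT S.F S.α w0 := by
  intro G t e he w hw2 hv
  have hK := h.1.1.1.good
  obtain ⟨b, hb, hb'⟩ := exists_b hK hw h0 h.1.2 (S.w_one ▸ hbig)
  obtain ⟨C⟩ := exists_cyc S.T (by omega : 0 < w.length) (Fin G)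
  obtain ⟨ch, a, H, hY⟩ := exists_ychild S.hT C (by omega) S.α hw h0 hK hb he hv
  have h1 := h.2 _ (h.1.diag H)
  have h2 := (h.1.1.diag H).2
  have h3 := (S.child ch).w_le
  have h4 := S.w_le
  have h5 : finrank S.F (V0 (WW S.F S.α) w0) = S.d0 := finrank_V0 h0 h.1.2
  rw [w_one, w_one] at h1
  have h6 := H.red_eq_NN S.hT (h.1.1.1.hz H) (H.rat_one S.hT hb') (by
    change finrank (S.child ch).F (WW (S.child ch).F (S.child ch).α) + _ ≤ _
    rw [h5]; omega)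
  exact C.ytest S.hT (le_V0 hw h0) ((V0_le hK hw).trans fun _ h => Kc_le_Zc _ h)
    (fun w => (pd S.F (S.α []))⁻¹ * e (ft S.F S.α) w)
    (fun u hu => mul_mem (inv_mem_subalg _ (Kc_le_Zc _ (pd_mem _)))
      (he.lead_mem S.α (mem_words.mp hu ▸ hv))) (h6 ▸ hY) w rfl

/-- the setting obtained from a family of substitutions -/
noncomputable def fam (S : Setting) {G : ℕ} {t : List (Fin G) → S.I → S.F}
    {e : NC S.I S.Δ →+* NC (Fin G) S.Δ} (he : IsFam t e) : Setting where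
  F := S.F
  Δ := S.Δ
  I := Fin G
  T := S.T
  hT := S.hT
  g := fun κ => e (S.g κ)
  α := e S.α
  hα := by
    have := map_mem_adjoin (RingHom.id _) e he.map_algebraMap S.hα
    rwa [← Set.range_comp] at this

theorem num1 {n z W κ : ℕ} (hn : 2 * z + 2 * (z * κ) + 3 * κ + 2 ≤ n) (hW : W ≤ n * z) :
    2 * W + 2 * ((n * z + 1) * κ) + κ + n ≤ n * n := by
  have h1 := Nat.mul_le_mul_left n hn
  have h2 : κ ≤ n * κ := Nat.le_mul_of_pos_left κ (by omega)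
  nlinarith

theorem num2 {n z W κ : ℕ} (hn : 2 * z + 2 * (z * κ) + 3 * κ + 2 ≤ n) (hW : W ≤ n * z) :
    n * z + 1 + W + (n * z + 1) * κ ≤ n * n := by
  have h1 := Nat.mul_le_mul_left n hn
  have h2 : κ ≤ n * κ := Nat.le_mul_of_pos_left κ (by omega)
  nlinarith

theorem isIntegral_of {F R : Type} [CommRing F] [Ring R] [Algebra F R] {x : R} {p : F[X]}
    (hp : p.Monic) (h : aeval x p = 0) : IsIntegral F x := ⟨p, hp, h⟩

theorem final (hR : Reach S0 S) {w1 : S.Δ} (hw1 : w1 ∈ WW S.F S.α) (hne : w1 ≠ 0)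
    (hK : WW S.F S.α ≤ (Kc S.F (S.α [])).toSubmodule) (hY : YT S.F S.α w1)
    (hL : LRP S.T S.α w1 n) (hχ : Chi S.F S.g (n * n)) {κ z : ℕ}
    (h1 : finrank S.F (V0 (WW S.F S.α) w1) = finrank S.F (WW S.F S.α) + κ) (h2 : S.z = n * z)
    (hn : 2 * z + 2 * (z * κ) + 3 * κ + 2 ≤ n) :
    ∃ S, Reach S0 S ∧ Chi S.F S.g 1 ∧ IsIntegral S.F S.α := by
  have hW := h2 ▸ S.w_le_z
  obtain ⟨v, -, -, hv, hiso, -, -, hs, hr⟩ := exists_nd S.hT hw1 hne hK hY hL hχ h1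
    (num1 hn hW) (num2 hn hW) _ le_rfl
  obtain ⟨t, e, he, ht, hsol⟩ := exists_solution hY hv hiso hs
  have hint : IsIntegral S.F (e S.α) :=
    isIntegral_of (minpoly.monic (Algebra.IsIntegral.isIntegral (S.α [])))
      ((he.map_aeval _ _).symm.trans hsol)
  exact ⟨S.fam he, hR.trans ⟨RingHom.id _, e, he.map_algebraMap, fun _ => rfl, rfl⟩,
    chi_of_fam S.hα he ht (lt_of_le_of_lt h2.le (Nat.lt_succ_self _)) hr, hint⟩

theorem step (S0 : Setting) (h0 : Chi S0.F S0.g 1) :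
    ∃ S, Reach S0 S ∧ Chi S.F S.g 1 ∧ IsIntegral S.F S.α := by
  by_cases hf : ft S0.F S0.α = 0
  · exact ⟨S0, Reach.refl _, h0, _, minpoly.monic (Algebra.IsIntegral.isIntegral (S0.α [])), hf⟩
  have h1 : ∃ S, C0 S S0 := by
    obtain ⟨w, hw, hv⟩ := NC.exists_van hf
    obtain ⟨C⟩ := exists_cyc S0.T (n := w.length) (Nat.pos_of_ne_zero fun h => hw (by
      rw [List.length_eq_zero_iff.mp h, ft_nil])) S0.I
    obtain ⟨ch, h⟩ := exists_init S0.hT C S0.α hv rfl hw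
    exact ⟨_, child_C0 (Reach.refl _) h0 ch h⟩
  obtain ⟨S, hS⟩ : ∃ S, T3 S S0 := exists_min (fun S => S.d0 - S.w 1) (exists_T2g h1)
  obtain ⟨κ, hκ⟩ := Nat.exists_eq_add_of_le S.w_le
  obtain ⟨n, hn, hp⟩ := Nat.exists_infinite_primes (2 * S.z + 2 * (S.z * κ) + 3 * κ + 2)
  obtain ⟨C, ch, w0, B, H, hR⟩ := hS.1.1.1.xchild hp (by omega)
  have hz := hS.1.1.1.hz H
  have e1 := (hS.1.1.1.diag H).2.1
  have e2 := (hS.1.1.diag H).2
  have e3 : n * finrank S.F (V0 (WW S.F S.α) w0) + _ ≤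
    finrank (S.child ch).F (WW (S.child ch).F (S.child ch).α) + _ := H.W_lower S.hT hz hR
  have e4 := (S.child ch).w_le
  have e6 := hS.2 _ (hS.1.diag H)
  rw [show finrank S.F (V0 (WW S.F S.α) w0) = S.d0 from finrank_V0 H.ne hS.1.2] at e3
  rw [w_one, w_one] at e6
  have hS' : T3 (S.child ch) S0 := ⟨hS.1.diag H, fun S' h' => le_trans (by
    rw [w_one, w_one]; omega) (hS.2 S' h')⟩
  have p1 : 0 < S.d0 := Nat.pos_of_dvd_of_pos (dz_dvd hS.1.1.1.good hS.1.1.1.1.2.2) S.d_pos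
  have p2 : n ≤ n * S.d0 := Nat.le_mul_of_pos_right n p1
  obtain ⟨w1, hw1, hne, hL⟩ := H.lr S.hT hz hS.1.2 e2.le
  have hY := hS'.yt (by rw [w_one]; omega) hw1 hne
  have e7 : finrank (S.child ch).F (V0 (WW (S.child ch).F (S.child ch).α) w1) = (S.child ch).d0 :=
    finrank_V0 hne hS'.1.2
  exact final (S := S.child ch) hS'.1.1.1.1.1 hw1 hne hS'.1.1.1.good hY
    (hL fun h hh h' hh' => (hY.bet_mem hh hh').1) (ch.chi S.hT hS.1.1.1.1.2.1) (κ := κ)
    (e7.trans (by omega)) e1 hn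

end Setting

end Vale.Agent.P199
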