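import Vale.Agent.P199.Fam

/-! Consequences of the test specializations. -/

namespace Vale.Agent.P199

open Finset Module Polynomial Lau

set_option linter.unusedSectionVars false

variable {F Δ : Type} [Field F] [CharZero F] [DivisionRing Δ] [Algebra F Δ]
  [FiniteDimensional F Δ] {I J : Type} [Fintype I] [Fintype J] {T : Δ →ₗ[F] F} {n : ℕ}

theorem Cyc.ytest (C : Cyc T n J) (hT : IsTr T) {c : Δ} {W V : Submodule F Δ} (hWV : W ≤ V)
    (hV : V ≤ (Zc F c).toSubmodule) (o : List J → Δ) (ho : ∀ w ∈ words J n, o w ∈ Zc F c)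
    (h : ∀ t0 ∈ C.NN c W V, ∑ w ∈ words J n,
      C.T0 (t0 * (C.lam (thp C.σ C.θ w) * C.ι (o w))) = 0) (w : List J) (hw : w.length = n) :
    o w ∈ V ∧ ∑ k ∈ range n, o (w.rotate k) ∈ W := by
  have e : ∀ l t, ∑ w ∈ words J n,
      C.T0 (C.lam l * C.ι t * (C.lam (thp C.σ C.θ w) * C.ι (o w))) =
      C.Tr (l * ∑ w ∈ words J n, C.φ (T (t * o w)) • thp C.σ C.θ w) := fun l t => by
    rw [mul_sum, map_sum]
    refine sum_congr rfl fun w _ => ?_
    rw [mul_assoc, C.T0_lam, ← mul_assoc, ← C.c1, mul_assoc, ← map_mul, C.τ0]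
  have e2 : ∀ l t v, C.τ (C.lam l * C.ι t * C.ι v) = C.φ (T (t * v)) • l := fun l t v => by
    rw [mul_assoc, ← map_mul, C.τ0]
  constructor
  · rw [← perp_perp hT _ hV]
    refine ⟨ho w (mem_words.mpr hw), fun t ht => ?_⟩
    rw [hT.comm]
    refine C.indep (fun w => T (t * o w)) (C.Tr_nd fun l => ?_) w (mem_words.mpr hw)
    rw [← e]
    exact h _ ⟨C.lam_ι_mem ht.1 l, fun v hv => by rw [e2, ht.2 v (hWV hv)]; simp,
      fun v hv => ⟨0, by rw [e2, ht.2 v hv]; simp⟩⟩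
  · rw [← perp_perp hT _ (hWV.trans hV)]
    refine ⟨sum_mem fun k _ => ho _ (by simpa [mem_words] using hw), fun t ht => ?_⟩
    rw [hT.comm, mul_sum, map_sum]
    refine C.indep (fun w => ∑ k ∈ range n, T (t * o (w.rotate k))) ?_ w (mem_words.mpr hw)
    have h1 := h _ ⟨C.lam_ι_mem ht.1 1, fun v hv => by rw [e2, ht.2 v hv]; simp,
      fun v hv => ⟨C.φ (T (t * v)), by rw [e2, Algebra.smul_def, mul_one]⟩⟩
    rw [e, one_mul] at h1
    have h2 := C.Tr_spec (∑ w ∈ words J n, C.φ (T (t * o w)) • thp C.σ C.θ w)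
    rw [h1, map_zero] at h2
    simp only [map_sum, sum_smul]
    rw [sum_comm, h2]
    refine sum_congr rfl fun k _ => ?_
    rw [map_sum, ← sum_words_rotate n k fun w => (C.σ ^ k) (C.φ (T (t * o w)) • thp C.σ C.θ w)]
    refine sum_congr rfl fun w hw => ?_
    rw [map_smul, C.thp_rotate k w (mem_words.mp hw)]

theorem exists_init (hT : IsTr T) (C : Cyc T n I) (α : NC I Δ) (hv : NC.Van n (ft F α))
    {w0 : List I} (hw : w0.length = n) (hne : ft F α w0 ≠ 0) :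
    ∃ ch : Child C I, WW (Lau C.F2) (ch.ψ α) ≠ ⊥ := by
  obtain ⟨ch, hch⟩ := exists_child C (fun j => mono 1 (C.lam (C.θ j) * C.π))
    (fun _ => mono_O _ _) fun j => mono_LP _ (by simpa using C.mem_P0 (C.θ j) 1)
  refine ⟨ch, ch.nz α hT fun h0 => hne ?_⟩
  have h1 := C.lead_coeff (hch ▸ ch.isEv) hv (1 * n) (by omega)
  simp only [h0, zero_sub, co_neg, co_mono_self, neg_eq_zero, smul_eq_zero, C.εne,
    false_or] at h1
  refine hT.nd (Z := ⊤) trivial fun t _ => ?_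
  refine C.indep (fun w => T (ft F α w * t)) ?_ w0 (mem_words.mpr hw)
  have := congrArg (fun x => C.τ (x * C.ι t)) h1
  simpa only [sum_mul, map_sum, mul_assoc, ← map_mul, C.τ0, zero_mul, map_zero] using this

theorem exists_good (hT : IsTr T) (C : Cyc T 1 J) (α : NC I Δ) {w : Δ} (hw : w ∈ WW F α)
    (hK : w ∉ Kc F (α [])) : ∃ ch : Child C I, WW (Lau C.F2) (ch.ψ α) ≠ ⊥ ∧
      finrank (Lau C.F2) (Zc (Lau C.F2) (ch.ψ α [])) ≤ finrank F (Zc F (α [])) ∧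
      finrank F (Kc F (α [])) < finrank (Lau C.F2) (Kc (Lau C.F2) (ch.ψ α [])) := by
  obtain ⟨h, rfl⟩ := hw
  obtain ⟨ch, hch⟩ := exists_child C (C.dir h (mono 1 1)) (C.dir_O _ (mono_O _ _))
    (C.dir_PP _ (mono_LP _ (one_mem C.P0)))
  have hκ : pd F (α []) * ell F α h ∉ Kc F (α []) := fun h' => hK (by
    have := mul_mem (inv_mem_subalg _ (pd_mem (F := F) (α []))) h'
    rwa [← mul_assoc, inv_mul_cancel₀ (pd_ne _), one_mul] at this)
  have h1 := ch.isEv.e1' ch.τO (ft F α)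
  rw [ft_nil, map_zero, sub_zero, hch, C.sum_dir, lin_ft, C.ιι_apply, C_eq, mono_mul, add_zero,
    one_mul] at h1
  have h2 := h1 1 (by norm_num)
  rw [co_sub, sub_eq_zero, co_mono_self] at h2
  have h3 : ch.ψ (ft F α) [] ∈ O C.E 1 := by simpa [ft_nil] using ch.isEv.e1 ch.τO (ft F α)
  have hfix : ∀ l, ∃ u, C.lam l = algebraMap C.F2 C.E u := fun l => by
    obtain ⟨u, hu⟩ := C.fix l (by rw [← pow_one C.σ, C.σn]; rfl)
    exact ⟨u, by rw [← hu, AlgHom.commutes]⟩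
  refine ⟨ch, ch.nz α hT fun h0 => hκ ?_, ?_, ?_⟩
  · rw [h0, co_zero, eq_comm, _root_.map_eq_zero] at h2
    rw [h2]; exact zero_mem _
  · have : red (Zc (Lau C.F2) (ch.ψ α [])).toSubmodule ≤ (C.ZZ (α [])).toSubmodule := by
      rintro _ ⟨t, ht, ht', rfl⟩
      obtain ⟨u, hu⟩ := hfix C.θ'
      exact Cyc.mem_ZZ.mpr ⟨ch.co_comm_c α ht ht', by rw [hu, Algebra.commutes]⟩
    exact le_trans ((finrank_red _).symm.le.trans (Submodule.finrank_mono this))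
      ((C.finrank_ZZ hT _).trans (one_mul _).le)
  · have h4 := C.lb_one hT ((Kc F (α [])).toSubmodule ⊔ Submodule.span F {pd F (α []) * ell F α h})
      (redA (Kc (Lau C.F2) (ch.ψ α []))).toSubmodule fun l v hv => by
        obtain ⟨u, hu⟩ := hfix l
        obtain ⟨k, hk, y, hy, rfl⟩ := Submodule.mem_sup.mp hv
        obtain ⟨r, rfl⟩ := Submodule.mem_span_singleton.mp hy
        rw [hu, map_add, C.ι_smul]
        refine Subalgebra.mul_mem _ (Subalgebra.algebraMap_mem _ _)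
          (add_mem (ch.red_K α hk) (Subalgebra.smul_mem _ ?_ _))
        exact ⟨mono (-1) (1 : C.F2) • ch.ψ (ft F α) [], Submodule.smul_mem _ _ (ch.aeval_mem α _),
          by simpa using shift_O (F := C.F2) (k := -1) h3, by rw [co_shift, ← h2]; simp⟩
    rw [Submodule.finrank_sup_span_singleton hκ, one_mul] at h4
    exact lt_of_lt_of_le (Nat.lt_succ_self _) (h4.trans (finrank_red _).le)

namespace Child

variable {C : Cyc T n J} {ch : Child C I} {α : NC I Δ} {w0 : Δ} {a : ℤ} {B : C.E}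

theorem Lead.a_pos (H : ch.Lead α w0 a B) : 1 ≤ a := by
  have h3 : ch.ψ (ft F α) [] ∈ O C.E 1 := by simpa [ft_nil] using ch.isEv.e1 ch.τO (ft F α)
  by_contra hc
  have h1 := H.P0
  rw [h3 a (by omega)] at h1
  have h2 : C.θ' = 0 := (_root_.map_eq_zero C.lam).mp ((mul_eq_zero.mp h1.symm).resolve_left H.κ_ne)
  have := Nat.le_of_dvd one_pos (C.θne 1 (by rw [h2, map_zero]))
  have := H.hn
  omega

theorem Lead.ad_inv (H : ch.Lead α w0 a B) (hT : IsTr T)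
    (hz : n * finrank F (Zc F (α [])) ≤ finrank (Lau C.F2) (Zc (Lau C.F2) (ch.ψ α [])))
    {ζ : Lau C.E} (hζ : ζ ∈ LinearMap.range (ad (Lau C.F2) (ch.ψ α [])))
    (h1 : ζ * ch.ψ α [] - ch.ψ α [] * ζ ∈ O C.E 0)
    (h2 : ζ * ch.ψ (ft F α) [] - ch.ψ (ft F α) [] * ζ ∈ O C.E 0) : ζ ∈ O C.E (-a) := by
  by_cases h0 : ζ = 0
  · exact h0 ▸ zero_mem _
  obtain ⟨j, hj, hj'⟩ := exists_lead h0
  by_cases hja : -a ≤ j
  · exact O_anti hja hj
  exfalso
  have ha := H.a_pos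
  have k1 := h1 j (by omega)
  rw [co_sub, sub_eq_zero, co_lead hj (ch.ψ_O α) (add_zero j).symm,
    co_lead (ch.ψ_O α) hj (zero_add j).symm, co_ψ] at k1
  have k2 := h2 (j + a) (by omega)
  rw [co_sub, sub_eq_zero, co_lead hj H.PO rfl, co_lead H.PO hj (add_comm j a)] at k2
  refine hj' ((C.isTr hT).nd (H.comm_θ k1.symm k2.symm) fun y hy => ?_)
  obtain ⟨t, ht, ht0, rfl⟩ : y ∈ red (Zc (Lau C.F2) (ch.ψ α [])).toSubmodule :=
    H.red_Z_eq hT hz ▸ hy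
  obtain ⟨η, rfl⟩ := hζ
  have := congrArg (co · j) ((C.isTr hT).lau.ad_eq ht η)
  simp only [co_mapF, co_lead ht0 hj (zero_add j).symm, co_zero] at this
  rw [(C.isTr hT).comm, this]

theorem Lead.lr_core (H : ch.Lead α w0 a B) (hT : IsTr T)
    (hz : n * finrank F (Zc F (α [])) ≤ finrank (Lau C.F2) (Zc (Lau C.F2) (ch.ψ α [])))
    {t : Lau C.E} (ht : t ∈ Zc (Lau C.F2) (ch.ψ α [])) (ht0 : t ∈ O C.E 0) (h h' : I → F)
    {x y : Lau C.E} (hx : x ∈ C.PP) (hx0 : x ∈ O C.E 0) (hy : y ∈ C.PP) (hy0 : y ∈ O C.E 0)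
    (k1 : ell (Lau C.F2) (ch.ψ α) (ch.par (C.dir h (ad (Lau C.F2) (Lau.C (C.lam C.θ')) x))) = 0)
    (k2 : ell (Lau C.F2) (ch.ψ α) (ch.par (C.dir h' y)) = 0)
    (k3 : mapF C.T0 (t * ((pd (Lau C.F2) (ch.ψ α []))⁻¹ * quad (Lau C.F2) (ft (Lau C.F2) (ch.ψ α))
      (ch.par (C.dir h (ad (Lau C.F2) (Lau.C (C.lam C.θ')) x))) (ch.par (C.dir h' y)))) = 0) :
    C.T0 (co t 0 * C.ι (ell F α h * (w0⁻¹ * ell F α h')) * co x 0 * co y 0) = 0 := by
  have ha := H.a_pos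
  have hθ : Lau.C (C.lam C.θ') ∈ C.PP := mono_LP 0 (C.lam_P0 _)
  set x' := ad (Lau C.F2) (Lau.C (C.lam C.θ')) x with hx'
  have hx'P : x' ∈ C.PP := sub_mem (mul_LP hx hθ) (mul_LP hθ hx)
  have hx'O : x' ∈ O C.E 0 :=
    sub_mem (O_mul' hx0 (C_O _) (by simp)) (O_mul' (C_O _) hx0 (by simp))
  have hx'0 : co x' 0 = co x 0 * C.lam C.θ' - C.lam C.θ' * co x 0 := by
    rw [hx', ad_apply, co_sub, co_mul_C, co_C_mul]
  obtain ⟨ζ, hζ, e⟩ := (C.isTr hT).lau.decomp (ch.ψ α [])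
    (lin (Lau C.F2) (ch.ψ α) (ch.par (C.dir h' y)))
  rw [show pr (Lau C.F2) (ch.ψ α []) _ = 0 from k2, zero_add, ad_apply] at e
  have e2 : lin (Lau C.F2) (ch.ψ (ft F α)) (ch.par (C.dir h' y)) =
      ζ * ch.ψ (ft F α) [] - ch.ψ (ft F α) [] * ζ := by
    rw [ft, lin_ψ_aeval, e, dp_comm, ψ_aeval, aeval_nil]
  have hA' := ch.lin_O (C.dir_PP h' hy) (C.dir_O h' hy0)
  have hζO := H.ad_inv hT hz hζ (e ▸ hA' α) (e2 ▸ hA' _)
  have c0 : C.ι (α []) * co ζ (-a) = co ζ (-a) * C.ι (α []) := by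
    have := hA' α (-a) (by omega)
    rw [e, co_sub, sub_eq_zero, co_lead hζO (ch.ψ_O α) (add_zero _).symm,
      co_lead (ch.ψ_O α) hζO (zero_add _).symm, co_ψ] at this
    exact this.symm
  have c1 : co ζ (-a) * C.lam C.θ' - C.lam C.θ' * co ζ (-a) =
      co y 0 * C.ι (w0⁻¹ * ell F α h') := by
    have := ch.lin_dir h' hy ch.τO hy0 (ft F α) 0 (by norm_num)
    rw [co_sub, sub_eq_zero, e2, co_sub, co_lead hζO H.PO (by omega), co_lead H.PO hζO (by omega),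
      H.P0, C.ιι_apply, co_mul_C, lin_ft, ← mul_assoc, ← C.comm_ι c0 H.κ_mem, mul_assoc,
      mul_assoc, ← mul_sub] at this
    apply mul_left_cancel₀ H.κ_ne
    rw [this, ← mul_assoc, ← C.P0_comm (hy 0), mul_assoc, ← map_mul, mul_assoc,
      mul_inv_cancel_left₀ H.ne]
  have hA := ch.lin_O (C.dir_PP h hx'P) (C.dir_O h hx'O) α
  have hA0 := ch.lin_dir h hx'P ch.τO hx'O α 0 (by norm_num)
  rw [co_sub, sub_eq_zero, C.ιι_apply, co_mul_C] at hA0
  rw [ft, quad_aeval _ _ _ _ ζ e, dp_eq_pr, dp_eq_pr,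
    show pr (Lau C.F2) (ch.ψ α []) (lin _ _ _) = 0 from k1, mul_zero, zero_mul, sub_zero,
    inv_mul_cancel_left₀ (pd_ne _), (C.isTr hT).lau.pr_eq ht] at k3
  have k4 := congrArg (co · (-a)) k3
  simp only [co_mapF, co_zero, mul_add, co_add] at k4
  rw [O_mul ht0 (ch.quad_O (C.dir_PP h hx'P) (C.dir_PP h' hy) (C.dir_O h hx'O) (C.dir_O h' hy0) α)
    _ (by omega), zero_add, co_lead ht0 (O_mul hA hζO) (by omega), zero_add,
    co_lead hA hζO (by omega), hA0, ← mul_assoc, (C.isTr hT).comm, ← mul_assoc, ← mul_assoc,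
    C.T0_apply, ← C.τ_pr hT (c := α []), ← C.T0_apply] at k4
  · obtain ⟨t1, t2⟩ := Cyc.mem_ZZ.mp (H.co_mem ht ht0)
    have f1 : C.T0 (co ζ (-a) * co t 0 * (co x 0 * C.lam C.θ') * C.ι (ell F α h)) =
        C.T0 (co t 0 * co x 0 * C.ι (ell F α h) * (C.lam C.θ' * co ζ (-a))) := by
      rw [mul_assoc, mul_assoc, (C.isTr hT).comm, mul_assoc (co x 0), C.c1]
      simp only [mul_assoc]
    have f2 : C.T0 (co ζ (-a) * co t 0 * (C.lam C.θ' * co x 0) * C.ι (ell F α h)) =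
        C.T0 (co t 0 * co x 0 * C.ι (ell F α h) * (co ζ (-a) * C.lam C.θ')) := by
      rw [(C.isTr hT).comm _ (_ * _), mul_assoc (co ζ (-a)), ← mul_assoc (co t 0), ← t2]
      simp only [mul_assoc]
    rw [hx'0, mul_sub, sub_mul, map_sub, show pr F (α []) (lin F α h) = ell F α h from rfl, f1, f2,
      ← map_sub, ← mul_sub, ← neg_sub, c1, mul_neg, map_neg, neg_eq_zero] at k4
    rw [← k4, C.P0_comm (hy 0), mul_assoc (co t 0), ← C.P0_comm (hx 0), map_mul C.ι]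
    simp only [mul_assoc]
  · rw [← mul_assoc, ← mul_assoc, c0, mul_assoc _ (C.ι _), ch.co_comm_c α ht ht0, mul_assoc,
      mul_assoc, ← C.P0_comm (hx'P 0)]
    simp only [mul_assoc]

end Child

end Vale.Agent.P199
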